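import Vale.Agent.P207.N3.H992.Fwd2

/-!
# P207, line N3, P4: iterates of the normal forms are normal forms
-/

noncomputable section

namespace Vale.Agent.P207.N3.H992

open Set Metric Filter Topology

theorem iter_tri {μ₁ μ₂ a : ℝ} {k : ℕ} (ha : a ≠ 0 → μ₁ = μ₂ ^ k) (j : ℕ) (x : Pl) :
    (fun x : Pl => (!₂[μ₁ * x 0 + a * x 1 ^ k, μ₂ * x 1] : Pl))^[j + 1] x =
      !₂[μ₁ ^ (j + 1) * x 0 + ((j + 1 : ℝ) * a * μ₁ ^ j) * x 1 ^ k, μ₂ ^ (j + 1) * x 1] := by
  induction j generalizing x with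
  | zero => simp
  | succ j ih =>
    rw [Function.iterate_succ_apply, ih]
    ext i
    fin_cases i
    · change μ₁ ^ (j + 1) * (μ₁ * x 0 + a * x 1 ^ k) +
        ((j + 1 : ℝ) * a * μ₁ ^ j) * (μ₂ * x 1) ^ k =
        μ₁ ^ (j + 1 + 1) * x 0 + (((j + 1 : ℕ) + 1 : ℝ) * a * μ₁ ^ (j + 1)) * x 1 ^ k
      rcases eq_or_ne a 0 with h | h
      · rw [h]; ring
      · rw [mul_pow, ← ha h]
        push_cast
        ring
    · change μ₂ ^ (j + 1) * (μ₂ * x 1) = μ₂ ^ (j + 1 + 1) * x 1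
      ring

theorem iter_cx (c s : ℝ) (j : ℕ) : ∃ c' s' : ℝ, c' ^ 2 + s' ^ 2 = (c ^ 2 + s ^ 2) ^ j ∧
    (fun x : Pl => (!₂[c * x 0 - s * x 1, s * x 0 + c * x 1] : Pl))^[j] =
      fun x : Pl => !₂[c' * x 0 - s' * x 1, s' * x 0 + c' * x 1] := by
  induction j with
  | zero =>
    refine ⟨1, 0, by simp, ?_⟩
    funext x
    ext i
    fin_cases i <;> simp
  | succ j ih =>
    obtain ⟨c', s', h1, h2⟩ := ih
    refine ⟨c' * c - s' * s, s' * c + c' * s, ?_, ?_⟩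
    · have h3 : (c ^ 2 + s ^ 2) ^ (j + 1) = (c' ^ 2 + s' ^ 2) * (c ^ 2 + s ^ 2) := by
        rw [h1, pow_succ]
      rw [h3]
      ring
    · funext x
      rw [Function.iterate_succ_apply, h2]
      ext i
      fin_cases i
      · change c' * (c * x 0 - s * x 1) - s' * (s * x 0 + c * x 1) =
          (c' * c - s' * s) * x 0 - (s' * c + c' * s) * x 1
        ring
      · change s' * (c * x 0 - s * x 1) + c' * (s * x 0 + c * x 1) =
          (s' * c + c' * s) * x 0 + (c' * c - s' * s) * x 1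
        ring

/-- iterates of a normal form -/
theorem IsNF.iter {N : Pl → Pl} (hN : IsNF N) {j : ℕ} (hj : 0 < j) : IsNF (N^[j]) := by
  obtain ⟨n, rfl⟩ : ∃ n, j = n + 1 := ⟨j - 1, by omega⟩
  cases hN with
  | tri μ₁ μ₂ a k h2 h1 ha =>
    have e : (fun x : Pl => (!₂[μ₁ * x 0 + a * x 1 ^ k, μ₂ * x 1] : Pl))^[n + 1] = fun x =>
        !₂[μ₁ ^ (n + 1) * x 0 + ((n + 1 : ℝ) * a * μ₁ ^ n) * x 1 ^ k, μ₂ ^ (n + 1) * x 1] :=
      funext (iter_tri (fun h => (ha h).2) n)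
    rw [e]
    refine IsNF.tri _ _ _ _ ?_ ?_ fun h => ?_
    · rw [abs_pow]
      exact one_lt_pow₀ h2 (by omega)
    · rw [abs_pow, abs_pow]
      gcongr
    · have h3 : a ≠ 0 := by
        rintro rfl
        simp at h
      refine ⟨(ha h3).1, ?_⟩
      rw [← pow_mul, mul_comm, pow_mul, ← (ha h3).2]
  | cx c s hs h =>
    obtain ⟨c', s', h1, h2⟩ := iter_cx c s (n + 1)
    rw [h2]
    have h3 : 1 < c' ^ 2 + s' ^ 2 := by
      rw [h1]
      exact one_lt_pow₀ h (by omega)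
    rcases eq_or_ne s' 0 with h4 | h4
    · subst h4
      have h5 : 1 < |c'| := by
        rw [← one_lt_sq_iff_one_lt_abs]
        simpa using h3
      have e : (fun x : Pl => (!₂[c' * x 0 - 0 * x 1, 0 * x 0 + c' * x 1] : Pl)) =
          fun x : Pl => !₂[c' * x 0 + 0 * x 1 ^ 1, c' * x 1] := by
        funext x
        ext i
        fin_cases i <;> simp
      rw [e]
      exact IsNF.tri c' c' 0 1 h5 le_rfl (fun h => absurd rfl h)
    · exact IsNF.cx c' s' h4 h3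

end Vale.Agent.P207.N3.H992
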