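import Vale.Agent.P207.N3.H992.LeafBd
import Vale.Agent.P207.N3.H992.Iter
import Vale.Agent.P207.N3.H147.Fwd
import Vale.Agent.P207.N3.Top.Orb

/-!
# P207, line N3, P4: the forward coordinates of a power of a closed orbit are forward coordinates of
the orbit
-/

noncomputable section

namespace Vale.Agent.P207.N3.H992

open Set Metric Filter Topology
open scoped ContDiff

universe u

/-- closeness in `C^k` after composition with a fixed smooth map, uniform constant -/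
theorem close_unif {E E' F : Type u} [NormedAddCommGroup E] [NormedSpace ℝ E]
    [NormedAddCommGroup E'] [NormedSpace ℝ E'] [FiniteDimensional ℝ E']
    [NormedAddCommGroup F] [NormedSpace ℝ F] {H : E' → F} (hH : ContDiff ℝ ∞ H) (R : ℝ) (k : ℕ)
    (M : ℕ → ℝ) (D : ℝ) : ∃ C : ℝ, 0 ≤ C ∧ ∀ (z z' : E → E') (δ : ℝ), 0 < δ → δ ≤ D →
    ContDiffOn ℝ k z (ball 0 R) → ContDiffOn ℝ k z' (ball 0 R) →
    (∀ j ≤ k, ∀ x ∈ ball (0 : E) R, ‖iteratedFDeriv ℝ j z' x‖ ≤ M j) →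
    (∀ j ≤ k, ∀ x ∈ ball (0 : E) R, ‖iteratedFDeriv ℝ j z x - iteratedFDeriv ℝ j z' x‖ ≤ δ) →
    ∀ x ∈ ball (0 : E) R, ‖iteratedFDeriv ℝ k (fun x => H (z x)) x -
      iteratedFDeriv ℝ k (fun x => H (z' x)) x‖ ≤ C * δ := by
  let α : Type u := {p : ((E → E') × (E → E')) × ℝ // 0 < p.2 ∧ p.2 ≤ D ∧
    ContDiffOn ℝ k p.1.1 (ball 0 R) ∧ ContDiffOn ℝ k p.1.2 (ball 0 R) ∧
    (∀ j ≤ k, ∀ x ∈ ball (0 : E) R, ‖iteratedFDeriv ℝ j p.1.2 x‖ ≤ M j) ∧
    (∀ j ≤ k, ∀ x ∈ ball (0 : E) R,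
      ‖iteratedFDeriv ℝ j p.1.1 x - iteratedFDeriv ℝ j p.1.2 x‖ ≤ p.2)}
  obtain ⟨C, hC⟩ := close_left (R := R) (α := α) hH (z := fun p => p.1.1.1)
    (z' := fun p => p.1.1.2) (w := fun p => p.1.2) (k := k) (fun p => p.2.2.2.1)
    (fun p => p.2.2.2.2.1) (fun j hj => ⟨M j, fun p => p.2.2.2.2.2.1 j hj⟩) (fun p => p.2.1)
    ⟨D, fun p => p.2.2.1⟩ (fun j hj => ⟨1, fun p x hx => by
      rw [one_mul]
      exact p.2.2.2.2.2.2 j hj x hx⟩)
  refine ⟨|C|, abs_nonneg C, fun z z' δ h1 h2 h3 h4 h5 h6 x hx => ?_⟩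
  refine (hC ⟨((z, z'), δ), h1, h2, h3, h4, h5, h6⟩ x hx).trans ?_
  exact mul_le_mul_of_nonneg_right (le_abs_self C) h1.le

/-- estimates pass to the closed ball -/
theorem to_closed {E F : Type u} [NormedAddCommGroup E] [NormedSpace ℝ E]
    [NormedAddCommGroup F] [NormedSpace ℝ F] {z z' : E → F} {r R C : ℝ} {k : ℕ}
    (hr : r < R) (hr0 : r ≠ 0)
    (hz : ContDiffOn ℝ ∞ z (ball 0 R)) (hz' : ContDiffOn ℝ ∞ z' (ball 0 R))
    (h : ∀ x ∈ ball (0 : E) r, ‖iteratedFDeriv ℝ k z x - iteratedFDeriv ℝ k z' x‖ ≤ C) :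
    ∀ x ∈ closedBall (0 : E) r, ‖iteratedFDeriv ℝ k z x - iteratedFDeriv ℝ k z' x‖ ≤ C := by
  have hc : ∀ {g : E → F} (_ : ContDiffOn ℝ ∞ g (ball 0 R)),
      ContinuousOn (iteratedFDeriv ℝ k g) (closedBall 0 r) := by
    intro g hg
    have h5 := hg.continuousOn_iteratedFDerivWithin (m := k) (by exact_mod_cast le_top)
      isOpen_ball.uniqueDiffOn
    refine (h5.congr fun x hx => (iteratedFDerivWithin_of_isOpen k isOpen_ball hx).symm).mono ?_
    exact closedBall_subset_ball hr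
  intro x hx
  rw [← closure_ball (0 : E) hr0] at hx hc
  exact le_on_closure h ((hc hz).sub (hc hz')).norm continuousOn_const hx

variable {Γ X B : Type} [Group Γ] [MetricSpace X] [ProperSpace X] [MulAction Γ X]
  [IsIsometricSMul Γ X] [TopologicalSpace B] [CompactSpace B] [T2Space B] [MulAction Γ B]
  [ContinuousConstSMul Γ B] {L : Leaf Γ X B}

theorem pow_smul_neg (o : Orb L) (i : ℕ) : o.β ^ i • o.neg = o.neg := by
  induction i with
  | zero => simp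
  | succ i ih => rw [pow_succ, mul_smul, o.smul_neg, ih]

theorem pow_smul_ne {o : Orb L} (i : ℕ) {η : B} (h : η ≠ o.neg) : o.β ^ i • η ≠ o.neg := by
  intro h1
  apply h
  have h2 := congrArg (fun η => (o.β ^ i)⁻¹ • η) h1
  simp only [inv_smul_smul] at h2
  rw [h2, inv_smul_eq_iff, pow_smul_neg]

/-- the functional equation, iterated -/
theorem x_iter {o : Orb L} {x : B → E2} {N : E2 → E2}
    (hx : ∀ η, η ≠ o.neg → x (o.β⁻¹ • η) = N (x η)) (i : ℕ) {η : B} (hη : η ≠ o.neg) :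
    x η = N^[i] (x (o.β ^ i • η)) := by
  induction i with
  | zero => simp
  | succ i ih =>
    have h := hx (o.β ^ (i + 1) • η) (pow_smul_ne _ hη)
    rw [pow_succ' o.β i, mul_smul, inv_smul_smul] at h
    rw [Function.iterate_succ_apply, pow_succ' o.β i, mul_smul, ← h]
    exact ih

section

/-- the frames of the charts of `β^m`, `m = j n + i` -/
theorem frame_pow (o : Orb L) (j i n : ℕ) {ζ : B} {y : X}
    (hne : ((o.β ^ j) ^ n)⁻¹ • ζ ≠ L.ep (o.β ^ i • y)) {u : E2}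
    (hu : u ∈ closedBall (0 : E2) 3) :
    (o.β ^ (j * n + i))⁻¹ • ζ ≠ L.ep y ∧
    o.β ^ (j * n + i) • L.e (L.hol ((o.β ^ (j * n + i))⁻¹ • ζ) y) u =
      (o.β ^ j) ^ n • L.e (L.hol (((o.β ^ j) ^ n)⁻¹ • ζ) (o.β ^ i • y)) u := by
  have h1 : ((o.β ^ j) ^ n)⁻¹ • ζ = o.β ^ i • ((o.β ^ (j * n + i))⁻¹ • ζ) := by
    rw [pow_add, pow_mul, mul_inv_rev, mul_smul, smul_inv_smul]
  have h2 : (o.β ^ (j * n + i))⁻¹ • ζ ≠ L.ep y := by
    intro h
    apply hne
    rw [h1, h, Orb.ep_smul']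
  refine ⟨h2, ?_⟩
  rw [h1, L.hol_smul _ _ _ h2, L.e_smul _ _ _ hu, pow_add, pow_mul, mul_smul]

theorem contDiff_iter {N : E2 → E2} (hN : ContDiff ℝ ∞ N) (i : ℕ) : ContDiff ℝ ∞ (N^[i]) := by
  induction i with
  | zero => exact contDiff_id
  | succ i ih => exact ih.comp hN

/-- iteration `m = j n + i` of the normal form -/
theorem iter_split {α : Type*} (N : α → α) (j i n : ℕ) (a : α) :
    N^[j * n + i] a = N^[i] ((N^[j])^[n] a) := by
  rw [add_comm, Function.iterate_add_apply, Function.iterate_mul]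

/-- the properties of a compact set of frames, moved by `β^i` -/
theorem frames_move (o : Orb L) (i : ℕ) {Q : Set X} (hQ : IsCompact Q)
    (hQn : ∀ y ∈ Q, L.em y = o.neg) :
    IsCompact ((fun y => o.β ^ i • y) '' Q) ∧ ∀ y ∈ (fun y => o.β ^ i • y) '' Q,
      L.em y = o.neg := by
  refine ⟨hQ.image (continuous_const_smul _), ?_⟩
  rintro _ ⟨y, hy, rfl⟩
  rw [L.em_smul, hQn y hy, pow_smul_neg]

/-- the limit function in the chart of `y` and of `β^i y` -/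
theorem lim_move {o : Orb L} {x : B → E2} {N : E2 → E2}
    (hx : ∀ η, η ≠ o.neg → x (o.β⁻¹ • η) = N (x η)) (i : ℕ) {y : X} (hy : L.em y = o.neg) {u : E2}
    (hu : u ∈ closedBall (0 : E2) 3) : x (L.e y u) = N^[i] (x (L.e (o.β ^ i • y) u)) := by
  have h1 : L.e y u ≠ o.neg := by
    rw [← hy]
    exact L.e_ne y u hu
  rw [x_iter hx i h1, L.e_smul _ _ _ hu]

/-- `conv` and `conv3` for `m = j n + i` -/
theorem pow_conv {o : Orb L} {j : ℕ} (hj : 0 < j) {x : B → E2} {N : E2 → E2} {c : ℝ}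
    (hc : 0 ≤ c) (hx : ∀ η, η ≠ o.neg → x (o.β⁻¹ • η) = N (x η)) (hN : ContDiff ℝ ∞ N)
    (hxs : L.SmoothOn o.neg x) (W : H147.Fwd (o.pow j hj) x (N^[j]) c) (i : ℕ)
    {K : Set B} (hK : IsCompact K) (hKp : o.pos ∉ K) {Q : Set X} (hQ : IsCompact Q)
    (hQn : ∀ y ∈ Q, L.em y = o.neg) (k : ℕ) :
    (∃ C, 0 ≤ C ∧ ∀ᶠ n : ℕ in atTop, ∀ ζ ∈ K, ∀ y ∈ Q,
      (o.β ^ (j * n + i))⁻¹ • ζ ≠ L.ep y ∧
      (∀ u ∈ closedBall (0 : E2) 3,
        o.β ^ (j * n + i) • L.e (L.hol ((o.β ^ (j * n + i))⁻¹ • ζ) y) u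
          ∈ L.e (L.hol ζ o.x) '' ball 0 1) ∧
      ContDiffOn ℝ ∞ (fun u => N^[j * n + i] (W.F ζ
        (o.β ^ (j * n + i) • L.e (L.hol ((o.β ^ (j * n + i))⁻¹ • ζ) y) u))) (ball 0 3) ∧
      ∀ u ∈ closedBall (0 : E2) 1,
        ‖iteratedFDeriv ℝ k (fun u => N^[j * n + i] (W.F ζ
            (o.β ^ (j * n + i) • L.e (L.hol ((o.β ^ (j * n + i))⁻¹ • ζ) y) u))) u
          - iteratedFDeriv ℝ k (fun u => x (L.e y u)) u‖ ≤ C * Real.exp (-c * (j * o.l) * n)) ∧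
    ∀ ε > 0, ∀ᶠ n : ℕ in atTop, ∀ ζ ∈ K, ∀ y ∈ Q, ∀ u ∈ ball (0 : E2) 3,
      ‖iteratedFDeriv ℝ k (fun u => N^[j * n + i] (W.F ζ
          (o.β ^ (j * n + i) • L.e (L.hol ((o.β ^ (j * n + i))⁻¹ • ζ) y) u))) u
        - iteratedFDeriv ℝ k (fun u => x (L.e y u)) u‖ ≤ ε := by
  obtain ⟨hQ', hQn'⟩ := frames_move o i hQ hQn
  set Q' := (fun y => o.β ^ i • y) '' Q with hQ'd
  have hNi : ContDiff ℝ ∞ (N^[i]) := contDiff_iter hN i
  have hl : 0 < o.l := o.ax.pos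
  -- the families
  let zf : ℕ → B → X → E2 → E2 := fun n ζ y u => (N^[j])^[n] (W.F ζ
    ((o.β ^ j) ^ n • L.e (L.hol (((o.β ^ j) ^ n)⁻¹ • ζ) (o.β ^ i • y)) u))
  let zl : X → E2 → E2 := fun y u => x (L.e (o.β ^ i • y) u)
  have hconv : ∀ k' : ℕ, ∃ C, ∀ᶠ n : ℕ in atTop, ∀ ζ ∈ K, ∀ y ∈ Q,
      ((o.β ^ j) ^ n)⁻¹ • ζ ≠ L.ep (o.β ^ i • y) ∧
      (∀ u ∈ closedBall (0 : E2) 3,
        (o.β ^ j) ^ n • L.e (L.hol (((o.β ^ j) ^ n)⁻¹ • ζ) (o.β ^ i • y)) u
          ∈ L.e (L.hol ζ o.x) '' ball 0 1) ∧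
      ContDiffOn ℝ ∞ (zf n ζ y) (ball 0 3) ∧
      ∀ u ∈ closedBall (0 : E2) 1, ‖iteratedFDeriv ℝ k' (zf n ζ y) u
          - iteratedFDeriv ℝ k' (zl y) u‖ ≤ C * Real.exp (-c * (j * o.l) * n) := by
    intro k'
    obtain ⟨C, hC⟩ := W.conv K hK hKp Q' hQ' hQn' k'
    refine ⟨C, ?_⟩
    filter_upwards [hC] with n hn ζ hζ y hy
    exact hn ζ hζ _ ⟨y, hy, rfl⟩
  have hconv3 : ∀ k' : ℕ, ∀ ε > 0, ∀ᶠ n : ℕ in atTop, ∀ ζ ∈ K, ∀ y ∈ Q, ∀ u ∈ ball (0 : E2) 3,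
      ‖iteratedFDeriv ℝ k' (zf n ζ y) u - iteratedFDeriv ℝ k' (zl y) u‖ ≤ ε := by
    intro k' ε hε
    filter_upwards [W.conv3 K hK hKp Q' hQ' hQn' k' ε hε] with n hn ζ hζ y hy
    exact hn ζ hζ _ ⟨y, hy, rfl⟩
  -- smoothness and bounds of the limit
  have hzl : ∀ y ∈ Q, ContDiffOn ℝ ∞ (zl y) (ball 0 3) := fun y hy =>
    hxs _ (hQn' _ ⟨y, hy, rfl⟩)
  have hM : ∀ k' : ℕ, ∃ M, ∀ y ∈ Q, ∀ u ∈ ball (0 : E2) 3, ‖iteratedFDeriv ℝ k' (zl y) u‖ ≤ M := by
    intro k'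
    obtain ⟨M, hM⟩ := leaf_bdd L hxs hQ' k'
    exact ⟨M, fun y hy => hM _ ⟨y, hy, rfl⟩ (hQn' _ ⟨y, hy, rfl⟩)⟩
  choose M hM using hM
  -- the functions are the compositions
  have heq : ∀ n : ℕ, ∀ ζ ∈ K, ∀ y ∈ Q, ((o.β ^ j) ^ n)⁻¹ • ζ ≠ L.ep (o.β ^ i • y) →
      ∀ u ∈ closedBall (0 : E2) 3, N^[j * n + i] (W.F ζ
        (o.β ^ (j * n + i) • L.e (L.hol ((o.β ^ (j * n + i))⁻¹ • ζ) y) u)) =
          N^[i] (zf n ζ y u) := by
    intro n ζ _ y _ hne u hu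
    rw [(frame_pow o j i n hne hu).2, iter_split]
  have hev : ∀ {f g : E2 → E2} (_ : ∀ u ∈ closedBall (0 : E2) 3, f u = g u), ∀ u ∈
      ball (0 : E2) 3, iteratedFDeriv ℝ k f u = iteratedFDeriv ℝ k g u := by
    intro f g h u hu
    have h1 : f =ᶠ[𝓝 u] g := by
      filter_upwards [isOpen_ball.mem_nhds hu] with v hv using h v (ball_subset_closedBall hv)
    exact (h1.iteratedFDeriv ℝ k).eq_of_nhds
  have hlim : ∀ y ∈ Q, ∀ u ∈ ball (0 : E2) 3, iteratedFDeriv ℝ k (fun u => x (L.e y u)) u =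
      iteratedFDeriv ℝ k (fun u => N^[i] (zl y u)) u := fun y hy =>
    hev fun u hu => lim_move hx i (hQn y hy) hu
  have hb : closedBall (0 : E2) 1 ⊆ ball 0 3 := closedBall_subset_ball (by norm_num)
  have hb1 : ball (0 : E2) 1 ⊆ ball 0 3 := ball_subset_ball (by norm_num)
  have hk : ((k : ℕ) : WithTop ℕ∞) ≤ ∞ := by exact_mod_cast le_top
  constructor
  · choose C hC using hconv
    set D : ℝ := 1 + ∑ k' ∈ Finset.range (k + 1), |C k'| with hD
    have hDC : ∀ k' ≤ k, C k' ≤ D := by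
      intro k' hk'
      have h1 : |C k'| ≤ ∑ k' ∈ Finset.range (k + 1), |C k'| :=
        Finset.single_le_sum (f := fun k' => |C k'|) (fun i _ => abs_nonneg _) (by simp; omega)
      have h2 := le_abs_self (C k')
      linarith
    have hD0 : 0 < D := by
      have h1 : 0 ≤ ∑ k' ∈ Finset.range (k + 1), |C k'| :=
        Finset.sum_nonneg fun i _ => abs_nonneg _
      linarith
    obtain ⟨A, hA0, hA⟩ := close_unif (E := E2) hNi 1 k M D
    refine ⟨A * D, by positivity, ?_⟩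
    have hall : ∀ᶠ n : ℕ in atTop, ∀ k' ∈ Finset.range (k + 1), ∀ ζ ∈ K, ∀ y ∈ Q,
        ((o.β ^ j) ^ n)⁻¹ • ζ ≠ L.ep (o.β ^ i • y) ∧
        (∀ u ∈ closedBall (0 : E2) 3,
          (o.β ^ j) ^ n • L.e (L.hol (((o.β ^ j) ^ n)⁻¹ • ζ) (o.β ^ i • y)) u
            ∈ L.e (L.hol ζ o.x) '' ball 0 1) ∧
        ContDiffOn ℝ ∞ (zf n ζ y) (ball 0 3) ∧
        ∀ u ∈ closedBall (0 : E2) 1, ‖iteratedFDeriv ℝ k' (zf n ζ y) u
          - iteratedFDeriv ℝ k' (zl y) u‖ ≤ C k' * Real.exp (-c * (j * o.l) * n) := by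
      rw [Filter.eventually_all_finset]
      exact fun k' _ => hC k'
    filter_upwards [hall] with n hn ζ hζ y hy
    obtain ⟨h1, h2, h3, _⟩ := hn 0 (by simp) ζ hζ y hy
    have hz : ContDiffOn ℝ ∞ (fun u => N^[i] (zf n ζ y u)) (ball 0 3) :=
      hNi.comp_contDiffOn h3
    have hz' : ContDiffOn ℝ ∞ (fun u => N^[i] (zl y u)) (ball 0 3) :=
      hNi.comp_contDiffOn (hzl y hy)
    refine ⟨(frame_pow o j i n h1 (u := 0) (by simp)).1, fun u hu => ?_, ?_, ?_⟩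
    · rw [(frame_pow o j i n h1 hu).2]
      exact h2 u hu
    · exact hz.congr fun u hu => heq n ζ hζ y hy h1 u (ball_subset_closedBall hu)
    · intro u hu
      rw [hlim y hy u (hb hu), hev (heq n ζ hζ y hy h1) u (hb hu)]
      set δ : ℝ := D * Real.exp (-c * (j * o.l) * n) with hδ
      have hδ0 : 0 < δ := mul_pos hD0 (Real.exp_pos _)
      have hδD : δ ≤ D := by
        have h4 : Real.exp (-c * (j * o.l) * n) ≤ 1 := by
          rw [Real.exp_le_one_iff]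
          have : 0 ≤ c * (j * o.l) * n := by positivity
          linarith
        calc δ ≤ D * 1 := mul_le_mul_of_nonneg_left h4 hD0.le
          _ = D := mul_one D
      have h5 := hA (zf n ζ y) (zl y) δ hδ0 hδD ((h3.mono hb1).of_le hk)
        (((hzl y hy).mono hb1).of_le hk) (fun j' _ u hu => hM j' y hy u (hb1 hu))
        (fun j' hj' u hu => ((hn j' (by simp; omega) ζ hζ y hy).2.2.2 u
          (ball_subset_closedBall hu)).trans
          (mul_le_mul_of_nonneg_right (hDC j' hj') (Real.exp_pos _).le))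
      have h6 := to_closed (by norm_num) (by norm_num) hz hz' h5 u hu
      rw [hδ, ← mul_assoc] at h6
      exact h6
  · intro ε hε
    obtain ⟨A, hA0, hA⟩ := close_unif (E := E2) hNi 3 k M 1
    set δ : ℝ := min 1 (ε / (A + 1)) with hδ
    have hδ0 : 0 < δ := lt_min one_pos (by positivity)
    obtain ⟨C, hC⟩ := hconv 0
    have hall : ∀ᶠ n : ℕ in atTop, ∀ k' ∈ Finset.range (k + 1), ∀ ζ ∈ K, ∀ y ∈ Q,
        ∀ u ∈ ball (0 : E2) 3,
        ‖iteratedFDeriv ℝ k' (zf n ζ y) u - iteratedFDeriv ℝ k' (zl y) u‖ ≤ δ := by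
      rw [Filter.eventually_all_finset]
      exact fun k' _ => hconv3 k' δ hδ0
    filter_upwards [hall, hC] with n hn hn' ζ hζ y hy u hu
    obtain ⟨h1, _, h3, _⟩ := hn' ζ hζ y hy
    rw [hlim y hy u hu, hev (heq n ζ hζ y hy h1) u hu]
    have h5 := hA (zf n ζ y) (zl y) δ hδ0 (min_le_left _ _) (h3.of_le hk)
        ((hzl y hy).of_le hk) (fun j' _ u hu => hM j' y hy u hu)
        (fun j' hj' u hu => hn j' (by simp; omega) ζ hζ y hy u hu) u hu
    refine h5.trans ?_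
    have h6 : δ ≤ ε / (A + 1) := min_le_right _ _
    calc A * δ ≤ (A + 1) * (ε / (A + 1)) := by
          gcongr
          linarith
      _ = ε := by field_simp

/-- all residues at once -/
theorem eventually_mod {j : ℕ} (hj : 0 < j) {P : ℕ → ℕ → Prop}
    (h : ∀ i < j, ∀ᶠ n : ℕ in atTop, P i n) : ∀ᶠ m : ℕ in atTop, P (m % j) (m / j) := by
  have h1 : ∀ᶠ n : ℕ in atTop, ∀ i ∈ Finset.range j, P i n := by
    rw [Filter.eventually_all_finset]
    exact fun i hi => h i (Finset.mem_range.1 hi)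
  filter_upwards [(Nat.tendsto_div_const_atTop hj.ne').eventually h1] with m hm
  exact hm _ (Finset.mem_range.2 (Nat.mod_lt _ hj))

/-- **forward coordinates of the power `o^j` of a closed orbit are forward coordinates of `o`** -/
def fwd_of_pow {o : Orb L} {j : ℕ} (hj : 0 < j) {x : B → E2} {N : E2 → E2} {c : ℝ}
    (hc : 0 ≤ c) (hx : ∀ η, η ≠ o.neg → x (o.β⁻¹ • η) = N (x η)) (hN : ContDiff ℝ ∞ N)
    (hxs : L.SmoothOn o.neg x) (W : H147.Fwd (o.pow j hj) x (N^[j]) c) : H147.Fwd o x N c where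
  F := W.F
  base := W.base
  smooth := W.smooth
  cont := W.cont
  deriv := W.deriv
  conv := by
    intro K hK hKp Q hQ hQn k
    have h := fun i => (pow_conv hj hc hx hN hxs W i hK hKp hQ hQn k).1
    choose C hC0 hC using h
    have hl : 0 < o.l := o.ax.pos
    set D : ℝ := ∑ i ∈ Finset.range j, C i with hD
    have hDC : ∀ i < j, C i ≤ D := fun i hi =>
      Finset.single_le_sum (f := C) (fun i _ => hC0 i) (Finset.mem_range.2 hi)
    refine ⟨D * Real.exp (c * o.l * j), ?_⟩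
    filter_upwards [eventually_mod hj fun i _ => hC i] with m hm ζ hζ y hy
    have hm' : j * (m / j) + m % j = m := Nat.div_add_mod m j
    have hi : m % j < j := Nat.mod_lt _ hj
    have h1 := hm ζ hζ y hy
    rw [hm'] at h1
    refine ⟨h1.1, h1.2.1, h1.2.2.1, fun u hu => (h1.2.2.2 u hu).trans ?_⟩
    have h2 : Real.exp (-c * (j * o.l) * ((m / j : ℕ) : ℝ)) ≤
        Real.exp (c * o.l * j) * Real.exp (-c * o.l * m) := by
      rw [← Real.exp_add, Real.exp_le_exp]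
      have h3 : (m : ℝ) = j * ((m / j : ℕ) : ℝ) + ((m % j : ℕ) : ℝ) := by exact_mod_cast hm'.symm
      have h4 : ((m % j : ℕ) : ℝ) ≤ j := by exact_mod_cast hi.le
      have h5 : 0 ≤ c * o.l * (j - ((m % j : ℕ) : ℝ)) := by
        have : 0 ≤ (j : ℝ) - ((m % j : ℕ) : ℝ) := by linarith
        positivity
      rw [h3]
      linarith
    calc C (m % j) * Real.exp (-c * (j * o.l) * ((m / j : ℕ) : ℝ))
        ≤ D * (Real.exp (c * o.l * j) * Real.exp (-c * o.l * m)) := by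
          have h6 := hDC _ hi
          have h7 := hC0 (m % j)
          have h8 : 0 ≤ D := h7.trans h6
          gcongr
      _ = D * Real.exp (c * o.l * j) * Real.exp (-c * o.l * m) := by ring
  conv3 := by
    intro K hK hKp Q hQ hQn k ε hε
    have h := fun i => (pow_conv hj hc hx hN hxs W i hK hKp hQ hQn k).2 ε hε
    filter_upwards [eventually_mod hj fun i _ => h i] with m hm ζ hζ y hy
    have hm' : j * (m / j) + m % j = m := Nat.div_add_mod m j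
    have h1 := hm ζ hζ y hy
    rw [hm'] at h1
    exact h1

/-- the normal forms are smooth -/
theorem nf_contDiff {N : E2 → E2} (hN : IsNF N) : ContDiff ℝ ∞ N := by
  cases hN with
  | tri μ₁ μ₂ a k _ _ _ =>
    rw [contDiff_euclidean]
    intro i
    have h0 : ContDiff ℝ ∞ fun x : E2 => x 0 := contDiff_piLp_apply 2
    have h1 : ContDiff ℝ ∞ fun x : E2 => x 1 := contDiff_piLp_apply 2
    fin_cases i
    · exact (contDiff_const.mul h0).add (contDiff_const.mul (h1.pow k))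
    · exact contDiff_const.mul h1
  | cx c s _ _ =>
    rw [contDiff_euclidean]
    intro i
    have h0 : ContDiff ℝ ∞ fun x : E2 => x 0 := contDiff_piLp_apply 2
    have h1 : ContDiff ℝ ∞ fun x : E2 => x 1 := contDiff_piLp_apply 2
    fin_cases i
    · exact (contDiff_const.mul h0).sub (contDiff_const.mul h1)
    · exact (contDiff_const.mul h0).add (contDiff_const.mul h1)

/-- from the maps to the normal forms -/
theorem exists_nf {N : E2 → E2} (hN : IsNF N) : ∃ N' : H790.NF, N'.OK ∧ N'.fn = N := by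
  cases hN with
  | tri μ₁ μ₂ a k h2 h1 ha => exact ⟨.tri μ₁ μ₂ a k, ⟨h2, h1, ha⟩, rfl⟩
  | cx c s hs h => exact ⟨.cx c s, ⟨hs, h⟩, rfl⟩

theorem isNF_of_OK {N : H790.NF} (h : N.OK) : IsNF N.fn := by
  cases N with
  | tri μ₁ μ₂ a k => exact IsNF.tri μ₁ μ₂ a k h.1 h.2.1 h.2.2
  | cx c s => exact IsNF.cx c s h.1 h.2

/-- the normal coordinate of the power of a closed orbit -/
theorem exists_nor_pow {o : Orb L} (n : Nor L o) {j : ℕ} (hj : 0 < j) :
    ∃ n' : Nor L (o.pow j hj), n'.x = n.x ∧ n'.N.fn = n.N.fn^[j] := by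
  obtain ⟨N', hok, hfn⟩ := exists_nf ((isNF_of_OK n.ok).iter hj)
  refine ⟨{
    N := N'
    ok := hok
    x := n.x
    base := n.base
    equiv := fun η hη => ?_
    smooth := n.smooth
    inv := n.inv
    inv_cont := n.inv_cont
    inv_ne := n.inv_ne
    inv_right := n.inv_right
    inv_left := n.inv_left
    deriv := n.deriv }, rfl, hfn⟩
  rw [hfn]
  have hη' : η ≠ o.neg := hη
  have h : ∀ i : ℕ, n.x ((o.β ^ i)⁻¹ • η) = n.N.fn^[i] (n.x η) ∧ (o.β ^ i)⁻¹ • η ≠ o.neg := by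
    intro i
    induction i with
    | zero => simpa using hη'
    | succ i ih =>
      have h1 : (o.β ^ (i + 1))⁻¹ • η = o.β⁻¹ • ((o.β ^ i)⁻¹ • η) := by
        rw [pow_succ, mul_inv_rev, mul_smul]
      rw [h1]
      refine ⟨?_, ?_⟩
      · rw [n.equiv _ ih.2, ih.1, Function.iterate_succ_apply']
      · intro h2
        apply ih.2
        rw [inv_smul_eq_iff, o.smul_neg] at h2
        exact h2
  exact (h j).1

/-- small periods: `Fwd` for `o` from `Fwd` for a power of `o` -/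
theorem fwd_pow_nor {o : Orb L} (n : Nor L o) {j : ℕ} (hj : 0 < j) {c : ℝ} (hc : 0 ≤ c)
    (h : ∀ n' : Nor L (o.pow j hj), Nonempty (H147.Fwd (o.pow j hj) n'.x n'.N.fn c)) :
    Nonempty (H147.Fwd o n.x n.N.fn c) := by
  obtain ⟨n', h1, h2⟩ := exists_nor_pow n hj
  obtain ⟨W⟩ := h n'
  rw [h1, h2] at W
  exact ⟨fwd_of_pow hj hc n.equiv (nf_contDiff (isNF_of_OK n.ok)) n.smooth W⟩

/-- **all periods from large periods** -/
theorem fwd_of_large {c l₀ : ℝ} (hc : 0 ≤ c)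
    (h : ∀ o : Orb L, l₀ ≤ o.l → ∀ n : Nor L o, Nonempty (H147.Fwd o n.x n.N.fn c)) :
    ∀ (o : Orb L) (n : Nor L o), Nonempty (H147.Fwd o n.x n.N.fn c) := by
  intro o n
  have hl : 0 < o.l := o.ax.pos
  obtain ⟨j, hj⟩ := exists_nat_ge (l₀ / o.l)
  have hj' : l₀ ≤ ((j + 1 : ℕ) : ℝ) * o.l := by
    rw [div_le_iff₀ hl] at hj
    push_cast
    linarith
  exact fwd_pow_nor n (Nat.succ_pos j) hc (h (o.pow (j + 1) (Nat.succ_pos j)) hj')

end

end Vale.Agent.P207.N3.H992
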