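import Vale.Agent.P207.N3.H992.Patch

/-!
# P207, line N3, P4: forward coordinates, parameters in a locally compact space

Everything is uniform on compact sets of parameters only. `DataK`, `forwardK`, `CvK_iff`.
-/

noncomputable section

namespace Vale.Agent.P207.N3.H992

open Set Metric Filter Topology

universe u

variable {Ξ : Type*} [TopologicalSpace Ξ]
variable {E : Type u} [NormedAddCommGroup E] [NormedSpace ℝ E] {R b : ℝ}
variable {F : Type u} [NormedAddCommGroup F] [NormedSpace ℝ F]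

theorem CvK_iff [WeaklyLocallyCompactSpace Ξ] (hb : 0 < b) {z : ℕ × Ξ → E → F} {y : E → F}
    (hy : SB R y) : CvK R b z y ↔ (∀ p, ContDiffOn ℝ (⊤ : ℕ∞) (z p) (ball 0 R)) ∧ ∀ j : ℕ,
      ContinuousOn (fun q : (ℕ × Ξ) × E => iteratedFDeriv ℝ j (z q.1) q.2) (univ ×ˢ ball 0 R) ∧
      ∀ K : Set Ξ, IsCompact K → ∃ C : ℝ, ∀ m, ∀ ξ ∈ K, ∀ x ∈ ball (0 : E) R,
        ‖iteratedFDeriv ℝ j (z (m, ξ)) x - iteratedFDeriv ℝ j y x‖ ≤ C * b ^ m := by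
  constructor
  · intro h
    refine ⟨fun p => ?_, fun j => ⟨?_, fun K hK => ?_⟩⟩
    · have h1 := (Cv_iff hb hy).1 (h {p.2} isCompact_singleton)
      exact h1.1 (p.1, ⟨p.2, rfl⟩)
    · intro q hq
      obtain ⟨K, hK, hKn⟩ := exists_compact_mem_nhds q.1.2
      have h1 := ((Cv_iff hb hy).1 (h K hK)).2 j
      exact (contAt_of_sub (R := R) (L := K)
        (g := fun q : (ℕ × Ξ) × E => iteratedFDeriv ℝ j (z q.1) q.2) h1.1 hKn
          hq.2).continuousWithinAt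
    · obtain ⟨C, hC⟩ := (((Cv_iff hb hy).1 (h K hK)).2 j).2
      exact ⟨C, fun m ξ hξ x hx => hC (m, ⟨ξ, hξ⟩) x hx⟩
  · rintro ⟨h1, h2⟩ K hK
    refine (Cv_iff hb hy).2 ⟨fun p => h1 _, fun j => ⟨?_, ?_⟩⟩
    · have h6 : Continuous (fun q : (ℕ × K) × E =>
          (((q.1.1, (q.1.2 : Ξ)), q.2) : (ℕ × Ξ) × E)) := by fun_prop
      exact (h2 j).1.comp h6.continuousOn fun q hq => ⟨mem_univ _, hq.2⟩
    · obtain ⟨C, hC⟩ := (h2 j).2 K hK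
      exact ⟨C, fun p x hx => hC p.1 p.2 p.2.2 x hx⟩

/-- The data: contractions `G (m, ξ)` of the ball which converge to `f`, uniformly on compact sets
of parameters. -/
structure DataK (E : Type u) [NormedAddCommGroup E] [NormedSpace ℝ E] (Ξ : Type*)
    [TopologicalSpace Ξ] (R ρ σ : ℝ) where
  R_pos : 0 < R
  ρ_nonneg : 0 ≤ ρ
  ρ_lt : ρ < 1
  σ_pos : 0 < σ
  G : ℕ × Ξ → E → E
  f : E → E
  f_sb : SB R f
  cv : CvK R σ G f
  G_map : ∀ p, ∀ x ∈ ball (0 : E) R, G p x ∈ ball (0 : E) R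
  f_map : ∀ x ∈ ball (0 : E) R, f x ∈ ball (0 : E) R
  G_der : ∀ p, ∀ x ∈ ball (0 : E) R, ‖fderiv ℝ (G p) x‖ ≤ ρ
  G_zero : ∀ p, G p 0 = 0
  f_zero : f 0 = 0
  D : ℕ × Ξ → (E →L[ℝ] E)
  D_cont : Continuous D
  D_bdd : ∀ K : Set Ξ, IsCompact K → ∃ C : ℝ, ∀ m, ∀ ξ ∈ K, ‖D (m, ξ)‖ ≤ C
  D_left : ∀ p, (D p).comp (fderiv ℝ (G p) 0) = ContinuousLinearMap.id ℝ E

/-- restriction to a compact set of parameters -/
def DataK.restr {ρ σ : ℝ} (d : DataK E Ξ R ρ σ) {K : Set Ξ} (hK : IsCompact K) :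
    Data E K R ρ σ where
  R_pos := d.R_pos
  ρ_nonneg := d.ρ_nonneg
  ρ_lt := d.ρ_lt
  σ_pos := d.σ_pos
  G := fun p => d.G (p.1, p.2)
  f := d.f
  f_sb := d.f_sb
  cv := d.cv K hK
  G_map := fun p => d.G_map _
  f_map := d.f_map
  G_der := fun p => d.G_der _
  G_zero := fun p => d.G_zero _
  f_zero := d.f_zero
  D := fun p => d.D (p.1, p.2)
  D_cont := d.D_cont.comp (by fun_prop)
  D_bdd := by
    obtain ⟨C, hC⟩ := d.D_bdd K hK
    exact ⟨C, fun p => hC p.1 p.2 p.2.2⟩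
  D_left := fun p => d.D_left _

section real

variable [T2Space Ξ] [ParacompactSpace Ξ] [WeaklyLocallyCompactSpace Ξ]

theorem DataK.nse_real {E : Type} [NormedAddCommGroup E] [NormedSpace ℝ E]
    [FiniteDimensional ℝ E] {R ρ σ : ℝ}
    (d : DataK E Ξ R ρ σ) {τ σ' : ℝ} (hστ : σ ≤ τ) (hτσ' : τ < σ') (hσ' : σ' ≤ 1)
    {μ : ℝ} (hμ : μ ≠ 0)
    {H : ℕ × Ξ → E → ℝ} {H' : E → ℝ} (hH : CvK R τ H H') (hH' : SB R H')
    {y : E → ℝ} (hy : SB R y) (hyf : ∀ x ∈ ball (0 : E) R, y x = μ * (y (d.f x)) + H' x) :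
    ∃ z : ℕ × Ξ → E → ℝ, CvK R σ' z y ∧ ∀ m ξ, ∀ x ∈ ball (0 : E) R,
      z (m + 1, ξ) x = μ * (z (m, ξ) (d.G (m, ξ) x)) + H (m, ξ) x := by
  refine patch (G := d.G) (M := fun _ _ => μ • ContinuousLinearMap.id ℝ ℝ) (H := H)
    fun ξ₀ => ?_
  obtain ⟨K, hK, hKn⟩ := exists_compact_mem_nhds ξ₀
  obtain ⟨z, hz, hzr⟩ := (d.restr hK).nse_real hστ hτσ' hσ' hμ (hH K hK) hH' hy hyf
  exact ⟨K, hKn, z, hz, hzr⟩

theorem DataK.nse_const {E : Type u} [NormedAddCommGroup E] [NormedSpace ℝ E]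
    [FiniteDimensional ℝ E] {R ρ σ : ℝ}
    (d : DataK E Ξ R ρ σ) {F : Type u} [NormedAddCommGroup F] [NormedSpace ℝ F]
    [FiniteDimensional ℝ F] {τ σ' : ℝ} (hστ : σ ≤ τ) (hτσ' : τ < σ') (hσ' : σ' ≤ 1)
    (M N : F →L[ℝ] F) (hMN : M.comp N = ContinuousLinearMap.id ℝ F)
    {H : ℕ × Ξ → E → F} {H' : E → F} (hH : CvK R τ H H') (hH' : SB R H')
    {y : E → F} (hy : SB R y) (hyf : ∀ x ∈ ball (0 : E) R, y x = M (y (d.f x)) + H' x) :
    ∃ z : ℕ × Ξ → E → F, CvK R σ' z y ∧ ∀ m ξ, ∀ x ∈ ball (0 : E) R,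
      z (m + 1, ξ) x = M (z (m, ξ) (d.G (m, ξ) x)) + H (m, ξ) x := by
  refine patch (G := d.G) (M := fun _ _ => M) (H := H) fun ξ₀ => ?_
  obtain ⟨K, hK, hKn⟩ := exists_compact_mem_nhds ξ₀
  obtain ⟨z, hz, hzr⟩ := (d.restr hK).nse_const hστ hτσ' hσ' M N hMN (hH K hK) hH' hy hyf
  exact ⟨K, hKn, z, hz, hzr⟩

end real

section fwd

variable {ρ σ : ℝ}

/-- zero at `0` and invertible derivative, for any solution -/
theorem Data.fwd_aux (d : Data Pl Ξ R ρ σ) {σ' : ℝ} (hσσ' : σ < σ') (hσ' : σ' < 1) {N : Pl → Pl}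
    (hN : IsNF N) {h : Pl → Pl} (hh : SB R h) (h0 : h 0 = 0)
    (hinj : Function.Injective (fderiv ℝ h 0)) {X : ℕ × Ξ → Pl → Pl} (hX : Cv R σ' X h)
    (hXr : ∀ m ξ, ∀ x ∈ ball (0 : Pl) R, X (m + 1, ξ) x = N (X (m, ξ) (d.G (m, ξ) x))) :
    (∀ p, X p 0 = 0) ∧ ∀ p, Function.Injective (fderiv ℝ (X p) 0) := by
  have h0m : (0 : Pl) ∈ ball (0 : Pl) R := mem_ball_self d.R_pos
  have hσ'0 : 0 < σ' := d.σ_pos.trans hσσ'
  -- the value at `0`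
  obtain ⟨C, hC⟩ := hX.bound hσ'0
  have hz : ∀ m ξ, X (m, ξ) 0 = 0 := by
    intro m ξ
    refine hN.eq_zero (u := fun m => X (m, ξ) 0) (C := |C|) (fun m => ?_) (fun m => ?_) m
    · rw [hXr m ξ 0 h0m, d.G_zero]
    · have h1 := hC (m, ξ) 0 h0m
      rw [h0, sub_zero] at h1
      calc _ ≤ C * σ' ^ m := h1
        _ ≤ |C| * 1 := by
          gcongr
          · exact le_abs_self _
          · exact pow_le_one₀ hσ'0.le hσ'.le
        _ = |C| := mul_one _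
  -- the derivative at `0`
  have hXd : ∀ p, ∀ x ∈ ball (0 : Pl) R, DifferentiableAt ℝ (X p) x := fun p x hx =>
    hX.diff hσ'0 hσ'.le hh p hx
  have hder : ∀ m ξ, fderiv ℝ (X (m + 1, ξ)) 0 =
      (fderiv ℝ N 0).comp ((fderiv ℝ (X (m, ξ)) 0).comp (fderiv ℝ (d.G (m, ξ)) 0)) := by
    intro m ξ
    have h1 : HasFDerivAt (d.G (m, ξ)) (fderiv ℝ (d.G (m, ξ)) 0) 0 :=
      (d.cv.diff d.σ_pos (hσσ'.le.trans hσ'.le) d.f_sb (m, ξ) h0m).hasFDerivAt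
    have h2 : HasFDerivAt (X (m, ξ)) (fderiv ℝ (X (m, ξ)) 0) (d.G (m, ξ) 0) := by
      rw [d.G_zero]
      exact (hXd (m, ξ) 0 h0m).hasFDerivAt
    have h3 : HasFDerivAt N (fderiv ℝ N 0) (X (m, ξ) (d.G (m, ξ) 0)) := by
      rw [d.G_zero, hz]
      exact (hN.differentiable 0).hasFDerivAt
    have h4 := h3.comp (0 : Pl) (h2.comp (0 : Pl) h1)
    refine HasFDerivAt.fderiv (h4.congr_of_eventuallyEq ?_)
    filter_upwards [isOpen_ball.mem_nhds h0m] with x hx using hXr m ξ x hx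
  have hback : ∀ m ξ, Function.Injective (fderiv ℝ (X (m + 1, ξ)) 0) →
      Function.Injective (fderiv ℝ (X (m, ξ)) 0) := by
    intro m ξ h
    rw [hder] at h
    have hG : Function.Injective (fderiv ℝ (d.G (m, ξ)) 0) := by
      intro v w hvw
      have h1 : ∀ v, d.D (m, ξ) (fderiv ℝ (d.G (m, ξ)) 0 v) = v := fun v =>
        congrArg (fun T : Pl →L[ℝ] Pl => T v) (d.D_left (m, ξ))
      rw [← h1 v, ← h1 w, hvw]
    have hGs : Function.Surjective (fderiv ℝ (d.G (m, ξ)) 0) :=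
      LinearMap.surjective_of_injective (f := (fderiv ℝ (d.G (m, ξ)) 0).toLinearMap) hG
    intro v w hvw
    obtain ⟨v', rfl⟩ := hGs v
    obtain ⟨w', rfl⟩ := hGs w
    congr 1
    apply h
    simp only [ContinuousLinearMap.comp_apply]
    rw [hvw]
  -- large `m`
  have hcd : Cv R σ' (fun p x => fderiv ℝ (X p) x) (fun x => fderiv ℝ h x) :=
    hX.der hXd hh
  obtain ⟨C', hC'⟩ := hcd.bound hσ'0
  obtain ⟨κ, hκ0, hκ⟩ : ∃ κ : ℝ, 0 < κ ∧ ∀ v, κ * ‖v‖ ≤ ‖fderiv ℝ h 0 v‖ := by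
    obtain ⟨K, hK, hK'⟩ := LinearMap.exists_antilipschitzWith (fderiv ℝ h 0).toLinearMap
      (LinearMap.ker_eq_bot.2 hinj)
    refine ⟨(K : ℝ)⁻¹, by positivity, fun v => ?_⟩
    have h1 := hK'.le_mul_dist v 0
    rw [dist_zero_right, map_zero, dist_zero_right] at h1
    rw [inv_mul_le_iff₀ (by positivity)]
    exact h1
  obtain ⟨n, hn⟩ : ∃ n : ℕ, ∀ m ≥ n, |C'| * σ' ^ m < κ := by
    have h1 : Tendsto (fun m : ℕ => |C'| * σ' ^ m) atTop (𝓝 (|C'| * 0)) :=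
      (tendsto_pow_atTop_nhds_zero_of_lt_one hσ'0.le hσ').const_mul _
    rw [mul_zero] at h1
    exact eventually_atTop.1 (h1.eventually_lt_const hκ0)
  have hbig : ∀ m ≥ n, ∀ ξ, Function.Injective (fderiv ℝ (X (m, ξ)) 0) := by
    intro m hm ξ
    have h1 : ‖fderiv ℝ (X (m, ξ)) 0 - fderiv ℝ h 0‖ < κ := by
      have h2 := hC' (m, ξ) 0 h0m
      calc _ ≤ C' * σ' ^ m := h2
        _ ≤ |C'| * σ' ^ m := by gcongr; exact le_abs_self _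
        _ < κ := hn m hm
    rw [injective_iff_map_eq_zero]
    intro v hv
    by_contra hne
    have h3 := (fderiv ℝ (X (m, ξ)) 0 - fderiv ℝ h 0).le_opNorm v
    rw [_root_.sub_apply, hv, zero_sub, norm_neg] at h3
    have h4 : 0 < ‖v‖ := norm_pos_iff.2 hne
    have h5 := hκ v
    nlinarith
  have hall : ∀ j m ξ, n ≤ m + j → Function.Injective (fderiv ℝ (X (m, ξ)) 0) := by
    intro j
    induction j with
    | zero => intro m ξ h; exact hbig m (by simpa using h) ξ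
    | succ j ih => intro m ξ h; exact hback m ξ (ih (m + 1) ξ (by omega))
  exact ⟨fun p => hz p.1 p.2, fun p => hall n p.1 p.2 (by omega)⟩

variable [T2Space Ξ] [ParacompactSpace Ξ] [WeaklyLocallyCompactSpace Ξ]

theorem fwdK_tri_aux (d : DataK Pl Ξ R ρ σ) {σ' : ℝ} (hσσ' : σ < σ') (hσ' : σ' ≤ 1)
    {μ₁ μ₂ a : ℝ} {k : ℕ} (hμ₁ : μ₁ ≠ 0) (hμ₂ : μ₂ ≠ 0) {h : Pl → Pl} (hh : SB R h)
    (hf0 : ∀ x ∈ ball (0 : Pl) R, μ₁ * h (d.f x) 0 + a * h (d.f x) 1 ^ k = h x 0)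
    (hf1 : ∀ x ∈ ball (0 : Pl) R, μ₂ * h (d.f x) 1 = h x 1) :
    ∃ X : ℕ × Ξ → Pl → Pl, CvK R σ' X h ∧ ∀ m ξ, ∀ x ∈ ball (0 : Pl) R,
      X (m + 1, ξ) x = !₂[μ₁ * X (m, ξ) (d.G (m, ξ) x) 0 + a * X (m, ξ) (d.G (m, ξ) x) 1 ^ k,
        μ₂ * X (m, ξ) (d.G (m, ξ) x) 1] := by
  obtain ⟨τ, hτ1, hτ2⟩ := exists_between hσσ'
  have hτ0 : 0 < τ := d.σ_pos.trans hτ1
  have hτ3 : τ ≤ 1 := hτ2.le.trans hσ'
  obtain ⟨Y, hY, hYr⟩ := d.nse_real le_rfl hτ1 hτ3 hμ₂ (H := fun _ _ => 0) (H' := fun _ => 0)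
    (fun K hK => Cv.cst _) (SB.cst _) (y := fun x => h x 1) (hh.coord' 1)
    (fun x hx => by rw [hf1 x hx, add_zero])
  have hY' : ∀ m ξ, ∀ x ∈ ball (0 : Pl) R, Y (m, ξ) (d.G (m, ξ) x) = μ₂⁻¹ * Y (m + 1, ξ) x := by
    intro m ξ x hx
    rw [hYr m ξ x hx]
    field_simp
    ring
  have hH' : SB R (fun x : Pl => a * (μ₂⁻¹ * h x 1) ^ k) :=
    (SB.cst a).mul (((SB.cst μ₂⁻¹).mul (hh.coord' 1)).pow k)
  have hH : CvK R τ (fun (p : ℕ × Ξ) x => a * (μ₂⁻¹ * Y (p.1 + 1, p.2) x) ^ k)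
      (fun x : Pl => a * (μ₂⁻¹ * h x 1) ^ k) := fun K hK =>
    Cv.mul hτ0 hτ3 (Cv.cst fun _ => a) (Cv.pow hτ0 hτ3 (Cv.mul hτ0 hτ3 (Cv.cst fun _ => μ₂⁻¹)
      ((hY K hK).shift hτ0) (SB.cst _) (hh.coord' 1)) ((SB.cst μ₂⁻¹).mul (hh.coord' 1)) k)
      (SB.cst _) (((SB.cst μ₂⁻¹).mul (hh.coord' 1)).pow k)
  obtain ⟨Z, hZ, hZr⟩ := d.nse_real hτ1.le hτ2 hσ' hμ₁ hH hH' (y := fun x => h x 0) (hh.coord' 0)
    (fun x hx => by
      have h1 : h (d.f x) 1 = μ₂⁻¹ * h x 1 := by rw [← hf1 x hx]; field_simp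
      rw [← h1, hf0 x hx])
  refine ⟨fun p x => !₂[Z p x, Y p x], fun K hK => ?_, fun m ξ x hx => ?_⟩
  · refine (Cv.mk2 (hZ K hK) ((hY K hK).mono hτ0 hτ2.le)).congr (fun p x _ => rfl) fun x _ => ?_
    ext i
    fin_cases i <;> rfl
  · ext i
    fin_cases i
    · change Z (m + 1, ξ) x = μ₁ * Z (m, ξ) (d.G (m, ξ) x) + a * Y (m, ξ) (d.G (m, ξ) x) ^ k
      rw [hZr m ξ x hx, hY' m ξ x hx]
    · change Y (m + 1, ξ) x = μ₂ * Y (m, ξ) (d.G (m, ξ) x)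
      rw [hYr m ξ x hx, add_zero]

theorem fwdK_cx_aux (d : DataK Pl Ξ R ρ σ) {σ' : ℝ} (hσσ' : σ < σ') (hσ' : σ' ≤ 1)
    (A B : Pl →L[ℝ] Pl) (hAB : A.comp B = ContinuousLinearMap.id ℝ Pl) {h : Pl → Pl} (hh : SB R h)
    (hf : ∀ x ∈ ball (0 : Pl) R, A (h (d.f x)) = h x) :
    ∃ X : ℕ × Ξ → Pl → Pl, CvK R σ' X h ∧ ∀ m ξ, ∀ x ∈ ball (0 : Pl) R,
      X (m + 1, ξ) x = A (X (m, ξ) (d.G (m, ξ) x)) := by
  obtain ⟨X, hX, hXr⟩ := d.nse_const le_rfl hσσ' hσ' A B hAB (H := fun _ _ => 0)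
    (H' := fun _ => 0) (fun K hK => Cv.cst _) (SB.cst _) (y := h) hh
    (fun x hx => by rw [hf x hx, add_zero])
  exact ⟨X, hX, fun m ξ x hx => by rw [hXr m ξ x hx, add_zero]⟩

/-- **forward coordinates** over a stationary normal coordinate `h`, for parameters in a locally
compact space -/
theorem forwardK (d : DataK Pl Ξ R ρ σ) {σ' : ℝ} (hσσ' : σ < σ') (hσ' : σ' < 1) {N : Pl → Pl}
    (hN : IsNF N) {h : Pl → Pl} (hh : SB R h) (h0 : h 0 = 0)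
    (hinj : Function.Injective (fderiv ℝ h 0)) (hNf : ∀ x ∈ ball (0 : Pl) R, h x = N (h (d.f x))) :
    ∃ X : ℕ × Ξ → Pl → Pl, CvK R σ' X h ∧
      (∀ m ξ, ∀ x ∈ ball (0 : Pl) R, X (m + 1, ξ) x = N (X (m, ξ) (d.G (m, ξ) x))) ∧
      (∀ p, X p 0 = 0) ∧ ∀ p, Function.Injective (fderiv ℝ (X p) 0) := by
  obtain ⟨X, hX, hXr⟩ : ∃ X : ℕ × Ξ → Pl → Pl, CvK R σ' X h ∧
      (∀ m ξ, ∀ x ∈ ball (0 : Pl) R, X (m + 1, ξ) x = N (X (m, ξ) (d.G (m, ξ) x))) := by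
    cases hN with
    | tri μ₁ μ₂ a k h2 h1 ha =>
      have e2 : μ₂ ≠ 0 := by
        rintro rfl
        rw [abs_zero] at h2
        linarith
      have e1 : μ₁ ≠ 0 := by
        rintro rfl
        rw [abs_zero] at h1
        linarith
      exact fwdK_tri_aux d hσσ' hσ'.le e1 e2 hh
        (fun x hx => (congrArg (fun v : Pl => v 0) (hNf x hx)).symm)
        (fun x hx => (congrArg (fun v : Pl => v 1) (hNf x hx)).symm)
    | cx c s hs h1 =>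
      have hr : c ^ 2 + s ^ 2 ≠ 0 := by positivity
      let A : Pl →L[ℝ] Pl := LinearMap.toContinuousLinearMap
        { toFun := fun x => !₂[c * x 0 - s * x 1, s * x 0 + c * x 1]
          map_add' := fun x y => by
            ext i; fin_cases i <;> simp <;> ring
          map_smul' := fun t x => by
            ext i; fin_cases i <;> simp <;> ring }
      let B : Pl →L[ℝ] Pl := LinearMap.toContinuousLinearMap
        { toFun := fun x => !₂[(c ^ 2 + s ^ 2)⁻¹ * (c * x 0 + s * x 1),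
            (c ^ 2 + s ^ 2)⁻¹ * (-s * x 0 + c * x 1)]
          map_add' := fun x y => by
            ext i; fin_cases i <;> simp <;> ring
          map_smul' := fun t x => by
            ext i; fin_cases i <;> simp <;> ring }
      refine fwdK_cx_aux d hσσ' hσ'.le A B ?_ hh (fun x hx => (hNf x hx).symm)
      ext x i
      fin_cases i
      · change c * ((c ^ 2 + s ^ 2)⁻¹ * (c * x 0 + s * x 1)) -
          s * ((c ^ 2 + s ^ 2)⁻¹ * (-s * x 0 + c * x 1)) = x 0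
        field_simp
        ring
      · change s * ((c ^ 2 + s ^ 2)⁻¹ * (c * x 0 + s * x 1)) +
          c * ((c ^ 2 + s ^ 2)⁻¹ * (-s * x 0 + c * x 1)) = x 1
        field_simp
        ring
  have haux : ∀ ξ : Ξ, (∀ m, X (m, ξ) 0 = 0) ∧
      ∀ m, Function.Injective (fderiv ℝ (X (m, ξ)) 0) := by
    intro ξ
    have hs : IsCompact ({ξ} : Set Ξ) := isCompact_singleton
    obtain ⟨h1, h2⟩ := (d.restr hs).fwd_aux hσσ' hσ' hN hh h0 hinj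
      (X := fun p x => X (p.1, p.2) x) (hX _ hs) (fun m ζ x hx => hXr m ζ x hx)
    exact ⟨fun m => h1 (m, ⟨ξ, rfl⟩), fun m => h2 (m, ⟨ξ, rfl⟩)⟩
  exact ⟨X, hX, hXr, fun p => (haux p.2).1 p.1, fun p => (haux p.2).2 p.1⟩

end fwd

end Vale.Agent.P207.N3.H992
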