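import Vale.Agent.P207.N3.H147.Chart
import Vale.Agent.P207.N3.H545.Step2

/-!
# P207, line N3, P4: the inverse of the derivative of the long contractions grows at most
exponentially
-/

noncomputable section

namespace Vale.Agent.P207.N3.H992

open Set Metric Filter Topology
open scoped ContDiff

variable {Γ X B : Type} [Group Γ] [MetricSpace X] [ProperSpace X] [MulAction Γ X]
  [IsIsometricSMul Γ X] [TopologicalSpace B] [CompactSpace B] [T2Space B] [MulAction Γ B]
  [ContinuousConstSMul Γ B]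

/-- the inverse of the derivative of `R t x` at `0` -/
theorem exists_R_inv (L : Leaf Γ X B) : ∃ C₀ : ℝ, 0 ≤ C₀ ∧ ∀ x, ∀ t ≥ L.t1,
    ∃ I : E2 →L[ℝ] E2, I * fderiv ℝ (H147.R L t x) 0 = 1 ∧ fderiv ℝ (H147.R L t x) 0 * I = 1 ∧
      ‖I‖ ≤ Real.exp (C₀ * t) := by
  obtain ⟨b₀, _, hb₀⟩ := H545.exists_norm_inverse_step_le L (2 * L.t1)
  set b : ℝ := max b₀ 1 with hb
  have hb1 : 1 ≤ b := le_max_right _ _
  have hb0 : 0 < b := by linarith
  have ht1 := L.t1_pos
  have h03 : (0 : E2) ∈ ball (0 : E2) 3 := mem_ball_self (by norm_num)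
  have key : ∀ s, L.t1 ≤ s → s ≤ 2 * L.t1 → ∀ n : ℕ, ∀ x : X, ∃ I : E2 →L[ℝ] E2,
      I * fderiv ℝ (H147.R L ((n + 1 : ℕ) * s) x) 0 = 1 ∧
      fderiv ℝ (H147.R L ((n + 1 : ℕ) * s) x) 0 * I = 1 ∧ ‖I‖ ≤ b ^ (n + 1) := by
    intro s hs1 hs2
    have hone : ∀ x : X, ∃ I : E2 →L[ℝ] E2, I * fderiv ℝ (H147.R L s x) 0 = 1 ∧
        fderiv ℝ (H147.R L s x) 0 * I = 1 ∧ ‖I‖ ≤ b := by
      intro x
      have hu : IsUnit (fderiv ℝ (L.τ (L.φ s x) x) 0) := by
        refine H545.isUnit_fderiv_tau L (L.em_φ s x) ?_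
        rw [H545.dm_step L hs1 x]
        exact h03
      refine ⟨Ring.inverse (fderiv ℝ (L.τ (L.φ s x) x) 0), Ring.inverse_mul_cancel _ hu,
        Ring.mul_inverse_cancel _ hu, (hb₀ x s ⟨hs1, hs2⟩ 0 (by simp)).trans (le_max_left _ _)⟩
    have hs0 : 0 < s := ht1.trans_le hs1
    intro n
    induction n with
    | zero =>
      intro x
      simp only [zero_add, Nat.cast_one, one_mul, pow_one]
      exact hone x
    | succ n ih =>
      intro x
      set T : ℝ := (n + 1 : ℕ) * s with hT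
      have hcast : ((n + 1 + 1 : ℕ) : ℝ) * s = s + T := by
        rw [hT]
        push_cast
        ring
      have hTs : s ≤ T := by
        rw [hT]
        push_cast
        nlinarith [(Nat.cast_nonneg n : (0 : ℝ) ≤ n)]
      have hT1 : L.t1 ≤ T := hs1.trans hTs
      obtain ⟨I₁, h11, h12, h13⟩ := hone (L.φ T x)
      obtain ⟨I₂, h21, h22, h23⟩ := ih x
      have hd : fderiv ℝ (H147.R L (s + T) x) 0 =
          fderiv ℝ (H147.R L T x) 0 * fderiv ℝ (H147.R L s (L.φ T x)) 0 := by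
        have h1 : H147.R L (s + T) x =ᶠ[𝓝 0] H147.R L T x ∘ H147.R L s (L.φ T x) := by
          filter_upwards [isOpen_ball.mem_nhds h03] with u hu
          exact H147.R_comp x hs1 hT1 (ball_subset_closedBall hu)
        have h2 : DifferentiableAt ℝ (H147.R L s (L.φ T x)) 0 :=
          ((H147.R_smooth _ hs1).contDiffAt (isOpen_ball.mem_nhds h03)).differentiableAt (by simp)
        have h3 : DifferentiableAt ℝ (H147.R L T x) (H147.R L s (L.φ T x) 0) := by
          rw [H147.R_zero]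
          exact ((H147.R_smooth _ hT1).contDiffAt (isOpen_ball.mem_nhds h03)).differentiableAt
            (by simp)
        rw [h1.fderiv_eq, fderiv_comp 0 h3 h2, H147.R_zero]
        rfl
      rw [hcast, hd]
      refine ⟨I₁ * I₂, ?_, ?_, ?_⟩
      · calc I₁ * I₂ * (fderiv ℝ (H147.R L T x) 0 * fderiv ℝ (H147.R L s (L.φ T x)) 0)
            = I₁ * (I₂ * fderiv ℝ (H147.R L T x) 0) * fderiv ℝ (H147.R L s (L.φ T x)) 0 := by
              simp only [mul_assoc]
          _ = 1 := by rw [h21, mul_one, h11]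
      · calc fderiv ℝ (H147.R L T x) 0 * fderiv ℝ (H147.R L s (L.φ T x)) 0 * (I₁ * I₂)
            = fderiv ℝ (H147.R L T x) 0 * (fderiv ℝ (H147.R L s (L.φ T x)) 0 * I₁) * I₂ := by
              simp only [mul_assoc]
          _ = 1 := by rw [h12, mul_one, h22]
      · calc ‖I₁ * I₂‖ ≤ ‖I₁‖ * ‖I₂‖ := norm_mul_le _ _
          _ ≤ b * b ^ (n + 1) := mul_le_mul h13 h23 (norm_nonneg _) hb0.le
          _ = b ^ (n + 1 + 1) := by ring
  refine ⟨Real.log b / L.t1, div_nonneg (Real.log_nonneg hb1) ht1.le, fun x t ht => ?_⟩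
  set n : ℕ := ⌊t / L.t1⌋₊ with hn
  have hn1 : 1 ≤ n := by
    rw [hn]
    exact Nat.one_le_floor_iff _ |>.2 (by rwa [le_div_iff₀ ht1, one_mul])
  have hnpos : (0 : ℝ) < n := by exact_mod_cast hn1
  have hle : (n : ℝ) ≤ t / L.t1 := Nat.floor_le (div_nonneg (ht1.le.trans ht) ht1.le)
  have hlt : t / L.t1 < n + 1 := Nat.lt_floor_add_one _
  have hs1 : L.t1 ≤ t / n := by
    rw [le_div_iff₀ hnpos]
    rw [le_div_iff₀ ht1] at hle
    linarith
  have hs2 : t / n ≤ 2 * L.t1 := by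
    rw [div_le_iff₀ hnpos]
    rw [div_lt_iff₀ ht1] at hlt
    have : (1 : ℝ) ≤ n := by exact_mod_cast hn1
    nlinarith
  obtain ⟨m, hm⟩ : ∃ m : ℕ, n = m + 1 := ⟨n - 1, by omega⟩
  obtain ⟨I, h1, h2, h3⟩ := key (t / n) hs1 hs2 m x
  have hts : ((m + 1 : ℕ) : ℝ) * (t / n) = t := by
    rw [← hm]
    field_simp
  rw [hts] at h1 h2
  refine ⟨I, h1, h2, h3.trans ?_⟩
  rw [← hm]
  calc b ^ n = Real.exp (Real.log b * n) := by
        rw [mul_comm, Real.exp_nat_mul, Real.exp_log hb0]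
    _ ≤ Real.exp (Real.log b / L.t1 * t) := by
        refine Real.exp_le_exp.2 ?_
        calc Real.log b * n ≤ Real.log b * (t / L.t1) :=
              mul_le_mul_of_nonneg_left hle (Real.log_nonneg hb1)
          _ = Real.log b / L.t1 * t := by ring

end Vale.Agent.P207.N3.H992
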