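import Mathlib

/-!
# P207, line N3, P4: bounded `C^k` families on a ball

`BF R k z` : the family `z : P → E → F` is `C^k` on the ball of radius `R`, all derivatives up to
order `k` (with respect to `E`) are bounded on `P × ball` and continuous there.
-/

noncomputable section

namespace Vale.Agent.P207.N3.H992

open Set Metric Filter Topology

universe u

variable {P : Type*} [TopologicalSpace P]
variable {E : Type u} [NormedAddCommGroup E] [NormedSpace ℝ E]

/-- bounded continuous families -/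
structure B0 (R : ℝ) {F : Type u} [NormedAddCommGroup F] (z : P → E → F) : Prop where
  cont : ContinuousOn (fun q : P × E => z q.1 q.2) (univ ×ˢ ball 0 R)
  bdd : ∃ C : ℝ, ∀ p, ∀ x ∈ ball (0 : E) R, ‖z p x‖ ≤ C

/-- bounded `C^k` families -/
def BF (R : ℝ) : ∀ (_ : ℕ) {F : Type u} [NormedAddCommGroup F] [NormedSpace ℝ F]
    (_ : P → E → F), Prop
  | 0, _, _, _, z => B0 R z
  | k + 1, _, _, _, z => B0 R z ∧ (∀ p, ∀ x ∈ ball (0 : E) R, DifferentiableAt ℝ (z p) x) ∧
      BF R k (fun p x => fderiv ℝ (z p) x)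

variable {R : ℝ} {F : Type u} [NormedAddCommGroup F] [NormedSpace ℝ F]
variable {F₁ : Type u} [NormedAddCommGroup F₁] [NormedSpace ℝ F₁]
variable {F₂ : Type u} [NormedAddCommGroup F₂] [NormedSpace ℝ F₂]
variable {F₃ : Type u} [NormedAddCommGroup F₃] [NormedSpace ℝ F₃]

theorem BF.b0 {k : ℕ} {z : P → E → F} (h : BF R k z) : B0 R z := by
  cases k with
  | zero => exact h
  | succ k => exact h.1

theorem BF.pred {k : ℕ} : ∀ {F : Type u} [NormedAddCommGroup F] [NormedSpace ℝ F]
    {z : P → E → F}, BF R (k + 1) z → BF R k z := by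
  induction k with
  | zero => intro F _ _ z h; exact h.1
  | succ k ih => intro F _ _ z h; exact ⟨h.1, h.2.1, ih h.2.2⟩

theorem BF.mono {k l : ℕ} (hkl : l ≤ k) {z : P → E → F} (h : BF R k z) : BF R l z := by
  induction hkl with
  | refl => exact h
  | step _ ih => exact ih h.pred

theorem BF.diff {k : ℕ} {z : P → E → F} (h : BF R (k + 1) z) {p : P} {x : E}
    (hx : x ∈ ball (0 : E) R) : DifferentiableAt ℝ (z p) x := h.2.1 p x hx

theorem BF.der {k : ℕ} {z : P → E → F} (h : BF R (k + 1) z) :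
    BF R k (fun p x => fderiv ℝ (z p) x) := h.2.2

theorem B0.congr {z z' : P → E → F} (h : B0 R z) (he : ∀ p, ∀ x ∈ ball (0 : E) R, z' p x = z p x) :
    B0 R z' where
  cont := h.cont.congr fun q hq => he q.1 q.2 hq.2
  bdd := by
    obtain ⟨C, hC⟩ := h.bdd
    exact ⟨C, fun p x hx => by rw [he p x hx]; exact hC p x hx⟩

theorem fderiv_congr_ball {z z' : E → F} (he : ∀ x ∈ ball (0 : E) R, z' x = z x) {x : E}
    (hx : x ∈ ball (0 : E) R) : fderiv ℝ z' x = fderiv ℝ z x := by
  apply Filter.EventuallyEq.fderiv_eq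
  filter_upwards [isOpen_ball.mem_nhds hx] with y hy using he y hy

theorem BF.congr {k : ℕ} : ∀ {F : Type u} [NormedAddCommGroup F] [NormedSpace ℝ F]
    {z z' : P → E → F}, BF R k z → (∀ p, ∀ x ∈ ball (0 : E) R, z' p x = z p x) → BF R k z' := by
  induction k with
  | zero => intro F _ _ z z' h he; exact B0.congr h he
  | succ k ih =>
    intro F _ _ z z' h he
    refine ⟨h.1.congr he, fun p x hx => ?_, ih h.2.2 fun p x hx => ?_⟩
    · refine (h.2.1 p x hx).congr_of_eventuallyEq ?_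
      filter_upwards [isOpen_ball.mem_nhds hx] with y hy using he p y hy
    · exact fderiv_congr_ball (fun y hy => he p y hy) hx

theorem B0.add {z w : P → E → F} (hz : B0 R z) (hw : B0 R w) : B0 R (fun p x => z p x + w p x) where
  cont := hz.cont.add hw.cont
  bdd := by
    obtain ⟨C, hC⟩ := hz.bdd
    obtain ⟨D, hD⟩ := hw.bdd
    exact ⟨C + D, fun p x hx => (norm_add_le _ _).trans (add_le_add (hC p x hx) (hD p x hx))⟩

theorem BF.add {k : ℕ} : ∀ {F : Type u} [NormedAddCommGroup F] [NormedSpace ℝ F]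
    {z w : P → E → F}, BF R k z → BF R k w → BF R k (fun p x => z p x + w p x) := by
  induction k with
  | zero => intro F _ _ z w hz hw; exact B0.add hz hw
  | succ k ih =>
    intro F _ _ z w hz hw
    refine ⟨hz.1.add hw.1, fun p x hx => (hz.2.1 p x hx).add (hw.2.1 p x hx), ?_⟩
    exact (ih hz.2.2 hw.2.2).congr fun p x hx => fderiv_fun_add (hz.2.1 p x hx) (hw.2.1 p x hx)

/-- post-composition with a bounded bilinear map -/
theorem B0.bilin (B : F₁ →L[ℝ] F₂ →L[ℝ] F₃) {z : P → E → F₁} {w : P → E → F₂} (hz : B0 R z)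
    (hw : B0 R w) : B0 R (fun p x => B (z p x) (w p x)) where
  cont := by
    have h1 : ContinuousOn (fun q : P × E => B (z q.1 q.2)) (univ ×ˢ ball 0 R) :=
      B.continuous.comp_continuousOn hz.cont
    exact h1.clm_apply hw.cont
  bdd := by
    obtain ⟨C, hC⟩ := hz.bdd
    obtain ⟨D, hD⟩ := hw.bdd
    refine ⟨‖B‖ * |C| * |D|, fun p x hx => (B.le_opNorm₂ _ _).trans ?_⟩
    have h1 := (hC p x hx).trans (le_abs_self C)
    have h2 := (hD p x hx).trans (le_abs_self D)
    gcongr

theorem BF.bilin {k : ℕ} : ∀ {F₁ : Type u} [NormedAddCommGroup F₁] [NormedSpace ℝ F₁]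
    {F₂ : Type u} [NormedAddCommGroup F₂] [NormedSpace ℝ F₂]
    {F₃ : Type u} [NormedAddCommGroup F₃] [NormedSpace ℝ F₃]
    (B : F₁ →L[ℝ] F₂ →L[ℝ] F₃) {z : P → E → F₁} {w : P → E → F₂}, BF R k z →
    BF R k w → BF R k (fun p x => B (z p x) (w p x)) := by
  induction k with
  | zero => intro F₁ _ _ F₂ _ _ F₃ _ _ B z w hz hw; exact B0.bilin B hz hw
  | succ k ih =>
    intro F₁ _ _ F₂ _ _ F₃ _ _ B z w hz hw
    have hd : ∀ p, ∀ x ∈ ball (0 : E) R, HasFDerivAt (fun y => B (z p y) (w p y))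
        (B.precompR E (z p x) (fderiv ℝ (w p) x) + B.precompL E (fderiv ℝ (z p) x) (w p x)) x :=
      fun p x hx => B.hasFDerivAt_of_bilinear (hz.2.1 p x hx).hasFDerivAt (hw.2.1 p x hx).hasFDerivAt
    refine ⟨hz.1.bilin B hw.1, fun p x hx => (hd p x hx).differentiableAt, ?_⟩
    refine ((ih (B.precompR E) hz.pred hw.2.2).add (ih (B.precompL E) hz.2.2 hw.pred)).congr ?_
    intro p x hx
    exact (hd p x hx).fderiv

/-- families which do not depend on `x` -/
theorem BF.const {k : ℕ} : ∀ {F : Type u} [NormedAddCommGroup F] [NormedSpace ℝ F]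
    {c : P → F}, Continuous c → (∃ C : ℝ, ∀ p, ‖c p‖ ≤ C) →
    BF R k (fun p (_ : E) => c p) := by
  have h0 : ∀ {F : Type u} [NormedAddCommGroup F] [NormedSpace ℝ F]
    {c : P → F}, Continuous c → (∃ C : ℝ, ∀ p, ‖c p‖ ≤ C) → B0 R (fun p (_ : E) => c p) := by
    intro F _ _ c hc ⟨C, hC⟩
    exact ⟨(hc.comp continuous_fst).continuousOn, C, fun p _ _ => hC p⟩
  induction k with
  | zero => intro F _ _ c hc hb; exact h0 hc hb
  | succ k ih =>
    intro F _ _ c hc hb
    refine ⟨h0 hc hb, fun p x _ => differentiableAt_const _, ?_⟩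
    refine (ih (c := fun _ : P => (0 : E →L[ℝ] F)) continuous_const ⟨0, fun p => by simp⟩).congr ?_
    intro p x _
    exact fderiv_const_apply (c p)

theorem BF.cst {k : ℕ} (c : F) : BF R k (fun (_ : P) (_ : E) => c) :=
  BF.const continuous_const ⟨‖c‖, fun _ => le_rfl⟩

/-- the identity -/
theorem BF.id' {k : ℕ} : BF R k (fun (_ : P) (x : E) => x) := by
  have h0 : B0 R (fun (_ : P) (x : E) => x) :=
    ⟨continuous_snd.continuousOn, R, fun _ x hx => (mem_ball_zero_iff.1 hx).le⟩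
  cases k with
  | zero => exact h0
  | succ k =>
    refine ⟨h0, fun p x _ => differentiableAt_id, ?_⟩
    refine (BF.cst (ContinuousLinearMap.id ℝ E)).congr fun p x _ => ?_
    exact fderiv_fun_id

/-- application of a linear map -/
theorem BF.clm {k : ℕ} (A : F₁ →L[ℝ] F₂) {z : P → E → F₁} (hz : BF R k z) :
    BF R k (fun p x => A (z p x)) := by
  have h := BF.bilin (P := P) (R := R) (k := k) (ContinuousLinearMap.id ℝ (F₁ →L[ℝ] F₂))
    (z := fun (_ : P) (_ : E) => A) (w := z) (BF.cst A) hz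
  exact h

theorem BF.neg {k : ℕ} {z : P → E → F} (hz : BF R k z) : BF R k (fun p x => - z p x) :=
  BF.clm (-ContinuousLinearMap.id ℝ F) hz

theorem BF.sub {k : ℕ} {z w : P → E → F} (hz : BF R k z) (hw : BF R k w) :
    BF R k (fun p x => z p x - w p x) := by
  refine (hz.add hw.neg).congr fun p x _ => ?_
  exact sub_eq_add_neg _ _

/-- evaluation of a family of linear maps -/
theorem BF.app {k : ℕ} {A : P → E → (F₁ →L[ℝ] F₂)} {z : P → E → F₁} (hA : BF R k A)
    (hz : BF R k z) : BF R k (fun p x => A p x (z p x)) :=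
  BF.bilin (ContinuousLinearMap.id ℝ (F₁ →L[ℝ] F₂)) hA hz

/-- composition of families of linear maps -/
theorem BF.compL {k : ℕ} {A : P → E → (F₂ →L[ℝ] F₃)} {z : P → E → (F₁ →L[ℝ] F₂)} (hA : BF R k A)
    (hz : BF R k z) : BF R k (fun p x => (A p x).comp (z p x)) :=
  BF.bilin (ContinuousLinearMap.compL ℝ F₁ F₂ F₃) hA hz

/-- change of the parameter -/
theorem BF.reparam {Q : Type*} [TopologicalSpace Q] {φ : Q → P} (hφ : Continuous φ) {k : ℕ} :
    ∀ {F : Type u} [NormedAddCommGroup F] [NormedSpace ℝ F] {z : P → E → F}, BF R k z →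
    BF R k (fun q x => z (φ q) x) := by
  have h0 : ∀ {F : Type u} [NormedAddCommGroup F] [NormedSpace ℝ F] {z : P → E → F}, B0 R z →
      B0 R (fun q x => z (φ q) x) := by
    intro F _ _ z h
    obtain ⟨C, hC⟩ := h.bdd
    refine ⟨?_, C, fun q x hx => hC _ x hx⟩
    have h1 : ContinuousOn (fun q : Q × E => ((φ q.1, q.2) : P × E)) (univ ×ˢ ball 0 R) :=
      ((hφ.comp continuous_fst).prodMk continuous_snd).continuousOn
    exact h.cont.comp h1 fun q hq => ⟨mem_univ _, hq.2⟩
  induction k with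
  | zero => intro F _ _ z h; exact h0 h
  | succ k ih =>
    intro F _ _ z h
    exact ⟨h0 h.1, fun q x hx => h.2.1 (φ q) x hx, ih h.2.2⟩

/-- composition -/
theorem BF.comp {G : P → E → E} (hG : ∀ k, BF R k G) (hm : ∀ p, ∀ x ∈ ball (0 : E) R,
    G p x ∈ ball (0 : E) R) {k : ℕ} : ∀ {F : Type u} [NormedAddCommGroup F] [NormedSpace ℝ F]
    {z : P → E → F}, BF R k z → BF R k (fun p x => z p (G p x)) := by
  have h0 : ∀ {F : Type u} [NormedAddCommGroup F] [NormedSpace ℝ F] {z : P → E → F}, B0 R z →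
      B0 R (fun p x => z p (G p x)) := by
    intro F _ _ z h
    obtain ⟨C, hC⟩ := h.bdd
    refine ⟨?_, C, fun q x hx => hC _ _ (hm q x hx)⟩
    have h1 : ContinuousOn (fun q : P × E => ((q.1, G q.1 q.2) : P × E)) (univ ×ˢ ball 0 R) :=
      continuousOn_fst.prodMk (hG 0).b0.cont
    exact h.cont.comp h1 fun q hq => ⟨mem_univ _, hm q.1 q.2 hq.2⟩
  induction k with
  | zero => intro F _ _ z h; exact h0 h
  | succ k ih =>
    intro F _ _ z h
    have hd : ∀ p, ∀ x ∈ ball (0 : E) R, HasFDerivAt (fun y => z p (G p y))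
        ((fderiv ℝ (z p) (G p x)).comp (fderiv ℝ (G p) x)) x := fun p x hx =>
      (h.2.1 p _ (hm p x hx)).hasFDerivAt.comp x ((hG 1).2.1 p x hx).hasFDerivAt
    refine ⟨h0 h.1, fun p x hx => (hd p x hx).differentiableAt, ?_⟩
    exact ((ih h.2.2).compL (hG (k + 1)).2.2).congr fun p x hx => (hd p x hx).fderiv

end Vale.Agent.P207.N3.H992
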