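import Vale.Agent.P207.N3.H992.BF

/-!
# P207, line N3, P4: contracting cocycles are bounded in `C^k`; exponential convergence in `C^∞`
-/

noncomputable section

namespace Vale.Agent.P207.N3.H992

open Set Metric Filter Topology

universe u

variable {Ξ : Type*} [TopologicalSpace Ξ] {P : Type*} [TopologicalSpace P]
variable {E : Type u} [NormedAddCommGroup E] [NormedSpace ℝ E] {R : ℝ}

section

variable {F : Type u} [NormedAddCommGroup F] [NormedSpace ℝ F]

/-- joint continuity for a discrete parameter -/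
theorem continuousOn_nat {S : Set E} {f : (ℕ × Ξ) × E → F}
    (h : ∀ m, ContinuousOn (fun q : Ξ × E => f ((m, q.1), q.2)) (univ ×ˢ S)) :
    ContinuousOn f (univ ×ˢ S) := by
  rintro ⟨⟨m, ξ⟩, x⟩ hq
  have h1 := h m (ξ, x) ⟨mem_univ _, hq.2⟩
  have h2 : ContinuousWithinAt (fun q : (ℕ × Ξ) × E => f ((m, q.1.2), q.2)) (univ ×ˢ S)
      ((m, ξ), x) := by
    have h3 : ContinuousWithinAt (fun q : (ℕ × Ξ) × E => ((q.1.2, q.2) : Ξ × E)) (univ ×ˢ S)
        ((m, ξ), x) :=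
      ((continuous_snd.comp continuous_fst).prodMk continuous_snd).continuousWithinAt
    exact ContinuousWithinAt.comp (t := univ ×ˢ S) (g := fun q : Ξ × E => f ((m, q.1), q.2))
      (f := fun q : (ℕ × Ξ) × E => ((q.1.2, q.2) : Ξ × E)) (x := ((m, ξ), x)) h1 h3
      fun q hq => ⟨mem_univ _, hq.2⟩
  refine h2.congr_of_eventuallyEq ?_ rfl
  have h4 : {q : (ℕ × Ξ) × E | q.1.1 = m} ∈ 𝓝 (((m, ξ), x) : (ℕ × Ξ) × E) := by
    refine IsOpen.mem_nhds ?_ rfl
    exact (isOpen_discrete {m}).preimage (continuous_fst.comp continuous_fst)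
  filter_upwards [mem_nhdsWithin_of_mem_nhds h4] with q hq
  obtain ⟨⟨m', ξ'⟩, x'⟩ := q
  have : m' = m := hq
  subst this
  rfl

end

section

variable {F : Type u} [NormedAddCommGroup F] [NormedSpace ℝ F]
  {F' : Type u} [NormedAddCommGroup F'] [NormedSpace ℝ F']

/-- `A ↦ M ∘ A ∘ D` -/
def sand (M : F →L[ℝ] F') (D : E →L[ℝ] E) : (E →L[ℝ] F) →L[ℝ] (E →L[ℝ] F') :=
  (ContinuousLinearMap.compL ℝ E F F' M).comp ((ContinuousLinearMap.compL ℝ E E F).flip D)

@[simp] theorem sand_apply (M : F →L[ℝ] F') (D : E →L[ℝ] E) (A : E →L[ℝ] F) :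
    sand M D A = M.comp (A.comp D) := rfl

theorem norm_sand_le (M : F →L[ℝ] F') (D : E →L[ℝ] E) : ‖sand M D‖ ≤ ‖M‖ * ‖D‖ := by
  refine ContinuousLinearMap.opNorm_le_bound _ (by positivity) fun A => ?_
  rw [sand_apply]
  calc _ ≤ ‖M‖ * ‖A.comp D‖ := ContinuousLinearMap.opNorm_comp_le _ _
    _ ≤ ‖M‖ * (‖A‖ * ‖D‖) := by gcongr; exact ContinuousLinearMap.opNorm_comp_le _ _
    _ = _ := by ring

theorem BF.sand {k : ℕ} {M : P → E → (F →L[ℝ] F')} {D : P → E → (E →L[ℝ] E)} (hM : BF R k M)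
    (hD : BF R k D) : BF R k (fun p x => sand (M p x) (D p x)) := by
  have h1 := BF.clm (P := P) (R := R) (k := k) (F₁ := F →L[ℝ] F')
    (F₂ := (E →L[ℝ] F) →L[ℝ] E →L[ℝ] F') (ContinuousLinearMap.compL ℝ E F F') hM
  have h2 := BF.clm (P := P) (R := R) (k := k) (F₁ := E →L[ℝ] E)
    (F₂ := (E →L[ℝ] F) →L[ℝ] E →L[ℝ] F) (ContinuousLinearMap.compL ℝ E E F).flip hD
  exact BF.compL h1 h2

theorem BF.flip {k : ℕ} {A : P → E → (E →L[ℝ] F →L[ℝ] F')} (hA : BF R k A) :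
    BF R k (fun p x => (A p x).flip) :=
  BF.clm (P := P) (R := R) (k := k) (F₁ := E →L[ℝ] F →L[ℝ] F') (F₂ := F →L[ℝ] E →L[ℝ] F')
    (ContinuousLinearMap.flipₗᵢ ℝ E F F').toContinuousLinearEquiv.toContinuousLinearMap hA

end

/-- **contracting cocycles are bounded in `C^k`** -/
theorem BF.cocycle {θ : ℝ} (hθ0 : 0 ≤ θ) (hθ : θ < 1) {G : ℕ × Ξ → E → E}
    (hG : ∀ k, BF R k G) (hm : ∀ p, ∀ x ∈ ball (0 : E) R, G p x ∈ ball (0 : E) R)
    (hDG : ∀ p, ∀ x ∈ ball (0 : E) R, ‖fderiv ℝ (G p) x‖ ≤ 1) {k : ℕ} :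
    ∀ {F : Type u} [NormedAddCommGroup F] [NormedSpace ℝ F]
    {M : ℕ × Ξ → E → (F →L[ℝ] F)} {e w : ℕ × Ξ → E → F}, BF R k M →
    (∀ p, ∀ x ∈ ball (0 : E) R, ‖M p x‖ ≤ θ) → BF R k e → BF R k (fun ξ x => w (0, ξ) x) →
    (∀ m ξ, ∀ x ∈ ball (0 : E) R, w (m + 1, ξ) x = M (m, ξ) x (w (m, ξ) (G (m, ξ) x)) +
      e (m, ξ) x) → BF R k w := by
  have h0 : ∀ {F : Type u} [NormedAddCommGroup F] [NormedSpace ℝ F]
    {M : ℕ × Ξ → E → (F →L[ℝ] F)} {e w : ℕ × Ξ → E → F}, B0 R M →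
    (∀ p, ∀ x ∈ ball (0 : E) R, ‖M p x‖ ≤ θ) → B0 R e → B0 R (fun ξ x => w (0, ξ) x) →
    (∀ m ξ, ∀ x ∈ ball (0 : E) R, w (m + 1, ξ) x = M (m, ξ) x (w (m, ξ) (G (m, ξ) x)) +
      e (m, ξ) x) → B0 R w := by
    intro F _ _ M e w hM hMθ he hw0 hw
    constructor
    · refine continuousOn_nat fun m => ?_
      induction m with
      | zero => exact hw0.cont
      | succ m ih =>
        have hι : ContinuousOn (fun q : Ξ × E => (((m, q.1), q.2) : (ℕ × Ξ) × E))
            (univ ×ˢ ball 0 R) :=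
          ((continuous_const.prodMk continuous_fst).prodMk continuous_snd).continuousOn
        have hι' : MapsTo (fun q : Ξ × E => (((m, q.1), q.2) : (ℕ × Ξ) × E))
            (univ ×ˢ ball 0 R) (univ ×ˢ ball 0 R) := fun q hq => ⟨mem_univ _, hq.2⟩
        have h1 := (hM.cont.comp hι hι')
        have h2 := (he.cont.comp hι hι')
        have h3 := ((hG 0).b0.cont.comp hι hι')
        have h4 : ContinuousOn (fun q : Ξ × E => w (m, q.1) (G (m, q.1) q.2))
            (univ ×ˢ ball 0 R) := by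
          have h5 : ContinuousOn (fun q : Ξ × E => ((q.1, G (m, q.1) q.2) : Ξ × E))
              (univ ×ˢ ball 0 R) := continuousOn_fst.prodMk h3
          exact ih.comp h5 fun q hq => ⟨mem_univ _, hm _ _ hq.2⟩
        exact ((h1.clm_apply h4).add h2).congr fun q hq => hw m q.1 q.2 hq.2
    · obtain ⟨C0, hC0⟩ := hw0.bdd
      obtain ⟨Ce, hCe⟩ := he.bdd
      have h1θ : 0 < 1 - θ := by linarith
      refine ⟨max |C0| (|Ce| / (1 - θ)), ?_⟩
      have hCm : |Ce| ≤ (1 - θ) * max |C0| (|Ce| / (1 - θ)) := by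
        calc |Ce| = (1 - θ) * (|Ce| / (1 - θ)) := by field_simp
          _ ≤ _ := mul_le_mul_of_nonneg_left (le_max_right _ _) h1θ.le
      have key : ∀ m ξ, ∀ x ∈ ball (0 : E) R, ‖w (m, ξ) x‖ ≤ max |C0| (|Ce| / (1 - θ)) := by
        intro m
        induction m with
        | zero =>
          intro ξ x hx
          exact ((hC0 ξ x hx).trans (le_abs_self _)).trans (le_max_left _ _)
        | succ m ih =>
          intro ξ x hx
          rw [hw m ξ x hx]
          have h2 := ih ξ _ (hm (m, ξ) x hx)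
          have h3 : ‖M (m, ξ) x (w (m, ξ) (G (m, ξ) x))‖ ≤ θ * max |C0| (|Ce| / (1 - θ)) :=
            ((M (m, ξ) x).le_opNorm _).trans (by gcongr; exact hMθ _ x hx)
          have h4 := (hCe (m, ξ) x hx).trans (le_abs_self _)
          calc _ ≤ _ := norm_add_le _ _
            _ ≤ θ * max |C0| (|Ce| / (1 - θ)) + |Ce| := add_le_add h3 h4
            _ ≤ _ := by linarith
      exact fun p x hx => key p.1 p.2 x hx
  induction k with
  | zero => intro F _ _ M e w hM hMθ he hw0 hw; exact h0 hM hMθ he hw0 hw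
  | succ k ih =>
    intro F _ _ M e w hM hMθ he hw0 hw
    have hwk : BF R k w := ih hM.pred hMθ he.pred hw0.pred hw
    -- differentiability
    have hd : ∀ m ξ, ∀ x ∈ ball (0 : E) R, DifferentiableAt ℝ (w (m, ξ)) x := by
      intro m
      induction m with
      | zero => intro ξ x hx; exact hw0.2.1 ξ x hx
      | succ m ihm =>
        intro ξ x hx
        have h1 : DifferentiableAt ℝ (fun y => M (m, ξ) y (w (m, ξ) (G (m, ξ) y)) +
            e (m, ξ) y) x := by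
          have h2 : DifferentiableAt ℝ (fun y => w (m, ξ) (G (m, ξ) y)) x :=
            (ihm ξ _ (hm (m, ξ) x hx)).comp x ((hG 1).2.1 (m, ξ) x hx)
          exact ((hM.2.1 (m, ξ) x hx).clm_apply h2).add (he.2.1 (m, ξ) x hx)
        refine h1.congr_of_eventuallyEq ?_
        filter_upwards [isOpen_ball.mem_nhds hx] with y hy using hw m ξ y hy
    refine ⟨hwk.b0, fun p x hx => hd p.1 p.2 x hx, ?_⟩
    -- the cocycle of the derivative
    refine ih (F := E →L[ℝ] F) (M := fun p x => H992.sand (M p x) (fderiv ℝ (G p) x))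
      (e := fun p x => (fderiv ℝ (M p) x).flip (w p (G p x)) + fderiv ℝ (e p) x)
      (BF.sand hM.pred (hG (k + 1)).2.2) ?_ ?_ hw0.2.2 ?_
    · intro p x hx
      calc _ ≤ ‖M p x‖ * ‖fderiv ℝ (G p) x‖ := norm_sand_le _ _
        _ ≤ θ * 1 := by gcongr; exacts [hMθ p x hx, hDG p x hx]
        _ = θ := mul_one _
    · exact (BF.app (BF.flip hM.2.2) (BF.comp hG hm hwk)).add he.2.2
    · intro m ξ x hx
      have hu : HasFDerivAt (fun y => w (m, ξ) (G (m, ξ) y))
          ((fderiv ℝ (w (m, ξ)) (G (m, ξ) x)).comp (fderiv ℝ (G (m, ξ)) x)) x :=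
        (hd m ξ _ (hm (m, ξ) x hx)).hasFDerivAt.comp x ((hG 1).2.1 (m, ξ) x hx).hasFDerivAt
      have h1 := ((hM.2.1 (m, ξ) x hx).hasFDerivAt.clm_apply hu).add
        (he.2.1 (m, ξ) x hx).hasFDerivAt
      have h2 : HasFDerivAt (w (m + 1, ξ)) ((M (m, ξ) x).comp
          ((fderiv ℝ (w (m, ξ)) (G (m, ξ) x)).comp (fderiv ℝ (G (m, ξ)) x)) +
          (fderiv ℝ (M (m, ξ)) x).flip (w (m, ξ) (G (m, ξ) x)) +
          fderiv ℝ (e (m, ξ)) x) x := by
        refine h1.congr_of_eventuallyEq ?_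
        filter_upwards [isOpen_ball.mem_nhds hx] with y hy using hw m ξ y hy
      rw [h2.fderiv, add_assoc, sand_apply]

end Vale.Agent.P207.N3.H992
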