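import Vale.Agent.P207.N3.H992.Left

/-!
# P207, line N3, P4: composition of bounded families, two radii
-/

noncomputable section

namespace Vale.Agent.P207.N3.H992

open Set Metric Filter Topology

universe u

variable {P : Type*} [TopologicalSpace P]
variable {E : Type u} [NormedAddCommGroup E] [NormedSpace ℝ E] {R R' : ℝ}
variable {E' : Type u} [NormedAddCommGroup E'] [NormedSpace ℝ E']

/-- composition, two radii -/
theorem BF.comp2 {G : P → E → E'} (hm : ∀ p, ∀ x ∈ ball (0 : E) R,
    G p x ∈ ball (0 : E') R') {k : ℕ} (hG : BF R k G) : ∀ {F : Type u} [NormedAddCommGroup F]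
    [NormedSpace ℝ F] {z : P → E' → F}, BF R' k z → BF R k (fun p x => z p (G p x)) := by
  have h0 : ∀ {F : Type u} [NormedAddCommGroup F] [NormedSpace ℝ F] {z : P → E' → F},
      B0 R G → B0 R' z → B0 R (fun p x => z p (G p x)) := by
    intro F _ _ z hG h
    obtain ⟨C, hC⟩ := h.bdd
    refine ⟨?_, C, fun q x hx => hC _ _ (hm q x hx)⟩
    have h1 : ContinuousOn (fun q : P × E => ((q.1, G q.1 q.2) : P × E')) (univ ×ˢ ball 0 R) :=
      continuousOn_fst.prodMk hG.cont
    exact h.cont.comp h1 fun q hq => ⟨mem_univ _, hm q.1 q.2 hq.2⟩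
  induction k with
  | zero => intro F _ _ z h; exact h0 hG h
  | succ k ih =>
    intro F _ _ z h
    have hd : ∀ p, ∀ x ∈ ball (0 : E) R, HasFDerivAt (fun y => z p (G p y))
        ((fderiv ℝ (z p) (G p x)).comp (fderiv ℝ (G p) x)) x := fun p x hx =>
      (h.2.1 p _ (hm p x hx)).hasFDerivAt.comp x (hG.2.1 p x hx).hasFDerivAt
    refine ⟨h0 hG.1 h.1, fun p x hx => (hd p x hx).differentiableAt, ?_⟩
    exact ((ih hG.pred h.2.2).compL hG.2.2).congr fun p x hx => (hd p x hx).fderiv

end Vale.Agent.P207.N3.H992
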