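import Vale.Agent.P207.N3.H992.Cv

/-!
# P207, line N3, P4: `BF` in terms of `iteratedFDeriv`
-/

noncomputable section

namespace Vale.Agent.P207.N3.H992

open Set Metric Filter Topology

universe u

variable {P : Type*} [TopologicalSpace P]
variable {E : Type u} [NormedAddCommGroup E] [NormedSpace ℝ E] {R : ℝ}

/-- the derivatives of order `≤ k` of the family are continuous and bounded on `P × ball` -/
def IB (R : ℝ) (k : ℕ) {F : Type u} [NormedAddCommGroup F] [NormedSpace ℝ F] (z : P → E → F) :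
    Prop :=
  (∀ p, ContDiffOn ℝ k (z p) (ball 0 R)) ∧ ∀ j ≤ k,
    ContinuousOn (fun q : P × E => iteratedFDeriv ℝ j (z q.1) q.2) (univ ×ˢ ball 0 R) ∧
    ∃ C : ℝ, ∀ p, ∀ x ∈ ball (0 : E) R, ‖iteratedFDeriv ℝ j (z p) x‖ ≤ C

theorem iter_succ_cont {F : Type u} [NormedAddCommGroup F] [NormedSpace ℝ F] {z : P → E → F}
    {S : Set (P × E)} (j : ℕ) :
    ContinuousOn (fun q : P × E => iteratedFDeriv ℝ (j + 1) (z q.1) q.2) S ↔
    ContinuousOn (fun q : P × E => iteratedFDeriv ℝ j (fun x => fderiv ℝ (z q.1) x) q.2) S := by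
  have h1 : (fun q : P × E => iteratedFDeriv ℝ (j + 1) (z q.1) q.2) =
      (continuousMultilinearCurryRightEquiv' ℝ j E F).symm ∘
        (fun q : P × E => iteratedFDeriv ℝ j (fun x => fderiv ℝ (z q.1) x) q.2) := by
    funext q
    rw [iteratedFDeriv_succ_eq_comp_right]
    rfl
  rw [h1]
  exact (continuousMultilinearCurryRightEquiv' ℝ j E F).symm.toHomeomorph.comp_continuousOn_iff _ _

theorem BF_iff {k : ℕ} : ∀ {F : Type u} [NormedAddCommGroup F] [NormedSpace ℝ F]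
    {z : P → E → F}, BF R k z ↔ IB R k z := by
  have hzero : ∀ {F : Type u} [NormedAddCommGroup F] [NormedSpace ℝ F] {z : P → E → F}, B0 R z ↔
      (ContinuousOn (fun q : P × E => iteratedFDeriv ℝ 0 (z q.1) q.2) (univ ×ˢ ball 0 R) ∧
        ∃ C : ℝ, ∀ p, ∀ x ∈ ball (0 : E) R, ‖iteratedFDeriv ℝ 0 (z p) x‖ ≤ C) := by
    intro F _ _ z
    have h1 : (fun q : P × E => iteratedFDeriv ℝ 0 (z q.1) q.2) =
        (continuousMultilinearCurryFin0 ℝ E F).symm ∘ (fun q : P × E => z q.1 q.2) := by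
      funext q
      rw [iteratedFDeriv_zero_eq_comp]
      rfl
    have h2 : ContinuousOn (fun q : P × E => iteratedFDeriv ℝ 0 (z q.1) q.2)
        (univ ×ˢ ball 0 R) ↔ ContinuousOn (fun q : P × E => z q.1 q.2) (univ ×ˢ ball 0 R) := by
      rw [h1]
      exact (continuousMultilinearCurryFin0 ℝ E F).symm.toHomeomorph.comp_continuousOn_iff _ _
    rw [h2]
    simp only [norm_iteratedFDeriv_zero]
    exact ⟨fun h => ⟨h.cont, h.bdd⟩, fun h => ⟨h.1, h.2⟩⟩
  induction k with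
  | zero =>
    intro F _ _ z
    change B0 R z ↔ _
    rw [hzero]
    constructor
    · rintro ⟨h1, h2⟩
      refine ⟨fun p => ?_, fun j hj => ?_⟩
      · have h3 : B0 R z := hzero.2 ⟨h1, h2⟩
        rw [Nat.cast_zero, contDiffOn_zero]
        have h4 : ContinuousOn (fun x : E => ((p, x) : P × E)) (ball 0 R) :=
          (continuous_const.prodMk continuous_id).continuousOn
        exact h3.cont.comp h4 fun x hx => ⟨mem_univ _, hx⟩
      · obtain rfl : j = 0 := by omega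
        exact ⟨h1, h2⟩
    · rintro ⟨-, h⟩
      exact h 0 le_rfl
  | succ k ih =>
    intro F _ _ z
    constructor
    · rintro ⟨h1, h2, h3⟩
      obtain ⟨h4, h5⟩ := ih.1 h3
      refine ⟨fun p => ?_, fun j hj => ?_⟩
      · rw [Nat.cast_succ, contDiffOn_succ_iff_fderiv_of_isOpen isOpen_ball]
        exact ⟨fun x hx => (h2 p x hx).differentiableWithinAt, by simp, h4 p⟩
      · cases j with
        | zero => exact hzero.1 h1
        | succ j =>
          obtain ⟨h6, C, hC⟩ := h5 j (by omega)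
          refine ⟨(iter_succ_cont j).2 h6, C, fun p x hx => ?_⟩
          rw [← norm_iteratedFDeriv_fderiv]
          exact hC p x hx
    · rintro ⟨h1, h2⟩
      have hd : ∀ p, ∀ x ∈ ball (0 : E) R, DifferentiableAt ℝ (z p) x := fun p x hx =>
        ((h1 p).differentiableOn (by simp)).differentiableAt (isOpen_ball.mem_nhds hx)
      refine ⟨hzero.2 (h2 0 (by omega)), hd, ih.2 ⟨fun p => ?_, fun j hj => ?_⟩⟩
      · have := h1 p
        rw [Nat.cast_succ, contDiffOn_succ_iff_fderiv_of_isOpen isOpen_ball] at this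
        exact this.2.2
      · obtain ⟨h6, C, hC⟩ := h2 (j + 1) (by omega)
        refine ⟨(iter_succ_cont j).1 h6, C, fun p x hx => ?_⟩
        have h7 := hC p x hx
        rw [← norm_iteratedFDeriv_fderiv] at h7
        exact h7

section

variable {Ξ : Type*} [TopologicalSpace Ξ] {F : Type u} [NormedAddCommGroup F] [NormedSpace ℝ F]

theorem SB_iff {y : E → F} : SB R y ↔ ContDiffOn ℝ (⊤ : ℕ∞) y (ball 0 R) ∧
    ∀ j : ℕ, ∃ C : ℝ, ∀ x ∈ ball (0 : E) R, ‖iteratedFDeriv ℝ j y x‖ ≤ C := by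
  constructor
  · intro h
    constructor
    · rw [contDiffOn_infty]
      intro k
      exact (BF_iff.1 (h k)).1 ()
    · intro j
      obtain ⟨C, hC⟩ := ((BF_iff.1 (h j)).2 j le_rfl).2
      exact ⟨C, fun x hx => hC () x hx⟩
  · rintro ⟨h1, h2⟩ k
    rw [BF_iff]
    have h3 : ∀ j : ℕ, ContDiffOn ℝ j y (ball 0 R) := fun j => h1.of_le (by exact_mod_cast le_top)
    refine ⟨fun _ => h3 k, fun j _ => ⟨?_, ?_⟩⟩
    · have h4 : ContinuousOn (iteratedFDeriv ℝ j y) (ball 0 R) := by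
        have h5 := (h3 j).continuousOn_iteratedFDerivWithin (m := j) le_rfl
          isOpen_ball.uniqueDiffOn
        exact h5.congr fun x hx => (iteratedFDerivWithin_of_isOpen j isOpen_ball hx).symm
      exact h4.comp continuousOn_snd fun q hq => hq.2
    · obtain ⟨C, hC⟩ := h2 j
      exact ⟨C, fun _ x hx => hC x hx⟩

theorem Cv_iff {b : ℝ} (hb : 0 < b) {z : ℕ × Ξ → E → F} {y : E → F} (hy : SB R y) :
    Cv R b z y ↔ (∀ p, ContDiffOn ℝ (⊤ : ℕ∞) (z p) (ball 0 R)) ∧ ∀ j : ℕ,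
      ContinuousOn (fun q : (ℕ × Ξ) × E => iteratedFDeriv ℝ j (z q.1) q.2) (univ ×ˢ ball 0 R) ∧
      ∃ C : ℝ, ∀ p, ∀ x ∈ ball (0 : E) R,
        ‖iteratedFDeriv ℝ j (z p) x - iteratedFDeriv ℝ j y x‖ ≤ C * b ^ p.1 := by
  have hyc : ∀ j : ℕ, ∀ x ∈ ball (0 : E) R, ContDiffAt ℝ j y x := fun j x hx =>
    ((SB_iff.1 hy).1.of_le (by exact_mod_cast le_top)).contDiffAt (isOpen_ball.mem_nhds hx)
  have hyj : ∀ j : ℕ, ContinuousOn (fun q : (ℕ × Ξ) × E => iteratedFDeriv ℝ j y q.2)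
      (univ ×ˢ ball 0 R) := fun j => ((BF_iff.1 (hy.bf (P := ℕ × Ξ) j)).2 j le_rfl).1
  have hbp : ∀ m : ℕ, (b⁻¹) ^ m ≠ 0 := fun m => (by positivity)
  have hcont : Continuous (fun q : (ℕ × Ξ) × E => (b⁻¹) ^ q.1.1) := (pow_cont _).comp continuous_fst
  have hcont' : Continuous (fun q : (ℕ × Ξ) × E => b ^ q.1.1) := (pow_cont _).comp continuous_fst
  -- the key identity
  have key : ∀ (j : ℕ) (p : ℕ × Ξ) (x : E), x ∈ ball (0 : E) R → ContDiffAt ℝ j (z p) x →
      iteratedFDeriv ℝ j (fun x => (b⁻¹) ^ p.1 • (z p x - y x)) x =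
        (b⁻¹) ^ p.1 • (iteratedFDeriv ℝ j (z p) x - iteratedFDeriv ℝ j y x) := by
    intro j p x hx hz
    have h1 : iteratedFDeriv ℝ j (fun x => z p x - y x) x =
        iteratedFDeriv ℝ j (z p) x - iteratedFDeriv ℝ j y x :=
      iteratedFDeriv_sub_apply hz (hyc j x hx)
    rw [iteratedFDeriv_const_smul_apply' (hz.sub (hyc j x hx)), h1]
  have hdz : ∀ k : ℕ, IB R k (fun (p : ℕ × Ξ) x => (b⁻¹) ^ p.1 • (z p x - y x)) →
      ∀ p, ContDiffOn ℝ k (z p) (ball 0 R) := by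
    intro k h p
    have h1 := h.1 p
    have h2 : ContDiffOn ℝ k (fun x => b ^ p.1 • ((b⁻¹) ^ p.1 • (z p x - y x)) + y x)
        (ball 0 R) := (h1.const_smul _).add ((SB_iff.1 hy).1.of_le (by exact_mod_cast le_top))
    refine h2.congr fun x hx => ?_
    rw [smul_smul, ← mul_pow, mul_inv_cancel₀ hb.ne', one_pow, one_smul, sub_add_cancel]
  constructor
  · intro h
    have hI : ∀ k, IB R k (fun (p : ℕ × Ξ) x => (b⁻¹) ^ p.1 • (z p x - y x)) :=
      fun k => BF_iff.1 (h k)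
    have hz : ∀ (j : ℕ) p, ∀ x ∈ ball (0 : E) R, ContDiffAt ℝ j (z p) x := fun j p x hx =>
      (hdz j (hI j) p).contDiffAt (isOpen_ball.mem_nhds hx)
    refine ⟨fun p => contDiffOn_infty.2 fun k => hdz k (hI k) p, fun j => ⟨?_, ?_⟩⟩
    · have h1 := ((hI j).2 j le_rfl).1
      have h2 : ContinuousOn (fun q : (ℕ × Ξ) × E => b ^ q.1.1 • iteratedFDeriv ℝ j
          (fun x => (b⁻¹) ^ q.1.1 • (z q.1 x - y x)) q.2 + iteratedFDeriv ℝ j y q.2)
          (univ ×ˢ ball 0 R) := (hcont'.continuousOn.smul h1).add (hyj j)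
      refine h2.congr fun q hq => ?_
      beta_reduce
      rw [key j q.1 q.2 hq.2 (hz j q.1 q.2 hq.2), smul_smul, ← mul_pow, mul_inv_cancel₀ hb.ne',
        one_pow, one_smul, sub_add_cancel]
    · obtain ⟨C, hC⟩ := ((hI j).2 j le_rfl).2
      refine ⟨C, fun p x hx => ?_⟩
      have h1 := hC p x hx
      rw [key j p x hx (hz j p x hx), norm_smul, norm_pow, norm_inv, Real.norm_of_nonneg hb.le,
        inv_pow, inv_mul_le_iff₀ (by positivity), mul_comm] at h1
      exact h1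
  · rintro ⟨h1, h2⟩ k
    have hz : ∀ (j : ℕ) p, ∀ x ∈ ball (0 : E) R, ContDiffAt ℝ j (z p) x := fun j p x hx =>
      ((h1 p).of_le (by exact_mod_cast le_top)).contDiffAt (isOpen_ball.mem_nhds hx)
    rw [BF_iff]
    refine ⟨fun p => ?_, fun j _ => ⟨?_, ?_⟩⟩
    · exact contDiffOn_const.smul (((h1 p).of_le (by exact_mod_cast le_top)).sub
        ((SB_iff.1 hy).1.of_le (by exact_mod_cast le_top)))
    · have h3 : ContinuousOn (fun q : (ℕ × Ξ) × E => (b⁻¹) ^ q.1.1 •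
          (iteratedFDeriv ℝ j (z q.1) q.2 - iteratedFDeriv ℝ j y q.2)) (univ ×ˢ ball 0 R) :=
        hcont.continuousOn.smul ((h2 j).1.sub (hyj j))
      exact h3.congr fun q hq => key j q.1 q.2 hq.2 (hz j q.1 q.2 hq.2)
    · obtain ⟨C, hC⟩ := (h2 j).2
      refine ⟨C, fun p x hx => ?_⟩
      rw [key j p x hx (hz j p x hx), norm_smul, norm_pow, norm_inv, Real.norm_of_nonneg hb.le,
        inv_pow, inv_mul_le_iff₀ (by positivity), mul_comm]
      exact hC p x hx

end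

end Vale.Agent.P207.N3.H992
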