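import Vale.Agent.P207.N3.H992.Coc

/-!
# P207, line N3, P4: exponential convergence in `C^∞`
-/

noncomputable section

namespace Vale.Agent.P207.N3.H992

open Set Metric Filter Topology

universe u

variable {Ξ : Type*} [TopologicalSpace Ξ] {P : Type*} [TopologicalSpace P]
variable {E : Type u} [NormedAddCommGroup E] [NormedSpace ℝ E] {R : ℝ}

section

variable {F : Type u} [NormedAddCommGroup F] [NormedSpace ℝ F]
  {F₁ : Type u} [NormedAddCommGroup F₁] [NormedSpace ℝ F₁]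
  {F₂ : Type u} [NormedAddCommGroup F₂] [NormedSpace ℝ F₂]
  {F₃ : Type u} [NormedAddCommGroup F₃] [NormedSpace ℝ F₃]

theorem BF.smulc {c : P → ℝ} (hc : Continuous c) (hb : ∃ C : ℝ, ∀ p, ‖c p‖ ≤ C) {k : ℕ} :
    ∀ {F : Type u} [NormedAddCommGroup F] [NormedSpace ℝ F] {z : P → E → F}, BF R k z →
    BF R k (fun p x => c p • z p x) := by
  have h0 : ∀ {F : Type u} [NormedAddCommGroup F] [NormedSpace ℝ F] {z : P → E → F}, B0 R z →
      B0 R (fun p x => c p • z p x) := by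
    intro F _ _ z h
    obtain ⟨C, hC⟩ := hb
    obtain ⟨D, hD⟩ := h.bdd
    refine ⟨(hc.comp continuous_fst).continuousOn.smul h.cont, |C| * |D|, fun p x hx => ?_⟩
    rw [norm_smul]
    exact mul_le_mul ((hC p).trans (le_abs_self _)) ((hD p x hx).trans (le_abs_self _))
      (norm_nonneg _) (abs_nonneg _)
  induction k with
  | zero => intro F _ _ z h; exact h0 h
  | succ k ih =>
    intro F _ _ z h
    refine ⟨h0 h.1, fun p x hx => (h.2.1 p x hx).const_smul _, ?_⟩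
    exact (ih h.2.2).congr fun p x hx => fderiv_fun_const_smul (h.2.1 p x hx) _

/-- smooth bounded functions on the ball -/
def SB (R : ℝ) (z : E → F) : Prop := ∀ k, BF (P := Unit) R k (fun _ => z)

theorem SB.bf {z : E → F} (h : SB R z) (k : ℕ) : BF R k (fun (_ : P) => z) :=
  BF.reparam (φ := fun _ : P => ()) continuous_const (h k)

theorem SB.add {z w : E → F} (hz : SB R z) (hw : SB R w) : SB R (fun x => z x + w x) :=
  fun k => (hz k).add (hw k)

theorem SB.sub {z w : E → F} (hz : SB R z) (hw : SB R w) : SB R (fun x => z x - w x) :=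
  fun k => (hz k).sub (hw k)

theorem SB.app {A : E → (F₁ →L[ℝ] F₂)} {z : E → F₁} (hA : SB R A) (hz : SB R z) :
    SB R (fun x => A x (z x)) := fun k => (hA k).app (hz k)

theorem SB.compL {A : E → (F₂ →L[ℝ] F₃)} {z : E → (F₁ →L[ℝ] F₂)} (hA : SB R A) (hz : SB R z) :
    SB R (fun x => (A x).comp (z x)) := fun k => (hA k).compL (hz k)

theorem SB.comp {f : E → E} (hf : SB R f) (hm : ∀ x ∈ ball (0 : E) R, f x ∈ ball (0 : E) R)
    {z : E → F} (hz : SB R z) : SB R (fun x => z (f x)) :=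
  fun k => BF.comp (P := Unit) hf (fun _ x hx => hm x hx) (hz k)

theorem SB.cst (c : F) : SB R (fun _ : E => c) := fun _ => BF.cst c

theorem SB.id' : SB R (fun x : E => x) := fun _ => BF.id'

theorem SB.der {z : E → F} (h : SB R z) : SB R (fun x => fderiv ℝ z x) := fun k => (h (k + 1)).der

theorem SB.diff {z : E → F} (h : SB R z) {x : E} (hx : x ∈ ball (0 : E) R) :
    DifferentiableAt ℝ z x := (h 1).diff (p := ()) hx

theorem SB.congr {z z' : E → F} (h : SB R z) (he : ∀ x ∈ ball (0 : E) R, z' x = z x) : SB R z' :=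
  fun k => (h k).congr fun _ x hx => he x hx

/-- exponential convergence in `C^∞` with rate `b` -/
def Cv (R b : ℝ) (z : ℕ × Ξ → E → F) (y : E → F) : Prop :=
  ∀ k, BF R k (fun (p : ℕ × Ξ) x => (b⁻¹) ^ p.1 • (z p x - y x))

theorem pow_cont (b : ℝ) : Continuous (fun p : ℕ × Ξ => b ^ p.1) :=
  (continuous_of_discreteTopology (f := fun m : ℕ => b ^ m)).comp continuous_fst

omit [TopologicalSpace Ξ] in
theorem pow_bdd {b : ℝ} (h0 : 0 ≤ b) (h1 : b ≤ 1) : ∃ C : ℝ, ∀ p : ℕ × Ξ, ‖b ^ p.1‖ ≤ C :=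
  ⟨1, fun p => by rw [Real.norm_of_nonneg (pow_nonneg h0 _)]; exact pow_le_one₀ h0 h1⟩

variable {b : ℝ} {z : ℕ × Ξ → E → F} {y : E → F}

theorem Cv.congr {z' : ℕ × Ξ → E → F} {y' : E → F} (h : Cv R b z y)
    (he : ∀ p, ∀ x ∈ ball (0 : E) R, z' p x = z p x) (hy : ∀ x ∈ ball (0 : E) R, y' x = y x) :
    Cv R b z' y' := fun k => (h k).congr fun p x hx => by rw [he p x hx, hy x hx]

theorem Cv.mono {b' : ℝ} (hb : 0 < b) (hbb : b ≤ b') (h : Cv R b z y) : Cv R b' z y := by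
  intro k
  have hb' : 0 < b' := hb.trans_le hbb
  have h1 : BF R k (fun (p : ℕ × Ξ) x => (b / b') ^ p.1 • ((b⁻¹) ^ p.1 • (z p x - y x))) :=
    BF.smulc (pow_cont _) (pow_bdd (by positivity) ((div_le_one hb').2 hbb)) (h k)
  refine h1.congr fun p x _ => ?_
  rw [smul_smul, ← mul_pow, div_eq_mul_inv, mul_assoc, mul_comm b'⁻¹, ← mul_assoc,
    mul_inv_cancel₀ hb.ne', one_mul]

theorem Cv.bf (hb : 0 < b) (hb1 : b ≤ 1) (h : Cv R b z y) (hy : SB R y) (k : ℕ) : BF R k z := by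
  have h1 : BF R k (fun (p : ℕ × Ξ) x => b ^ p.1 • ((b⁻¹) ^ p.1 • (z p x - y x))) :=
    BF.smulc (pow_cont _) (pow_bdd hb.le hb1) (h k)
  refine ((hy.bf k).add h1).congr fun p x _ => ?_
  rw [smul_smul, ← mul_pow, mul_inv_cancel₀ hb.ne', one_pow, one_smul]
  abel

theorem Cv.cst (y : E → F) : Cv (Ξ := Ξ) R b (fun _ => y) y := by
  intro k
  refine (BF.cst (0 : F)).congr fun p x _ => ?_
  rw [sub_self, smul_zero]

theorem Cv.add {z' : ℕ × Ξ → E → F} {y' : E → F} (h : Cv R b z y) (h' : Cv R b z' y') :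
    Cv R b (fun p x => z p x + z' p x) (fun x => y x + y' x) := by
  intro k
  refine ((h k).add (h' k)).congr fun p x _ => ?_
  module

theorem Cv.sub {z' : ℕ × Ξ → E → F} {y' : E → F} (h : Cv R b z y) (h' : Cv R b z' y') :
    Cv R b (fun p x => z p x - z' p x) (fun x => y x - y' x) := by
  intro k
  refine ((h k).sub (h' k)).congr fun p x _ => ?_
  module

theorem Cv.bilin (hb : 0 < b) (hb1 : b ≤ 1) (B : F₁ →L[ℝ] F₂ →L[ℝ] F₃) {z : ℕ × Ξ → E → F₁}
    {y : E → F₁} {z' : ℕ × Ξ → E → F₂} {y' : E → F₂} (h : Cv R b z y) (h' : Cv R b z' y')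
    (hy : SB R y) (hy' : SB R y') :
    Cv R b (fun p x => B (z p x) (z' p x)) (fun x => B (y x) (y' x)) := by
  intro k
  refine ((BF.bilin B (h k) (h'.bf hb hb1 hy' k)).add (BF.bilin B (hy.bf k) (h' k))).congr
    fun p x _ => ?_
  simp only [map_smul, map_sub, _root_.smul_apply, _root_.sub_apply]
  module

theorem Cv.app (hb : 0 < b) (hb1 : b ≤ 1) {z : ℕ × Ξ → E → (F₁ →L[ℝ] F₂)}
    {y : E → (F₁ →L[ℝ] F₂)} {z' : ℕ × Ξ → E → F₁} {y' : E → F₁} (h : Cv R b z y)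
    (h' : Cv R b z' y') (hy : SB R y) (hy' : SB R y') :
    Cv R b (fun p x => z p x (z' p x)) (fun x => y x (y' x)) :=
  Cv.bilin hb hb1 (ContinuousLinearMap.id ℝ (F₁ →L[ℝ] F₂)) h h' hy hy'

theorem Cv.compL (hb : 0 < b) (hb1 : b ≤ 1) {z : ℕ × Ξ → E → (F₂ →L[ℝ] F₃)}
    {y : E → (F₂ →L[ℝ] F₃)} {z' : ℕ × Ξ → E → (F₁ →L[ℝ] F₂)} {y' : E → (F₁ →L[ℝ] F₂)}
    (h : Cv R b z y) (h' : Cv R b z' y') (hy : SB R y) (hy' : SB R y') :
    Cv R b (fun p x => (z p x).comp (z' p x)) (fun x => (y x).comp (y' x)) :=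
  Cv.bilin hb hb1 (ContinuousLinearMap.compL ℝ F₁ F₂ F₃) h h' hy hy'

theorem Cv.clm (A : F₁ →L[ℝ] F₂) {z : ℕ × Ξ → E → F₁} {y : E → F₁}
    (h : Cv R b z y) : Cv R b (fun p x => A (z p x)) (fun x => A (y x)) := by
  intro k
  refine (BF.clm A (h k)).congr fun p x _ => ?_
  rw [map_smul, map_sub]

theorem Cv.der {z : ℕ × Ξ → E → F} {y : E → F} (h : Cv R b z y) (hz : ∀ p, ∀ x ∈ ball (0 : E) R,
    DifferentiableAt ℝ (z p) x) (hy : SB R y) :
    Cv R b (fun p x => fderiv ℝ (z p) x) (fun x => fderiv ℝ y x) := by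
  intro k
  refine (h (k + 1)).der.congr fun p x hx => ?_
  have h1 : HasFDerivAt (fun w => (b⁻¹) ^ p.1 • (z p w - y w))
      ((b⁻¹) ^ p.1 • (fderiv ℝ (z p) x - fderiv ℝ y x)) x :=
    ((hz p x hx).hasFDerivAt.sub (hy.diff hx).hasFDerivAt).const_smul _
  exact h1.fderiv.symm

theorem Cv.diff (hb : 0 < b) (hb1 : b ≤ 1) {z : ℕ × Ξ → E → F} {y : E → F} (h : Cv R b z y)
    (hy : SB R y) (p : ℕ × Ξ) {x : E} (hx : x ∈ ball (0 : E) R) : DifferentiableAt ℝ (z p) x :=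
  (h.bf hb hb1 hy 1).diff hx

end

section Comp

variable {b : ℝ}

/-- composition of a fixed function with converging maps -/
theorem Cv.compR (hb : 0 < b) (hb1 : b ≤ 1) {G : ℕ × Ξ → E → E} {f : E → E} (hG : Cv R b G f)
    (hf : SB R f) (hmG : ∀ p, ∀ x ∈ ball (0 : E) R, G p x ∈ ball (0 : E) R)
    (hmf : ∀ x ∈ ball (0 : E) R, f x ∈ ball (0 : E) R) :
    ∀ {F : Type u} [NormedAddCommGroup F] [NormedSpace ℝ F] {y : E → F}, SB R y →
    Cv R b (fun p x => y (G p x)) (fun x => y (f x)) := by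
  have hGk : ∀ k, BF R k G := hG.bf hb hb1 hf
  have h0 : ∀ {F : Type u} [NormedAddCommGroup F] [NormedSpace ℝ F] {y : E → F}, SB R y →
      B0 R (fun (p : ℕ × Ξ) x => (b⁻¹) ^ p.1 • (y (G p x) - y (f x))) := by
    intro F _ _ y hy
    constructor
    · have h1 := (BF.comp hGk hmG (hy.bf (P := ℕ × Ξ) 0)).b0.cont
      have h2 := ((SB.comp hf hmf hy).bf (P := ℕ × Ξ) 0).b0.cont
      exact ((pow_cont _).comp continuous_fst).continuousOn.smul (h1.sub h2)
    · obtain ⟨C, hC⟩ := (hG 0).b0.bdd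
      obtain ⟨D, hD⟩ := (hy.der 0).b0.bdd
      refine ⟨|D| * |C|, fun p x hx => ?_⟩
      have h1 : ‖y (G p x) - y (f x)‖ ≤ |D| * ‖G p x - f x‖ :=
        (convex_ball (0 : E) R).norm_image_sub_le_of_norm_fderiv_le
          (fun w hw => hy.diff hw) (fun w hw => (hD () w hw).trans (le_abs_self _))
          (hmf x hx) (hmG p x hx)
      have h2 := (hC p x hx).trans (le_abs_self _)
      rw [norm_smul] at h2 ⊢
      calc _ ≤ ‖(b⁻¹) ^ p.1‖ * (|D| * ‖G p x - f x‖) := by gcongr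
        _ = |D| * (‖(b⁻¹) ^ p.1‖ * ‖G p x - f x‖) := by ring
        _ ≤ _ := by gcongr
  intro F _ _ y hy k
  induction k generalizing F with
  | zero => exact h0 hy
  | succ k ih =>
    have hd1 : ∀ p, ∀ x ∈ ball (0 : E) R, HasFDerivAt (fun w => y (G p w))
        ((fderiv ℝ y (G p x)).comp (fderiv ℝ (G p) x)) x := fun p x hx =>
      (hy.diff (hmG p x hx)).hasFDerivAt.comp x ((hGk 1).diff hx).hasFDerivAt
    have hd2 : ∀ x ∈ ball (0 : E) R, HasFDerivAt (fun w => y (f w))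
        ((fderiv ℝ y (f x)).comp (fderiv ℝ f x)) x := fun x hx =>
      (hy.diff (hmf x hx)).hasFDerivAt.comp x (hf.diff hx).hasFDerivAt
    have hd : ∀ (p : ℕ × Ξ), ∀ x ∈ ball (0 : E) R, HasFDerivAt
        (fun w => (b⁻¹) ^ p.1 • (y (G p w) - y (f w)))
        ((b⁻¹) ^ p.1 • ((fderiv ℝ y (G p x)).comp (fderiv ℝ (G p) x) -
          (fderiv ℝ y (f x)).comp (fderiv ℝ f x))) x := fun p x hx =>
      ((hd1 p x hx).sub (hd2 x hx)).const_smul _
    refine ⟨h0 hy, fun p x hx => (hd p x hx).differentiableAt, ?_⟩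
    have h1 := ih hy.der
    have hG' := hG.der (fun p x hx => (hGk 1).diff hx) hf k
    refine ((BF.compL h1 (hGk (k + 1)).der).add
      (BF.compL ((SB.comp hf hmf hy.der).bf k) hG')).congr fun p x hx => ?_
    rw [(hd p x hx).fderiv]
    simp only [ContinuousLinearMap.smul_comp, ContinuousLinearMap.comp_smul,
      ContinuousLinearMap.sub_comp, ContinuousLinearMap.comp_sub]
    module

end Comp

end Vale.Agent.P207.N3.H992
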