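import Vale.Agent.P207.N3.H992.NSE
import Vale.Agent.P207.N3.H992.Conv

/-!
# P207, line N3, P4: forward coordinates

`N` is one of the normal forms of the plane, `N (f x) = x` near `0`, `G (m, ξ) → f` exponentially.
There are `X (m, ξ)` with `X (m+1, ξ) = N ∘ X (m, ξ) ∘ G (m, ξ)` which converge to the identity.
-/

noncomputable section

namespace Vale.Agent.P207.N3.H992

open Set Metric Filter Topology

universe u

/-- the plane -/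
abbrev Pl : Type := EuclideanSpace ℝ (Fin 2)

variable {Ξ : Type*} [TopologicalSpace Ξ]

section calculus

variable {E : Type u} [NormedAddCommGroup E] [NormedSpace ℝ E] {R : ℝ}

theorem Cv.shift {F : Type u} [NormedAddCommGroup F] [NormedSpace ℝ F] {b : ℝ} (hb : 0 < b)
    {z : ℕ × Ξ → E → F} {y : E → F} (h : Cv R b z y) :
    Cv R b (fun p => z (p.1 + 1, p.2)) y := by
  intro k
  have h1 := BF.reparam (φ := fun p : ℕ × Ξ => ((p.1 + 1, p.2) : ℕ × Ξ)) (by fun_prop) (h k)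
  have h2 := BF.smulc (P := ℕ × Ξ) (c := fun _ => b) continuous_const ⟨_, fun _ => le_rfl⟩ h1
  refine h2.congr fun p x _ => ?_
  rw [smul_smul, pow_succ', ← mul_assoc, mul_inv_cancel₀ hb.ne', one_mul]

end calculus

section real

variable {E : Type} [NormedAddCommGroup E] [NormedSpace ℝ E] {R : ℝ} {b : ℝ}

theorem BF.mul {P : Type*} [TopologicalSpace P] {k : ℕ} {z w : P → E → ℝ} (hz : BF R k z)
    (hw : BF R k w) : BF R k (fun p x => z p x * w p x) :=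
  BF.bilin (ContinuousLinearMap.mul ℝ ℝ) hz hw

theorem SB.mul {z w : E → ℝ} (hz : SB R z) (hw : SB R w) : SB R (fun x => z x * w x) :=
  fun k => BF.mul (P := Unit) (hz k) (hw k)

theorem Cv.mul (hb : 0 < b) (hb1 : b ≤ 1) {z z' : ℕ × Ξ → E → ℝ} {y y' : E → ℝ}
    (h : Cv R b z y) (h' : Cv R b z' y') (hy : SB R y) (hy' : SB R y') :
    Cv R b (fun p x => z p x * z' p x) (fun x => y x * y' x) :=
  Cv.bilin hb hb1 (ContinuousLinearMap.mul ℝ ℝ) h h' hy hy'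

theorem SB.pow {y : E → ℝ} (hy : SB R y) (n : ℕ) : SB R (fun x => y x ^ n) := by
  induction n with
  | zero => simpa using SB.cst (R := R) (E := E) (1 : ℝ)
  | succ n ih => simpa [pow_succ] using ih.mul hy

theorem Cv.pow (hb : 0 < b) (hb1 : b ≤ 1) {z : ℕ × Ξ → E → ℝ} {y : E → ℝ}
    (h : Cv R b z y) (hy : SB R y) (n : ℕ) :
    Cv R b (fun p x => z p x ^ n) (fun x => y x ^ n) := by
  induction n with
  | zero => simpa using Cv.cst (Ξ := Ξ) (R := R) (b := b) (fun _ : E => (1 : ℝ))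
  | succ n ih => simpa [pow_succ] using Cv.mul hb hb1 ih h (hy.pow n) hy

end real

/-- the coordinates -/
theorem SB.coord {R : ℝ} (i : Fin 2) : SB R (fun x : Pl => x i) := fun _ =>
  BF.clm (EuclideanSpace.proj (𝕜 := ℝ) i : Pl →L[ℝ] ℝ) BF.id'

theorem Cv.coord {R b : ℝ} {z : ℕ × Ξ → Pl → Pl} {y : Pl → Pl} (h : Cv R b z y) (i : Fin 2) :
    Cv R b (fun p x => z p x i) (fun x => y x i) :=
  Cv.clm (EuclideanSpace.proj (𝕜 := ℝ) i : Pl →L[ℝ] ℝ) h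

theorem Cv.mk2 {R b : ℝ} {z z' : ℕ × Ξ → Pl → ℝ} {y y' : Pl → ℝ} (h : Cv R b z y)
    (h' : Cv R b z' y') : Cv R b (fun p x => (!₂[z p x, z' p x] : Pl))
    (fun x => (!₂[y x, y' x] : Pl)) := by
  have h1 := Cv.clm (ContinuousLinearMap.toSpanSingleton ℝ (!₂[1, 0] : Pl)) h
  have h2 := Cv.clm (ContinuousLinearMap.toSpanSingleton ℝ (!₂[0, 1] : Pl)) h'
  refine (h1.add h2).congr (fun p x _ => ?_) (fun x _ => ?_)
  · ext i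
    fin_cases i <;> simp [ContinuousLinearMap.toSpanSingleton_apply]
  · ext i
    fin_cases i <;> simp [ContinuousLinearMap.toSpanSingleton_apply]

/-- The data: contractions `G (m, ξ)` of the ball which converge to `f`. -/
structure Data (E : Type u) [NormedAddCommGroup E] [NormedSpace ℝ E] (Ξ : Type*)
    [TopologicalSpace Ξ] (R ρ σ : ℝ) where
  R_pos : 0 < R
  ρ_nonneg : 0 ≤ ρ
  ρ_lt : ρ < 1
  σ_pos : 0 < σ
  G : ℕ × Ξ → E → E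
  f : E → E
  f_sb : SB R f
  cv : Cv R σ G f
  G_map : ∀ p, ∀ x ∈ ball (0 : E) R, G p x ∈ ball (0 : E) R
  f_map : ∀ x ∈ ball (0 : E) R, f x ∈ ball (0 : E) R
  G_der : ∀ p, ∀ x ∈ ball (0 : E) R, ‖fderiv ℝ (G p) x‖ ≤ ρ
  G_zero : ∀ p, G p 0 = 0
  f_zero : f 0 = 0
  D : ℕ × Ξ → (E →L[ℝ] E)
  D_cont : Continuous D
  D_bdd : ∃ C : ℝ, ∀ p, ‖D p‖ ≤ C
  D_left : ∀ p, (D p).comp (fderiv ℝ (G p) 0) = ContinuousLinearMap.id ℝ E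

/-- constant multiplier -/
theorem Data.nse_const {E : Type u} [NormedAddCommGroup E] [NormedSpace ℝ E]
    [FiniteDimensional ℝ E] {R ρ σ : ℝ}
    (d : Data E Ξ R ρ σ) {F : Type u} [NormedAddCommGroup F] [NormedSpace ℝ F]
    [FiniteDimensional ℝ F] {τ σ' : ℝ} (hστ : σ ≤ τ) (hτσ' : τ < σ') (hσ' : σ' ≤ 1)
    (M N : F →L[ℝ] F) (hMN : M.comp N = ContinuousLinearMap.id ℝ F)
    {H : ℕ × Ξ → E → F} {H' : E → F} (hH : Cv R τ H H') (hH' : SB R H')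
    {y : E → F} (hy : SB R y) (hyf : ∀ x ∈ ball (0 : E) R, y x = M (y (d.f x)) + H' x) :
    ∃ z : ℕ × Ξ → E → F, Cv R σ' z y ∧ ∀ m ξ, ∀ x ∈ ball (0 : E) R,
      z (m + 1, ξ) x = M (z (m, ξ) (d.G (m, ξ) x)) + H (m, ξ) x := by
  have hτ0 : 0 < τ := d.σ_pos.trans_le hστ
  have hσ'0 : 0 < σ' := hτ0.trans hτσ'
  obtain ⟨s, hs⟩ : ∃ s : ℕ, ‖M‖ * ρ ^ s ≤ σ' / 2 := by
    have h1 : Tendsto (fun N : ℕ => ‖M‖ * ρ ^ N) atTop (𝓝 (‖M‖ * 0)) :=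
      (tendsto_pow_atTop_nhds_zero_of_lt_one d.ρ_nonneg d.ρ_lt).const_mul _
    rw [mul_zero] at h1
    exact (h1.eventually_le_const (half_pos hσ'0)).exists
  exact nse (Ξ := Ξ) d.ρ_nonneg d.ρ_lt.le d.R_pos d.f_sb d.G_map d.f_map d.G_der d.G_zero d.f_zero
    d.D_cont d.D_bdd d.D_left s hτ0 hτσ' hσ' (half_lt_self hσ'0) (d.cv.mono d.σ_pos hστ)
    (M := fun _ _ => M) (M' := fun _ => M) (Cv.cst _) (SB.cst _) (fun _ _ _ => hs)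
    (N := fun _ => N) continuous_const ⟨_, fun _ => le_rfl⟩ (fun _ => hMN) hH hH' hy hyf

/-- constant scalar multiplier -/
theorem Data.nse_real {E : Type} [NormedAddCommGroup E] [NormedSpace ℝ E]
    [FiniteDimensional ℝ E] {R ρ σ : ℝ}
    (d : Data E Ξ R ρ σ) {τ σ' : ℝ} (hστ : σ ≤ τ) (hτσ' : τ < σ') (hσ' : σ' ≤ 1)
    {μ : ℝ} (hμ : μ ≠ 0)
    {H : ℕ × Ξ → E → ℝ} {H' : E → ℝ} (hH : Cv R τ H H') (hH' : SB R H')
    {y : E → ℝ} (hy : SB R y) (hyf : ∀ x ∈ ball (0 : E) R, y x = μ * (y (d.f x)) + H' x) :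
    ∃ z : ℕ × Ξ → E → ℝ, Cv R σ' z y ∧ ∀ m ξ, ∀ x ∈ ball (0 : E) R,
      z (m + 1, ξ) x = μ * (z (m, ξ) (d.G (m, ξ) x)) + H (m, ξ) x := by
  refine d.nse_const hστ hτσ' hσ' (μ • ContinuousLinearMap.id ℝ ℝ)
    (μ⁻¹ • ContinuousLinearMap.id ℝ ℝ) ?_ hH hH' hy hyf
  ext
  simp [hμ]

section fwd

variable {R ρ σ : ℝ}

theorem fwd_tri_aux (d : Data Pl Ξ R ρ σ) {σ' : ℝ} (hσσ' : σ < σ') (hσ' : σ' ≤ 1)
    {μ₁ μ₂ a : ℝ} {k : ℕ} (hμ₁ : μ₁ ≠ 0) (hμ₂ : μ₂ ≠ 0)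
    (hf0 : ∀ x ∈ ball (0 : Pl) R, μ₁ * d.f x 0 + a * d.f x 1 ^ k = x 0)
    (hf1 : ∀ x ∈ ball (0 : Pl) R, μ₂ * d.f x 1 = x 1) :
    ∃ X : ℕ × Ξ → Pl → Pl, Cv R σ' X (fun x => x) ∧ ∀ m ξ, ∀ x ∈ ball (0 : Pl) R,
      X (m + 1, ξ) x = !₂[μ₁ * X (m, ξ) (d.G (m, ξ) x) 0 + a * X (m, ξ) (d.G (m, ξ) x) 1 ^ k,
        μ₂ * X (m, ξ) (d.G (m, ξ) x) 1] := by
  obtain ⟨τ, hτ1, hτ2⟩ := exists_between hσσ'
  have hτ0 : 0 < τ := d.σ_pos.trans hτ1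
  have hτ3 : τ ≤ 1 := hτ2.le.trans hσ'
  obtain ⟨Y, hY, hYr⟩ := d.nse_real le_rfl hτ1 hτ3 hμ₂ (H := fun _ _ => 0) (H' := fun _ => 0)
    (Cv.cst _) (SB.cst _) (y := fun x => x 1) (SB.coord 1)
    (fun x hx => by rw [hf1 x hx, add_zero])
  have hY' : ∀ m ξ, ∀ x ∈ ball (0 : Pl) R, Y (m, ξ) (d.G (m, ξ) x) = μ₂⁻¹ * Y (m + 1, ξ) x := by
    intro m ξ x hx
    rw [hYr m ξ x hx]
    field_simp
    ring
  have hH' : SB R (fun x : Pl => a * (μ₂⁻¹ * x 1) ^ k) :=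
    (SB.cst a).mul (((SB.cst μ₂⁻¹).mul (SB.coord 1)).pow k)
  have hH : Cv R τ (fun (p : ℕ × Ξ) x => a * (μ₂⁻¹ * Y (p.1 + 1, p.2) x) ^ k)
      (fun x : Pl => a * (μ₂⁻¹ * x 1) ^ k) :=
    Cv.mul hτ0 hτ3 (Cv.cst fun _ => a) (Cv.pow hτ0 hτ3 (Cv.mul hτ0 hτ3 (Cv.cst fun _ => μ₂⁻¹)
      (hY.shift hτ0) (SB.cst _) (SB.coord 1)) ((SB.cst μ₂⁻¹).mul (SB.coord 1)) k) (SB.cst _)
      (((SB.cst μ₂⁻¹).mul (SB.coord 1)).pow k)
  obtain ⟨Z, hZ, hZr⟩ := d.nse_real hτ1.le hτ2 hσ' hμ₁ hH hH' (y := fun x => x 0) (SB.coord 0)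
    (fun x hx => by
      have h1 : d.f x 1 = μ₂⁻¹ * x 1 := by rw [← hf1 x hx]; field_simp
      rw [← h1, hf0 x hx])
  refine ⟨fun p x => !₂[Z p x, Y p x], ?_, fun m ξ x hx => ?_⟩
  · refine (Cv.mk2 hZ (hY.mono hτ0 hτ2.le)).congr (fun p x _ => rfl) fun x _ => ?_
    ext i
    fin_cases i <;> rfl
  · ext i
    fin_cases i
    · change Z (m + 1, ξ) x = μ₁ * Z (m, ξ) (d.G (m, ξ) x) + a * Y (m, ξ) (d.G (m, ξ) x) ^ k
      rw [hZr m ξ x hx, hY' m ξ x hx]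
    · change Y (m + 1, ξ) x = μ₂ * Y (m, ξ) (d.G (m, ξ) x)
      rw [hYr m ξ x hx, add_zero]

theorem fwd_cx_aux (d : Data Pl Ξ R ρ σ) {σ' : ℝ} (hσσ' : σ < σ') (hσ' : σ' ≤ 1)
    (A B : Pl →L[ℝ] Pl) (hAB : A.comp B = ContinuousLinearMap.id ℝ Pl)
    (hf : ∀ x ∈ ball (0 : Pl) R, A (d.f x) = x) :
    ∃ X : ℕ × Ξ → Pl → Pl, Cv R σ' X (fun x => x) ∧ ∀ m ξ, ∀ x ∈ ball (0 : Pl) R,
      X (m + 1, ξ) x = A (X (m, ξ) (d.G (m, ξ) x)) := by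
  obtain ⟨X, hX, hXr⟩ := d.nse_const le_rfl hσσ' hσ' A B hAB (H := fun _ _ => 0)
    (H' := fun _ => 0) (Cv.cst _) (SB.cst _) (y := fun x => x) SB.id'
    (fun x hx => by rw [hf x hx, add_zero])
  exact ⟨X, hX, fun m ξ x hx => by rw [hXr m ξ x hx, add_zero]⟩

end fwd

end Vale.Agent.P207.N3.H992
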