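import Vale.Agent.P207.N3.H992.Fwd

/-!
# P207, line N3, P4: forward coordinates (final form)

`IsNF N` : `N` is a normal form of the plane. Theorem `forward`: there are
`X (m+1, ξ) = N ∘ X (m, ξ) ∘ G (m, ξ)`, `X (m, ξ) → id` exponentially in `C^∞`, `X p 0 = 0`,
`fderiv (X p) 0` invertible.
-/

noncomputable section

namespace Vale.Agent.P207.N3.H992

open Set Metric Filter Topology

/-- the triangular normal form -/
def nfTri (μ₁ μ₂ a : ℝ) (k : ℕ) (x : Pl) : Pl := !₂[μ₁ * x 0 + a * x 1 ^ k, μ₂ * x 1]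

/-- the complex normal form -/
def nfCx (c s : ℝ) (x : Pl) : Pl := !₂[c * x 0 - s * x 1, s * x 0 + c * x 1]

/-- the normal forms of the plane -/
inductive IsNF : (Pl → Pl) → Prop
  | tri (μ₁ μ₂ a : ℝ) (k : ℕ) (h2 : 1 < |μ₂|) (h1 : |μ₂| ≤ |μ₁|) (ha : a ≠ 0 → 1 ≤ k ∧ μ₁ = μ₂ ^ k) :
      IsNF (fun x => !₂[μ₁ * x 0 + a * x 1 ^ k, μ₂ * x 1])
  | cx (c s : ℝ) (hs : s ≠ 0) (h : 1 < c ^ 2 + s ^ 2) :
      IsNF (fun x => !₂[c * x 0 - s * x 1, s * x 0 + c * x 1])

theorem eq_zero_of_geom {μ : ℝ} (hμ : 1 < |μ|) {u : ℕ → ℝ} (h : ∀ m, u (m + 1) = μ * u m)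
    {C : ℝ} (hC : ∀ m, |u m| ≤ C) : ∀ m, u m = 0 := by
  intro m
  by_contra hne
  have h1 : ∀ n, |u (m + n)| = |μ| ^ n * |u m| := by
    intro n
    induction n with
    | zero => simp
    | succ n ih => rw [← add_assoc, h, abs_mul, ih, pow_succ]; ring
  have h2 : Tendsto (fun n : ℕ => |μ| ^ n * |u m|) atTop atTop :=
    (tendsto_pow_atTop_atTop_of_one_lt hμ).atTop_mul_const (abs_pos.2 hne)
  obtain ⟨n, hn⟩ := (h2.eventually (eventually_gt_atTop C)).exists
  have h3 := hC (m + n)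
  rw [h1] at h3
  exact absurd hn (not_lt.2 h3)

theorem IsNF.eq_zero {N : Pl → Pl} (hN : IsNF N) {u : ℕ → Pl} (h : ∀ m, u (m + 1) = N (u m))
    {C : ℝ} (hC : ∀ m, ‖u m‖ ≤ C) : ∀ m, u m = 0 := by
  have hCi : ∀ i m, |u m i| ≤ C := fun i m => by
    have := EuclideanSpace.norm_eq (u m)
    exact (PiLp.norm_apply_le (u m) i).trans (hC m)
  cases hN with
  | tri μ₁ μ₂ a k h2 h1 ha =>
    have e1 : ∀ m, u m 1 = 0 :=
      eq_zero_of_geom h2 (u := fun m => u m 1) (fun m => by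
        change u (m + 1) 1 = _
        rw [h m]; rfl) (hCi 1)
    have e0 : ∀ m, u m 0 = 0 :=
      eq_zero_of_geom (h2.trans_le h1) (u := fun m => u m 0) (fun m => by
        change u (m + 1) 0 = μ₁ * u m 0
        rw [h m]
        change μ₁ * u m 0 + a * u m 1 ^ k = _
        rw [e1 m]
        rcases eq_or_ne a 0 with h0 | h0
        · rw [h0]; ring
        · rw [zero_pow (by have := (ha h0).1; omega)]; ring) (hCi 0)
    intro m
    ext i
    fin_cases i
    · exact e0 m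
    · exact e1 m
  | cx c s hs h1 =>
    have e : ∀ m, u m 0 ^ 2 + u m 1 ^ 2 = 0 := by
      refine eq_zero_of_geom (μ := c ^ 2 + s ^ 2) (by rwa [abs_of_pos (by linarith)])
        (u := fun m => u m 0 ^ 2 + u m 1 ^ 2) (C := C ^ 2 + C ^ 2) (fun m => ?_) (fun m => ?_)
      · change u (m + 1) 0 ^ 2 + u (m + 1) 1 ^ 2 = _
        rw [h m]
        change (c * u m 0 - s * u m 1) ^ 2 + (s * u m 0 + c * u m 1) ^ 2 = _
        ring
      · rw [abs_of_nonneg (by positivity)]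
        have h2 := sq_le_sq' (by have := (abs_le.1 (hCi 0 m)).1; linarith) (abs_le.1 (hCi 0 m)).2
        have h3 := sq_le_sq' (by have := (abs_le.1 (hCi 1 m)).1; linarith) (abs_le.1 (hCi 1 m)).2
        exact add_le_add h2 h3
    intro m
    have := e m
    have e0 : u m 0 = 0 := by nlinarith [sq_nonneg (u m 0), sq_nonneg (u m 1)]
    have e1 : u m 1 = 0 := by nlinarith [sq_nonneg (u m 0), sq_nonneg (u m 1)]
    ext i
    fin_cases i
    · exact e0
    · exact e1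

theorem IsNF.differentiable {N : Pl → Pl} (hN : IsNF N) : Differentiable ℝ N := by
  have hc : ∀ i, Differentiable ℝ (fun x : Pl => x i) := fun i =>
    (EuclideanSpace.proj (𝕜 := ℝ) i : Pl →L[ℝ] ℝ).differentiable
  cases hN with
  | tri μ₁ μ₂ a k h2 h1 ha =>
    rw [differentiable_euclidean]
    intro i
    fin_cases i
    · exact ((hc 0).const_mul _).add (((hc 1).pow k).const_mul _)
    · exact (hc 1).const_mul _
  | cx c s hs h1 =>
    rw [differentiable_euclidean]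
    intro i
    fin_cases i
    · exact ((hc 0).const_mul _).sub ((hc 1).const_mul _)
    · exact ((hc 0).const_mul _).add ((hc 1).const_mul _)

section

variable {Ξ : Type*} [TopologicalSpace Ξ] {R ρ σ : ℝ}

/-- **forward coordinates** -/
theorem forward (d : Data Pl Ξ R ρ σ) {σ' : ℝ} (hσσ' : σ < σ') (hσ' : σ' < 1) {N : Pl → Pl}
    (hN : IsNF N) (hNf : ∀ x ∈ ball (0 : Pl) R, N (d.f x) = x) :
    ∃ X : ℕ × Ξ → Pl → Pl, Cv R σ' X (fun x => x) ∧
      (∀ m ξ, ∀ x ∈ ball (0 : Pl) R, X (m + 1, ξ) x = N (X (m, ξ) (d.G (m, ξ) x))) ∧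
      (∀ p, X p 0 = 0) ∧ ∀ p, Function.Injective (fderiv ℝ (X p) 0) := by
  have h0m : (0 : Pl) ∈ ball (0 : Pl) R := mem_ball_self d.R_pos
  have hσ'0 : 0 < σ' := d.σ_pos.trans hσσ'
  obtain ⟨X, hX, hXr⟩ : ∃ X : ℕ × Ξ → Pl → Pl, Cv R σ' X (fun x => x) ∧
      (∀ m ξ, ∀ x ∈ ball (0 : Pl) R, X (m + 1, ξ) x = N (X (m, ξ) (d.G (m, ξ) x))) := by
    cases hN with
    | tri μ₁ μ₂ a k h2 h1 ha =>
      have e2 : μ₂ ≠ 0 := by
        rintro rfl
        rw [abs_zero] at h2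
        linarith
      have e1 : μ₁ ≠ 0 := by
        rintro rfl
        rw [abs_zero] at h1
        linarith
      exact fwd_tri_aux d hσσ' hσ'.le e1 e2 (fun x hx => congrArg (fun v : Pl => v 0) (hNf x hx))
        (fun x hx => congrArg (fun v : Pl => v 1) (hNf x hx))
    | cx c s hs h1 =>
      have hr : c ^ 2 + s ^ 2 ≠ 0 := by positivity
      let A : Pl →L[ℝ] Pl := LinearMap.toContinuousLinearMap
        { toFun := fun x => !₂[c * x 0 - s * x 1, s * x 0 + c * x 1]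
          map_add' := fun x y => by
            ext i; fin_cases i <;> simp <;> ring
          map_smul' := fun t x => by
            ext i; fin_cases i <;> simp <;> ring }
      let B : Pl →L[ℝ] Pl := LinearMap.toContinuousLinearMap
        { toFun := fun x => !₂[(c ^ 2 + s ^ 2)⁻¹ * (c * x 0 + s * x 1),
            (c ^ 2 + s ^ 2)⁻¹ * (-s * x 0 + c * x 1)]
          map_add' := fun x y => by
            ext i; fin_cases i <;> simp <;> ring
          map_smul' := fun t x => by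
            ext i; fin_cases i <;> simp <;> ring }
      refine fwd_cx_aux d hσσ' hσ'.le A B ?_ hNf
      ext x i
      fin_cases i
      · change c * ((c ^ 2 + s ^ 2)⁻¹ * (c * x 0 + s * x 1)) -
          s * ((c ^ 2 + s ^ 2)⁻¹ * (-s * x 0 + c * x 1)) = x 0
        field_simp
        ring
      · change s * ((c ^ 2 + s ^ 2)⁻¹ * (c * x 0 + s * x 1)) +
          c * ((c ^ 2 + s ^ 2)⁻¹ * (-s * x 0 + c * x 1)) = x 1
        field_simp
        ring
  -- the value at `0`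
  obtain ⟨C, hC⟩ := hX.bound hσ'0
  have hz : ∀ m ξ, X (m, ξ) 0 = 0 := by
    intro m ξ
    refine hN.eq_zero (u := fun m => X (m, ξ) 0) (C := |C|) (fun m => ?_) (fun m => ?_) m
    · rw [hXr m ξ 0 h0m, d.G_zero]
    · have h1 := hC (m, ξ) 0 h0m
      rw [sub_zero] at h1
      calc _ ≤ C * σ' ^ m := h1
        _ ≤ |C| * 1 := by
          gcongr
          · exact le_abs_self _
          · exact pow_le_one₀ hσ'0.le hσ'.le
        _ = |C| := mul_one _
  -- the derivative at `0`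
  have hXd : ∀ p, ∀ x ∈ ball (0 : Pl) R, DifferentiableAt ℝ (X p) x := fun p x hx =>
    hX.diff hσ'0 hσ'.le SB.id' p hx
  have hder : ∀ m ξ, fderiv ℝ (X (m + 1, ξ)) 0 =
      (fderiv ℝ N 0).comp ((fderiv ℝ (X (m, ξ)) 0).comp (fderiv ℝ (d.G (m, ξ)) 0)) := by
    intro m ξ
    have h1 : HasFDerivAt (d.G (m, ξ)) (fderiv ℝ (d.G (m, ξ)) 0) 0 :=
      (d.cv.diff d.σ_pos (hσσ'.le.trans hσ'.le) d.f_sb (m, ξ) h0m).hasFDerivAt
    have h2 : HasFDerivAt (X (m, ξ)) (fderiv ℝ (X (m, ξ)) 0) (d.G (m, ξ) 0) := by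
      rw [d.G_zero]
      exact (hXd (m, ξ) 0 h0m).hasFDerivAt
    have h3 : HasFDerivAt N (fderiv ℝ N 0) (X (m, ξ) (d.G (m, ξ) 0)) := by
      rw [d.G_zero, hz]
      exact (hN.differentiable 0).hasFDerivAt
    have h4 := h3.comp (0 : Pl) (h2.comp (0 : Pl) h1)
    refine HasFDerivAt.fderiv (h4.congr_of_eventuallyEq ?_)
    filter_upwards [isOpen_ball.mem_nhds h0m] with x hx using hXr m ξ x hx
  have hback : ∀ m ξ, Function.Injective (fderiv ℝ (X (m + 1, ξ)) 0) →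
      Function.Injective (fderiv ℝ (X (m, ξ)) 0) := by
    intro m ξ h
    rw [hder] at h
    have hG : Function.Injective (fderiv ℝ (d.G (m, ξ)) 0) := by
      intro v w hvw
      have h1 : ∀ v, d.D (m, ξ) (fderiv ℝ (d.G (m, ξ)) 0 v) = v := fun v =>
        congrArg (fun T : Pl →L[ℝ] Pl => T v) (d.D_left (m, ξ))
      rw [← h1 v, ← h1 w, hvw]
    have hGs : Function.Surjective (fderiv ℝ (d.G (m, ξ)) 0) :=
      LinearMap.surjective_of_injective (f := (fderiv ℝ (d.G (m, ξ)) 0).toLinearMap) hG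
    intro v w hvw
    obtain ⟨v', rfl⟩ := hGs v
    obtain ⟨w', rfl⟩ := hGs w
    congr 1
    apply h
    simp only [ContinuousLinearMap.comp_apply]
    rw [hvw]
  -- large `m`
  have hid : SB R (fun x : Pl => x) := SB.id'
  have hcd : Cv R σ' (fun p x => fderiv ℝ (X p) x) (fun x => fderiv ℝ (fun x : Pl => x) x) :=
    hX.der hXd hid
  obtain ⟨C', hC'⟩ := hcd.bound hσ'0
  obtain ⟨n, hn⟩ : ∃ n : ℕ, ∀ m ≥ n, |C'| * σ' ^ m < 1 := by
    have h1 : Tendsto (fun m : ℕ => |C'| * σ' ^ m) atTop (𝓝 (|C'| * 0)) :=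
      (tendsto_pow_atTop_nhds_zero_of_lt_one hσ'0.le hσ').const_mul _
    rw [mul_zero] at h1
    exact eventually_atTop.1 (h1.eventually_lt_const one_pos)
  have hbig : ∀ m ≥ n, ∀ ξ, Function.Injective (fderiv ℝ (X (m, ξ)) 0) := by
    intro m hm ξ
    have h1 : ‖fderiv ℝ (X (m, ξ)) 0 - ContinuousLinearMap.id ℝ Pl‖ < 1 := by
      have h2 := hC' (m, ξ) 0 h0m
      rw [fderiv_fun_id] at h2
      calc _ ≤ C' * σ' ^ m := h2
        _ ≤ |C'| * σ' ^ m := by gcongr; exact le_abs_self _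
        _ < 1 := hn m hm
    rw [injective_iff_map_eq_zero]
    intro v hv
    by_contra hne
    have h3 := (fderiv ℝ (X (m, ξ)) 0 - ContinuousLinearMap.id ℝ Pl).le_opNorm v
    rw [_root_.sub_apply, hv, ContinuousLinearMap.id_apply, zero_sub, norm_neg] at h3
    have h4 : 0 < ‖v‖ := norm_pos_iff.2 hne
    nlinarith
  have hall : ∀ j m ξ, n ≤ m + j → Function.Injective (fderiv ℝ (X (m, ξ)) 0) := by
    intro j
    induction j with
    | zero => intro m ξ h; exact hbig m (by simpa using h) ξ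
    | succ j ih => intro m ξ h; exact hback m ξ (ih (m + 1) ξ (by omega))
  exact ⟨X, hX, hXr, fun p => hz p.1 p.2, fun p => hall n p.1 p.2 (by omega)⟩

end

variable {Ξ : Type*}

/-- the compositions `G (0, ξ) ∘ … ∘ G (m-1, ξ)` -/
def itG {E : Type*} (G : ℕ × Ξ → E → E) : ℕ → Ξ → E → E
  | 0, _, x => x
  | m + 1, ξ, x => itG G m ξ (G (m, ξ) x)

/-- the solution of the recursion is `X (m, ξ) = N^m ∘ X (0, ξ) ∘ G (0, ξ) ∘ … ∘ G (m-1, ξ)` -/
theorem iter_eq {E : Type*} {S : Set E} {G X : ℕ × Ξ → E → E} {N : E → E}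
    (hG : ∀ p, ∀ x ∈ S, G p x ∈ S)
    (h : ∀ m ξ, ∀ x ∈ S, X (m + 1, ξ) x = N (X (m, ξ) (G (m, ξ) x))) (m : ℕ) (ξ : Ξ) :
    ∀ x ∈ S, itG G m ξ x ∈ S ∧ X (m, ξ) x = N^[m] (X (0, ξ) (itG G m ξ x)) := by
  induction m with
  | zero => intro x hx; exact ⟨hx, rfl⟩
  | succ m ih =>
    intro x hx
    obtain ⟨h1, h2⟩ := ih _ (hG (m, ξ) x hx)
    refine ⟨h1, ?_⟩
    rw [h m ξ x hx, h2, Function.iterate_succ_apply']
    rfl

end Vale.Agent.P207.N3.H992
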