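import Vale.Agent.P207.N3.H992.Cv

/-!
# P207, line N3, P4: the Hadamard quotient `z x - z 0 = (Had z x) x`
-/

noncomputable section

namespace Vale.Agent.P207.N3.H992

open Set Metric Filter Topology MeasureTheory Interval

universe u

variable {Ξ : Type*} [TopologicalSpace Ξ] {P : Type*} [TopologicalSpace P]
variable {E : Type u} [NormedAddCommGroup E] [NormedSpace ℝ E] {R : ℝ}

theorem smul_mem_ball' {x : E} (hx : x ∈ ball (0 : E) R) {t : ℝ} (h0 : 0 ≤ t) (h1 : t ≤ 1) :
    t • x ∈ ball (0 : E) R := by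
  rw [mem_ball_zero_iff] at hx ⊢
  rw [norm_smul, Real.norm_of_nonneg h0]
  calc t * ‖x‖ ≤ 1 * ‖x‖ := by gcongr
    _ < R := by rwa [one_mul]

theorem uI_mem {t : ℝ} (ht : t ∈ Ι (0 : ℝ) 1) : 0 ≤ t ∧ t ≤ 1 := by
  rw [uIoc_of_le zero_le_one] at ht
  exact ⟨ht.1.le, ht.2⟩

/-- continuity in `t` of the integrand -/
theorem seg_contOn {F : Type u} [NormedAddCommGroup F] [NormedSpace ℝ F] {w : ℝ → ℝ}
    (hw : Continuous w) {z : E → F} (hz : ContinuousOn z (ball 0 R)) {x : E}
    (hx : x ∈ ball (0 : E) R) : ContinuousOn (fun t : ℝ => w t • z (t • x)) (uIcc (0 : ℝ) 1) := by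
  refine hw.continuousOn.smul (hz.comp ?_ ?_)
  · exact (continuous_id.smul continuous_const).continuousOn
  · intro t ht
    rw [uIcc_of_le zero_le_one] at ht
    exact smul_mem_ball' hx ht.1 ht.2

omit [NormedSpace ℝ E] in
theorem B0.contOn {F : Type u} [NormedAddCommGroup F] {z : P → E → F} (h : B0 R z) (p : P) :
    ContinuousOn (z p) (ball 0 R) := by
  have h1 : ContinuousOn (fun x : E => ((p, x) : P × E)) (ball 0 R) :=
    (continuous_const.prodMk continuous_id).continuousOn
  exact h.cont.comp h1 fun x hx => ⟨mem_univ _, hx⟩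

theorem BF.seg {k : ℕ} :
    ∀ {w : ℝ → ℝ} (_ : Continuous w) {F : Type u} [NormedAddCommGroup F] [NormedSpace ℝ F]
    [CompleteSpace F]
    {z : P → E → F}, BF R k z →
    BF R k (fun p x => ∫ t in (0 : ℝ)..1, w t • z p (t • x)) := by
  have h0 : ∀ {w : ℝ → ℝ} (_ : Continuous w) {F : Type u} [NormedAddCommGroup F] [NormedSpace ℝ F]
      [CompleteSpace F]
      {z : P → E → F}, B0 R z → B0 R (fun p x => ∫ t in (0 : ℝ)..1, w t • z p (t • x)) := by
    intro w hw F _ _ _ z h
    obtain ⟨C, hC⟩ := h.bdd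
    obtain ⟨W, hW⟩ := (isCompact_Icc (a := (0 : ℝ)) (b := 1)).exists_bound_of_continuousOn
      hw.continuousOn
    have hb : ∀ p, ∀ x ∈ ball (0 : E) R, ∀ t ∈ Ι (0 : ℝ) 1, ‖w t • z p (t • x)‖ ≤ |W| * |C| := by
      intro p x hx t ht
      obtain ⟨h1, h2⟩ := uI_mem ht
      rw [norm_smul]
      exact mul_le_mul ((hW t ⟨h1, h2⟩).trans (le_abs_self _))
        ((hC p _ (smul_mem_ball' hx h1 h2)).trans (le_abs_self _)) (norm_nonneg _) (abs_nonneg _)
    constructor
    · intro q hq
      have hc : ContinuousOn (fun r : (P × E) × ℝ => w r.2 • z r.1.1 (r.2 • r.1.2))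
          ((univ ×ˢ ball (0 : E) R) ×ˢ Icc (0 : ℝ) 1) := by
        refine (hw.comp continuous_snd).continuousOn.smul ?_
        have h4 : ContinuousOn (fun r : (P × E) × ℝ => ((r.1.1, r.2 • r.1.2) : P × E))
            ((univ ×ˢ ball (0 : E) R) ×ˢ Icc (0 : ℝ) 1) := by fun_prop
        exact h.cont.comp h4 fun r hr => ⟨mem_univ _, smul_mem_ball' hr.1.2 hr.2.1 hr.2.2⟩
      rw [ContinuousWithinAt, Metric.tendsto_nhds]
      intro ε hε
      obtain ⟨v, hv, hv'⟩ := isCompact_Icc.mem_uniformity_of_prod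
        (f := fun (r : P × E) (t : ℝ) => w t • z r.1 (t • r.2)) hc hq
        (Metric.dist_mem_uniformity (half_pos hε))
      filter_upwards [hv, self_mem_nhdsWithin] with r hr hrm
      have hi : ∀ s : P × E, s ∈ univ ×ˢ ball (0 : E) R →
          IntervalIntegrable (fun t => w t • z s.1 (t • s.2)) volume 0 1 := fun s hs =>
        (seg_contOn hw (h.contOn s.1) hs.2).intervalIntegrable
      rw [dist_eq_norm, ← intervalIntegral.integral_sub (hi r hrm) (hi q hq)]
      have h1 := intervalIntegral.norm_integral_le_of_norm_le_const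
        (f := fun t => w t • z r.1 (t • r.2) - w t • z q.1 (t • q.2)) (a := 0) (b := 1)
        (C := ε / 2) (fun t ht => by
          obtain ⟨h1, h2⟩ := uI_mem ht
          have h3 := hv' r hr t ⟨h1, h2⟩
          rw [← dist_eq_norm]
          exact (le_of_lt h3))
      rw [sub_zero, abs_one, mul_one] at h1
      linarith
    · refine ⟨|W| * |C|, fun p x hx => ?_⟩
      have h1 := intervalIntegral.norm_integral_le_of_norm_le_const
        (f := fun t => w t • z p (t • x)) (a := 0) (b := 1) (C := |W| * |C|) (hb p x hx)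
      simpa using h1
  induction k with
  | zero => intro w hw F _ _ _ z h; exact h0 hw h
  | succ k ih =>
    intro w hw F _ _ _ z h
    have hw' : Continuous (fun t : ℝ => w t * t) := hw.mul continuous_id
    obtain ⟨C, hC⟩ := h.2.2.b0.bdd
    obtain ⟨W, hW⟩ := (isCompact_Icc (a := (0 : ℝ)) (b := 1)).exists_bound_of_continuousOn
      hw'.continuousOn
    have hd : ∀ p, ∀ x ∈ ball (0 : E) R, HasFDerivAt (fun x => ∫ t in (0 : ℝ)..1, w t • z p (t • x))
        (∫ t in (0 : ℝ)..1, (w t * t) • fderiv ℝ (z p) (t • x)) x := by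
      intro p x hx
      refine intervalIntegral.hasFDerivAt_integral_of_dominated_of_fderiv_le
        (F' := fun x t => (w t * t) • fderiv ℝ (z p) (t • x)) (bound := fun _ => |W| * |C|)
        (isOpen_ball.mem_nhds hx) ?_ ?_ ?_ ?_ (by simp) ?_
      · filter_upwards [isOpen_ball.mem_nhds hx] with y hy
        refine ContinuousOn.aestronglyMeasurable ?_ measurableSet_uIoc
        exact (seg_contOn hw (h.b0.contOn p) hy).mono uIoc_subset_uIcc
      · exact (seg_contOn hw (h.b0.contOn p) hx).intervalIntegrable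
      · refine ContinuousOn.aestronglyMeasurable ?_ measurableSet_uIoc
        exact (seg_contOn hw' (h.2.2.b0.contOn p) hx).mono uIoc_subset_uIcc
      · refine Eventually.of_forall fun t ht y hy => ?_
        obtain ⟨h1, h2⟩ := uI_mem ht
        rw [norm_smul]
        exact mul_le_mul ((hW t ⟨h1, h2⟩).trans (le_abs_self _))
          ((hC p _ (smul_mem_ball' hy h1 h2)).trans (le_abs_self _)) (norm_nonneg _) (abs_nonneg _)
      · refine Eventually.of_forall fun t ht y hy => ?_
        obtain ⟨h1, h2⟩ := uI_mem ht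
        have h3 : HasFDerivAt (fun y : E => t • y) (t • ContinuousLinearMap.id ℝ E) y :=
          (hasFDerivAt_id y).const_smul t
        have h4 := (((h.2.1 p _ (smul_mem_ball' hy h1 h2)).hasFDerivAt.comp y h3).const_smul (w t))
        rw [ContinuousLinearMap.comp_smul, ContinuousLinearMap.comp_id, smul_smul] at h4
        exact h4
    refine ⟨h0 hw h.1, fun p x hx => (hd p x hx).differentiableAt, ?_⟩
    exact (ih hw' h.2.2).congr fun p x hx => (hd p x hx).fderiv

section

variable {F : Type u} [NormedAddCommGroup F] [NormedSpace ℝ F]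

/-- the Hadamard quotient -/
def Had (y : E → F) (x : E) : E →L[ℝ] F := ∫ t in (0 : ℝ)..1, fderiv ℝ y (t • x)

variable [CompleteSpace F]

theorem BF.had {k : ℕ} {z : P → E → F} (h : BF R (k + 1) z) :
    BF R k (fun p => Had (z p)) := by
  refine (BF.seg (w := fun _ => 1) continuous_const h.der).congr fun p x _ => ?_
  simp only [one_smul]
  rfl

theorem SB.had {y : E → F} (h : SB R y) : SB R (Had y) := fun k =>
  BF.had (P := Unit) (z := fun _ => y) (h (k + 1))

omit [CompleteSpace F] in
theorem had_int {z : E → F} (hz : ContinuousOn (fun x => fderiv ℝ z x) (ball 0 R)) {x : E}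
    (hx : x ∈ ball (0 : E) R) : IntervalIntegrable (fun t : ℝ => fderiv ℝ z (t • x)) volume 0 1 := by
  have h := (seg_contOn (w := fun _ => 1) continuous_const hz hx).intervalIntegrable
    (μ := volume)
  simpa using h

theorem had_apply {z : E → F} (hd : ∀ x ∈ ball (0 : E) R, DifferentiableAt ℝ z x)
    (hz : ContinuousOn (fun x => fderiv ℝ z x) (ball 0 R)) {x : E}
    (hx : x ∈ ball (0 : E) R) : Had z x x = z x - z 0 := by
  have h1 : Had z x x = ∫ t in (0 : ℝ)..1, fderiv ℝ z (t • x) x :=
    ContinuousLinearMap.intervalIntegral_apply (had_int hz hx) x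
  have h2 : ∀ t ∈ uIcc (0 : ℝ) 1, HasDerivAt (fun t : ℝ => z (t • x)) (fderiv ℝ z (t • x) x) t := by
    intro t ht
    rw [uIcc_of_le zero_le_one] at ht
    have h3 : HasDerivAt (fun t : ℝ => t • x) x t := by
      simpa using (hasDerivAt_id t).smul_const x
    exact (hd _ (smul_mem_ball' hx ht.1 ht.2)).hasFDerivAt.comp_hasDerivAt t h3
  have h4 : IntervalIntegrable (fun t : ℝ => fderiv ℝ z (t • x) x) volume 0 1 := by
    refine ContinuousOn.intervalIntegrable ?_
    have h5 := seg_contOn (w := fun _ => 1) continuous_const hz hx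
    simp only [one_smul] at h5
    exact h5.clm_apply continuousOn_const
  rw [h1, intervalIntegral.integral_eq_sub_of_hasDerivAt h2 h4]
  simp

theorem BF.had_apply {z : P → E → F} (h : BF R 1 z) (p : P) {x : E} (hx : x ∈ ball (0 : E) R) :
    Had (z p) x x = z p x - z p 0 :=
  H992.had_apply (fun _ hx => h.diff hx) (h.der.b0.contOn p) hx

theorem SB.had_apply {y : E → F} (h : SB R y) {x : E} (hx : x ∈ ball (0 : E) R) :
    Had y x x = y x - y 0 :=
  BF.had_apply (P := Unit) (h 1) () hx

theorem had_zero {z : E → F} : Had z 0 = fderiv ℝ z 0 := by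
  unfold Had
  simp

omit [CompleteSpace F] in
theorem Had_sub_smul {z y : E → F} {c : ℝ} (hz : ∀ x ∈ ball (0 : E) R, DifferentiableAt ℝ z x)
    (hy : ∀ x ∈ ball (0 : E) R, DifferentiableAt ℝ y x)
    (hz' : ContinuousOn (fun x => fderiv ℝ z x) (ball 0 R))
    (hy' : ContinuousOn (fun x => fderiv ℝ y x) (ball 0 R)) {x : E} (hx : x ∈ ball (0 : E) R) :
    Had (fun w => c • (z w - y w)) x = c • (Had z x - Had y x) := by
  unfold Had
  rw [← intervalIntegral.integral_sub (had_int hz' hx) (had_int hy' hx),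
    ← intervalIntegral.integral_smul]
  refine intervalIntegral.integral_congr fun t ht => ?_
  rw [uIcc_of_le zero_le_one] at ht
  have hm := smul_mem_ball' hx ht.1 ht.2
  exact ((((hz _ hm).hasFDerivAt.sub (hy _ hm).hasFDerivAt).const_smul c)).fderiv

theorem Cv.had {b : ℝ} (hb : 0 < b) (hb1 : b ≤ 1) {z : ℕ × Ξ → E → F}
    {y : E → F} (h : Cv R b z y)
    (hy : SB R y) : Cv R b (fun p => Had (z p)) (Had y) := by
  intro k
  have hz := h.bf hb hb1 hy 1
  refine (BF.had (P := ℕ × Ξ) (h (k + 1))).congr fun p x hx => ?_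
  exact (Had_sub_smul (fun _ hx => hz.diff hx) (fun _ hx => hy.diff hx) (hz.der.b0.contOn p)
    ((hy 1).der.b0.contOn ()) hx).symm

end

end Vale.Agent.P207.N3.H992
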