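import Vale.Agent.P207.N3.H992.Comp2
import Vale.Agent.P207.N3.H147.Chart

/-!
# P207, line N3, P4: uniform bounds of a smooth function of a leaf in all the charts of a compact
set of frames
-/

noncomputable section

namespace Vale.Agent.P207.N3.H992

open Set Metric Filter Topology
open scoped ContDiff

variable {Γ X B : Type} [Group Γ] [MetricSpace X] [ProperSpace X] [MulAction Γ X]
  [IsIsometricSMul Γ X] [TopologicalSpace B] [CompactSpace B] [T2Space B] [MulAction Γ B]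
  [ContinuousConstSMul Γ B] (L : Leaf Γ X B)

/-- near a frame `w₀`, the unit disc `e w` lies in the disc `e z₀`, with bounded transition maps -/
theorem tau_local {w₀ z₀ : X} (hem : L.em w₀ = L.em z₀)
    (hsub : L.e w₀ '' closedBall 0 1 ⊆ L.e z₀ '' ball 0 1) (k : ℕ) :
    ∃ C : ℝ, ∀ᶠ w in 𝓝 w₀, L.em w = L.em z₀ → ∀ u ∈ closedBall (0 : E2) 1,
      u ∈ L.dm w z₀ ∧ L.τ w z₀ u ∈ ball (0 : E2) 1 ∧
      ‖iteratedFDeriv ℝ k (L.τ w z₀) u‖ ≤ C := by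
  -- local statement near each point of the disc
  have hloc : ∀ u₀ ∈ closedBall (0 : E2) 1, ∃ C : ℝ, ∀ᶠ q : X × E2 in 𝓝 (w₀, u₀),
      L.em q.1 = L.em z₀ → q.2 ∈ L.dm q.1 z₀ ∧ L.τ q.1 z₀ q.2 ∈ ball (0 : E2) 1 ∧
      ‖iteratedFDeriv ℝ k (L.τ q.1 z₀) q.2‖ ≤ C := by
    intro u₀ hu₀
    obtain ⟨v₀, hv₀, hv₀'⟩ := hsub ⟨u₀, hu₀, rfl⟩
    have hu3 : u₀ ∈ ball (0 : E2) 3 := closedBall_subset_ball (by norm_num) hu₀
    have hv3 : v₀ ∈ ball (0 : E2) 3 := ball_subset_ball (by norm_num) hv₀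
    have hdm : u₀ ∈ L.dm w₀ z₀ := H147.mem_dm hu3 hv3 hv₀'.symm
    have hτ : L.τ w₀ z₀ u₀ = v₀ := H147.tau_unique (ball_subset_closedBall hv3) hv₀'.symm
    -- the open condition
    have hopen : IsOpen (L.e z₀ '' ball 0 3) := by
      have h1 := L.e_open.preimage (Continuous.prodMk_right (Y := B) z₀)
      exact h1
    have he : Tendsto (fun q : X × E2 => L.e q.1 q.2) (𝓝 (w₀, u₀)) (𝓝 (L.e w₀ u₀)) := by
      have h1 : ContinuousAt (fun p : X × E2 => L.e p.1 p.2) (w₀, u₀) :=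
        L.e_cont.continuousAt (prod_mem_nhds univ_mem (mem_of_superset
          (isOpen_ball.mem_nhds hu3) ball_subset_closedBall))
      exact h1
    have h1 : ∀ᶠ q : X × E2 in 𝓝 (w₀, u₀), L.e q.1 q.2 ∈ L.e z₀ '' ball 0 3 :=
      he (hopen.mem_nhds ⟨v₀, hv3, hv₀'⟩)
    have h2 : ∀ᶠ q : X × E2 in 𝓝 (w₀, u₀), q.2 ∈ ball (0 : E2) 3 :=
      continuous_snd.continuousAt (isOpen_ball.mem_nhds hu3)
    have hdmq : ∀ᶠ q : X × E2 in 𝓝 (w₀, u₀), q.2 ∈ L.dm q.1 z₀ := by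
      filter_upwards [h1, h2] with q hq1 hq2 using ⟨hq2, hq1⟩
    -- continuity
    have hS : ∀ j : ℕ, Tendsto (fun q : X × E2 => iteratedFDeriv ℝ j (L.τ q.1 z₀) q.2)
        (𝓝 (w₀, u₀) ⊓ 𝓟 {q | L.em q.1 = L.em z₀})
        (𝓝 (iteratedFDeriv ℝ j (L.τ w₀ z₀) u₀)) := by
      intro j
      have h3 : Tendsto (fun p : (X × X) × E2 => iteratedFDeriv ℝ j (L.τ p.1.1 p.1.2) p.2)
          (𝓝[{p | L.em p.1.1 = L.em p.1.2 ∧ p.2 ∈ L.dm p.1.1 p.1.2}] ((w₀, z₀), u₀))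
          (𝓝 (iteratedFDeriv ℝ j (L.τ w₀ z₀) u₀)) := L.tau_cont j ((w₀, z₀), u₀) ⟨hem, hdm⟩
      refine Tendsto.comp (f := fun q : X × E2 => (((q.1, z₀), q.2) : (X × X) × E2)) h3
        (tendsto_nhdsWithin_iff.2 ⟨?_, ?_⟩)
      · have h4 : Continuous (fun q : X × E2 => (((q.1, z₀), q.2) : (X × X) × E2)) := by fun_prop
        exact (h4.tendsto (w₀, u₀)).mono_left inf_le_left
      · have h5 : {q : X × E2 | q.2 ∈ L.dm q.1 z₀} ∈
            𝓝 (w₀, u₀) ⊓ 𝓟 {q | L.em q.1 = L.em z₀} := mem_inf_of_left hdmq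
        have h6 : {q : X × E2 | L.em q.1 = L.em z₀} ∈
            𝓝 (w₀, u₀) ⊓ 𝓟 {q | L.em q.1 = L.em z₀} := mem_inf_of_right (mem_principal_self _)
        filter_upwards [h5, h6] with q hq1 hq2 using ⟨hq2, hq1⟩
    have hval : Tendsto (fun q : X × E2 => L.τ q.1 z₀ q.2)
        (𝓝 (w₀, u₀) ⊓ 𝓟 {q | L.em q.1 = L.em z₀}) (𝓝 v₀) := by
      have h3 := ((continuousMultilinearCurryFin0 ℝ E2 E2).continuous.tendsto _).comp (hS 0)
      have h4 : ((continuousMultilinearCurryFin0 ℝ E2 E2) ∘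
          fun q : X × E2 => iteratedFDeriv ℝ 0 (L.τ q.1 z₀) q.2) =
          fun q : X × E2 => L.τ q.1 z₀ q.2 := by
        funext q
        rfl
      rw [h4] at h3
      have h5 : (continuousMultilinearCurryFin0 ℝ E2 E2) (iteratedFDeriv ℝ 0 (L.τ w₀ z₀) u₀) =
          v₀ := hτ
      rwa [h5] at h3
    refine ⟨‖iteratedFDeriv ℝ k (L.τ w₀ z₀) u₀‖ + 1, ?_⟩
    have h6 := hval (isOpen_ball.mem_nhds hv₀)
    have h7 := ((hS k).norm).eventually (ge_mem_nhds (lt_add_one _))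
    rw [Filter.mem_map, mem_inf_principal] at h6
    rw [Filter.Eventually, mem_inf_principal] at h7
    filter_upwards [hdmq, h6, h7] with q hq1 hq2 hq3 hem'
    exact ⟨hq1, hq2 hem', hq3 hem'⟩
  -- compactness of the disc
  have hc : IsCompact (closedBall (0 : E2) 1) := isCompact_closedBall _ _
  refine hc.induction_on (p := fun S => ∃ C : ℝ, ∀ᶠ w in 𝓝 w₀, L.em w = L.em z₀ → ∀ u ∈ S,
      u ∈ L.dm w z₀ ∧ L.τ w z₀ u ∈ ball (0 : E2) 1 ∧
      ‖iteratedFDeriv ℝ k (L.τ w z₀) u‖ ≤ C) ?_ ?_ ?_ ?_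
  · exact ⟨0, Eventually.of_forall fun w _ u hu => absurd hu (notMem_empty u)⟩
  · rintro S T hST ⟨C, hC⟩
    exact ⟨C, hC.mono fun w hw hem' u hu => hw hem' u (hST hu)⟩
  · rintro S T ⟨C, hC⟩ ⟨D, hD⟩
    refine ⟨max C D, ?_⟩
    filter_upwards [hC, hD] with w h1 h2 hem' u hu
    rcases hu with hu | hu
    · obtain ⟨a, b, c⟩ := h1 hem' u hu
      exact ⟨a, b, c.trans (le_max_left _ _)⟩
    · obtain ⟨a, b, c⟩ := h2 hem' u hu
      exact ⟨a, b, c.trans (le_max_right _ _)⟩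
  · intro u₀ hu₀
    obtain ⟨C, hC⟩ := hloc u₀ hu₀
    rw [nhds_prod_eq] at hC
    obtain ⟨V, hV, U, hU, hVU⟩ := Filter.eventually_prod_iff.1 hC
    refine ⟨{u | U u}, mem_nhdsWithin_of_mem_nhds hU, C, ?_⟩
    filter_upwards [hV] with w hw hem' u hu
    exact hVU hw hu hem'

/-- the bound on a compact subset of the disc, one function -/
theorem one_bdd {V : Type} [NormedAddCommGroup V] [NormedSpace ℝ V] {h : E2 → V}
    (hh : ContDiffOn ℝ ∞ h (ball 0 3)) (k : ℕ) :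
    ∃ C : ℝ, ∀ u ∈ ball (0 : E2) 1, ‖iteratedFDeriv ℝ k h u‖ ≤ C := by
  have h1 : ContinuousOn (iteratedFDeriv ℝ k h) (ball 0 3) := by
    have h5 := hh.continuousOn_iteratedFDerivWithin (m := k) (by exact_mod_cast le_top)
      isOpen_ball.uniqueDiffOn
    exact h5.congr fun x hx => (iteratedFDerivWithin_of_isOpen k isOpen_ball hx).symm
  obtain ⟨C, hC⟩ := (isCompact_closedBall (0 : E2) 1).exists_bound_of_continuousOn
    (h1.mono (closedBall_subset_ball (by norm_num)))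
  exact ⟨C, fun u hu => hC u (ball_subset_closedBall hu)⟩

/-- **a smooth function of the leaf `U_ξ` is bounded in `C^k` on the discs `e y`, `y ∈ Q`** -/
theorem leaf_bdd {V : Type} [NormedAddCommGroup V] [NormedSpace ℝ V] {f : B → V} {ξ : B}
    (hf : L.SmoothOn ξ f) {Q : Set X} (hQ : IsCompact Q) (k : ℕ) :
    ∃ C : ℝ, ∀ y ∈ Q, L.em y = ξ → ∀ u ∈ ball (0 : E2) 3,
      ‖iteratedFDeriv ℝ k (fun u => f (L.e y u)) u‖ ≤ C := by
  refine hQ.induction_on (p := fun S => ∃ C : ℝ, ∀ y ∈ S, L.em y = ξ → ∀ u ∈ ball (0 : E2) 3,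
      ‖iteratedFDeriv ℝ k (fun u => f (L.e y u)) u‖ ≤ C) ?_ ?_ ?_ ?_
  · exact ⟨0, fun y hy => absurd hy (notMem_empty y)⟩
  · rintro S T hST ⟨C, hC⟩
    exact ⟨C, fun y hy => hC y (hST hy)⟩
  · rintro S T ⟨C, hC⟩ ⟨D, hD⟩
    refine ⟨max C D, fun y hy hyξ u hu => ?_⟩
    rcases hy with hy | hy
    · exact (hC y hy hyξ u hu).trans (le_max_left _ _)
    · exact (hD y hy hyξ u hu).trans (le_max_right _ _)
  · intro y₀ _
    by_cases hy₀ : L.em y₀ = ξ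
    swap
    · refine ⟨{y | L.em y ≠ ξ}, mem_nhdsWithin_of_mem_nhds ?_, 0, fun y hy hy' => absurd hy' hy⟩
      exact (isOpen_ne.preimage L.em_cont).mem_nhds hy₀
    set w₀ := L.φ (-L.t1) y₀ with hw₀
    set z₀ := L.φ (-L.t1) w₀ with hz₀
    have hemz : L.em z₀ = ξ := by rw [hz₀, L.em_φ, hw₀, L.em_φ, hy₀]
    have hem : L.em w₀ = L.em z₀ := by rw [hemz, hw₀, L.em_φ, hy₀]
    have hwz : L.φ L.t1 z₀ = w₀ := H147.φ_sub_cancel L L.t1 w₀
    have hsub : L.e w₀ '' closedBall 0 1 ⊆ L.e z₀ '' ball 0 1 := by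
      have h1 := L.engulf z₀ L.t1 le_rfl
      rw [hwz] at h1
      exact (image_mono (closedBall_subset_closedBall (by norm_num))).trans h1
    have hT : ∀ j : ℕ, ∃ C : ℝ, ∀ᶠ w in 𝓝 w₀, L.em w = L.em z₀ → ∀ u ∈ closedBall (0 : E2) 1,
        u ∈ L.dm w z₀ ∧ L.τ w z₀ u ∈ ball (0 : E2) 1 ∧ ‖iteratedFDeriv ℝ j (L.τ w z₀) u‖ ≤ C :=
      fun j => tau_local L hem hsub j
    choose C hC using hT
    have hall : ∀ᶠ w in 𝓝 w₀, ∀ j ∈ Finset.range (k + 1), L.em w = L.em z₀ →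
        ∀ u ∈ closedBall (0 : E2) 1, u ∈ L.dm w z₀ ∧ L.τ w z₀ u ∈ ball (0 : E2) 1 ∧
          ‖iteratedFDeriv ℝ j (L.τ w z₀) u‖ ≤ C j := by
      rw [Filter.eventually_all_finset]
      exact fun j _ => hC j
    have hφ : Tendsto (L.φ (-L.t1)) (𝓝 y₀) (𝓝 w₀) :=
      (L.φ_cont.comp (Continuous.prodMk_right (-L.t1))).tendsto y₀
    have hV := hφ.eventually hall
    set V₀ : Set X := {y | ∀ j ∈ Finset.range (k + 1), L.em (L.φ (-L.t1) y) = L.em z₀ →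
        ∀ u ∈ closedBall (0 : E2) 1, u ∈ L.dm (L.φ (-L.t1) y) z₀ ∧
          L.τ (L.φ (-L.t1) y) z₀ u ∈ ball (0 : E2) 1 ∧
          ‖iteratedFDeriv ℝ j (L.τ (L.φ (-L.t1) y) z₀) u‖ ≤ C j} with hV₀
    refine ⟨V₀, mem_nhdsWithin_of_mem_nhds hV, ?_⟩
    -- the family
    let α : Type := {y : X // y ∈ V₀ ∧ L.em y = ξ}
    have hemα : ∀ p : α, L.em (L.φ (-L.t1) p.1) = L.em z₀ := fun p => by
      rw [L.em_φ, p.2.2, hemz]
    have hR : BF 3 k (fun (p : Disc α) => H147.R L L.t1 (L.φ (-L.t1) p.val.1)) := by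
      refine BF.of_disc (fun p => (H147.R_smooth _ le_rfl).of_le (by exact_mod_cast le_top))
        fun j _ => ?_
      obtain ⟨D, _, hD⟩ := H147.R_bound L j
      exact ⟨D, fun p u hu => (hD _ L.t1 le_rfl u hu).1⟩
    have hRm : ∀ (p : Disc α), ∀ u ∈ ball (0 : E2) 3,
        H147.R L L.t1 (L.φ (-L.t1) p.val.1) u ∈ ball (0 : E2) 1 := fun p u hu =>
      H147.R_mem _ le_rfl (ball_subset_closedBall hu)
    have hdm : ∀ (p : α), ∀ u ∈ closedBall (0 : E2) 1, u ∈ L.dm (L.φ (-L.t1) p.1) z₀ ∧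
        L.τ (L.φ (-L.t1) p.1) z₀ u ∈ ball (0 : E2) 1 := fun p u hu => by
      have h1 := p.2.1 0 (by simp) (hemα p) u hu
      exact ⟨h1.1, h1.2.1⟩
    have hTB : BF 1 k (fun (p : Disc α) => L.τ (L.φ (-L.t1) p.val.1) z₀) := by
      refine BF.of_disc (fun p => ?_) fun j hj => ?_
      · have h1 := L.tau_smooth (L.φ (-L.t1) p.val.1) z₀ (hemα p.val)
        have h2 : ball (0 : E2) 1 ⊆ dom L.e (L.φ (-L.t1) p.val.1) z₀ := fun u hu =>
          (hdm p.val u (ball_subset_closedBall hu)).1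
        exact (h1.mono h2).of_le (by exact_mod_cast le_top)
      · exact ⟨C j, fun p u hu => (p.val.2.1 j (by simp; omega) (hemα p.val) u
          (ball_subset_closedBall hu)).2.2⟩
    have hTm : ∀ (p : Disc α), ∀ u ∈ ball (0 : E2) 1,
        L.τ (L.φ (-L.t1) p.val.1) z₀ u ∈ ball (0 : E2) 1 := fun p u hu =>
      (hdm p.val u (ball_subset_closedBall hu)).2
    have hHB : BF 1 k (fun (_ : Disc α) (u : E2) => f (L.e z₀ u)) := by
      refine BF.of_disc (fun p => ((hf z₀ hemz).mono (ball_subset_ball (by norm_num))).of_le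
        (by exact_mod_cast le_top)) fun j _ => ?_
      obtain ⟨D, hD⟩ := one_bdd (hf z₀ hemz) j
      exact ⟨D, fun p u hu => hD u hu⟩
    have hfin := BF.comp2 hRm hR (BF.comp2 hTm hTB hHB)
    have hfin' : BF 3 k (fun (p : Disc α) (u : E2) => f (L.e p.val.1 u)) := by
      refine hfin.congr fun p u hu => ?_
      have e1 := H147.e_R (L := L) (L.φ (-L.t1) p.val.1) le_rfl (ball_subset_closedBall hu)
      rw [H147.φ_sub_cancel] at e1
      have e2 := L.e_tau (hdm p.val _ (ball_subset_closedBall (hRm p u hu))).1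
      rw [← e1, ← e2]
    obtain ⟨D, hD⟩ := ((BF_iff.1 hfin').2 k le_rfl).2
    exact ⟨D, fun y hy hyξ u hu => hD ⟨⟨y, hy, hyξ⟩⟩ u hu⟩

end Vale.Agent.P207.N3.H992
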