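import Vale.Agent.P207.N3.H992.Conv

/-!
# P207, line N3, P4: composition on the left with a fixed smooth map, uniform estimates
-/

noncomputable section

namespace Vale.Agent.P207.N3.H992

open Set Metric Filter Topology
open scoped ContDiff

universe u

/-- a set of indices with the discrete topology -/
structure Disc (α : Type*) where
  val : α

instance (α : Type*) : TopologicalSpace (Disc α) := ⊥

instance (α : Type*) : DiscreteTopology (Disc α) := ⟨rfl⟩

variable {P : Type*} [TopologicalSpace P]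
variable {E : Type u} [NormedAddCommGroup E] [NormedSpace ℝ E] {R : ℝ}
variable {E' : Type u} [NormedAddCommGroup E'] [NormedSpace ℝ E'] [FiniteDimensional ℝ E']

/-- bounded on bounded sets -/
theorem bdd_of_cont {F : Type*} [NormedAddCommGroup F] {H : E' → F} (hH : Continuous H) (M : ℝ) :
    ∃ C : ℝ, ∀ x, ‖x‖ ≤ M → ‖H x‖ ≤ C := by
  have : ProperSpace E' := FiniteDimensional.proper ℝ E'
  obtain ⟨C, hC⟩ := (isCompact_closedBall (0 : E') M).exists_bound_of_continuousOn
    hH.continuousOn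
  exact ⟨C, fun x hx => hC x (mem_closedBall_zero_iff.2 hx)⟩

theorem BF.left {k : ℕ} : ∀ {F : Type u} [NormedAddCommGroup F] [NormedSpace ℝ F] {H : E' → F}
    (_ : ContDiff ℝ ∞ H) {z : P → E → E'}, BF R k z → BF R k (fun p x => H (z p x)) := by
  have h0 : ∀ {F : Type u} [NormedAddCommGroup F] [NormedSpace ℝ F] {H : E' → F}
      (_ : ContDiff ℝ ∞ H) {z : P → E → E'}, B0 R z → B0 R (fun p x => H (z p x)) := by
    intro F _ _ H hH z hz
    obtain ⟨M, hM⟩ := hz.bdd
    obtain ⟨C, hC⟩ := bdd_of_cont hH.continuous M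
    exact ⟨hH.continuous.comp_continuousOn hz.cont, C, fun p x hx => hC _ (hM p x hx)⟩
  induction k with
  | zero => intro F _ _ H hH z hz; exact h0 hH hz
  | succ k ih =>
    intro F _ _ H hH z hz
    have hd : ∀ p, ∀ x ∈ ball (0 : E) R, HasFDerivAt (fun y => H (z p y))
        ((fderiv ℝ H (z p x)).comp (fderiv ℝ (z p) x)) x := fun p x hx =>
      ((hH.differentiable (by simp)) (z p x)).hasFDerivAt.comp x (hz.2.1 p x hx).hasFDerivAt
    refine ⟨h0 hH hz.1, fun p x hx => (hd p x hx).differentiableAt, ?_⟩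
    have hH' : ContDiff ℝ ∞ (fderiv ℝ H) := hH.fderiv_right (by simp)
    exact ((ih hH' hz.pred).compL hz.2.2).congr fun p x hx => (hd p x hx).fderiv

/-- differences of compositions, with weights -/
theorem BF.leftSub {w : P → ℝ} (hw : Continuous w) {k : ℕ} : ∀ {F : Type u}
    [NormedAddCommGroup F] [NormedSpace ℝ F] {H : E' → F}
    (_ : ContDiff ℝ ∞ H) {z z' : P → E → E'}, BF R k z → BF R k z' →
    BF R k (fun p x => w p • (z p x - z' p x)) →
    BF R k (fun p x => w p • (H (z p x) - H (z' p x))) := by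
  have h0 : ∀ {F : Type u} [NormedAddCommGroup F] [NormedSpace ℝ F] {H : E' → F}
      (_ : ContDiff ℝ ∞ H) {z z' : P → E → E'}, B0 R z → B0 R z' →
      B0 R (fun p x => w p • (z p x - z' p x)) →
      B0 R (fun p x => w p • (H (z p x) - H (z' p x))) := by
    intro F _ _ H hH z z' hz hz' hd
    obtain ⟨M, hM⟩ := hz.bdd
    obtain ⟨M', hM'⟩ := hz'.bdd
    obtain ⟨D, hD⟩ := hd.bdd
    obtain ⟨C, hC⟩ := bdd_of_cont (hH.continuous_fderiv (by simp)) (max M M')
    refine ⟨(hw.comp continuous_fst).continuousOn.smul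
      ((hH.continuous.comp_continuousOn hz.cont).sub (hH.continuous.comp_continuousOn hz'.cont)),
      |C| * |D|, fun p x hx => ?_⟩
    have h1 : ‖H (z p x) - H (z' p x)‖ ≤ |C| * ‖z p x - z' p x‖ :=
      (convex_closedBall (0 : E') (max M M')).norm_image_sub_le_of_norm_fderiv_le
        (fun y _ => (hH.differentiable (by simp)) y)
        (fun y hy => (hC y (mem_closedBall_zero_iff.1 hy)).trans (le_abs_self _))
        (mem_closedBall_zero_iff.2 ((hM' p x hx).trans (le_max_right _ _)))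
        (mem_closedBall_zero_iff.2 ((hM p x hx).trans (le_max_left _ _)))
    have h2 := (hD p x hx).trans (le_abs_self D)
    rw [norm_smul] at h2 ⊢
    calc _ ≤ ‖w p‖ * (|C| * ‖z p x - z' p x‖) := by gcongr
      _ = |C| * (‖w p‖ * ‖z p x - z' p x‖) := by ring
      _ ≤ _ := by gcongr
  induction k with
  | zero => intro F _ _ H hH z z' hz hz' hd; exact h0 hH hz hz' hd
  | succ k ih =>
    intro F _ _ H hH z z' hz hz' hd
    have hd1 : ∀ p, ∀ x ∈ ball (0 : E) R, HasFDerivAt (fun y => H (z p y))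
        ((fderiv ℝ H (z p x)).comp (fderiv ℝ (z p) x)) x := fun p x hx =>
      ((hH.differentiable (by simp)) (z p x)).hasFDerivAt.comp x (hz.2.1 p x hx).hasFDerivAt
    have hd2 : ∀ p, ∀ x ∈ ball (0 : E) R, HasFDerivAt (fun y => H (z' p y))
        ((fderiv ℝ H (z' p x)).comp (fderiv ℝ (z' p) x)) x := fun p x hx =>
      ((hH.differentiable (by simp)) (z' p x)).hasFDerivAt.comp x (hz'.2.1 p x hx).hasFDerivAt
    have hd3 : ∀ p, ∀ x ∈ ball (0 : E) R, HasFDerivAt (fun y => w p • (H (z p y) - H (z' p y)))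
        (w p • ((fderiv ℝ H (z p x)).comp (fderiv ℝ (z p) x) -
          (fderiv ℝ H (z' p x)).comp (fderiv ℝ (z' p) x))) x := fun p x hx =>
      ((hd1 p x hx).sub (hd2 p x hx)).const_smul _
    refine ⟨h0 hH hz.1 hz'.1 hd.1, fun p x hx => (hd3 p x hx).differentiableAt, ?_⟩
    have hH' : ContDiff ℝ ∞ (fderiv ℝ H) := hH.fderiv_right (by simp)
    have h1 := ih hH' hz.pred hz'.pred hd.pred
    have h2 : BF R k (fun p x => w p • (fderiv ℝ (z p) x - fderiv ℝ (z' p) x)) := by
      refine hd.2.2.congr fun p x hx => ?_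
      exact (((hz.2.1 p x hx).hasFDerivAt.sub (hz'.2.1 p x hx).hasFDerivAt).const_smul
        (w p)).fderiv.symm
    refine ((BF.compL h1 hz.2.2).add (BF.compL (BF.left hH' hz'.pred) h2)).congr
      fun p x hx => ?_
    rw [(hd3 p x hx).fderiv]
    simp only [ContinuousLinearMap.smul_comp, ContinuousLinearMap.comp_smul,
      ContinuousLinearMap.sub_comp, ContinuousLinearMap.comp_sub]
    module

/-- families with a discrete index -/
theorem BF.of_disc {α : Type*} {F : Type u} [NormedAddCommGroup F] [NormedSpace ℝ F]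
    {z : Disc α → E → F} {k : ℕ} (hz : ∀ p, ContDiffOn ℝ k (z p) (ball 0 R))
    (hb : ∀ j ≤ k, ∃ C : ℝ, ∀ p, ∀ x ∈ ball (0 : E) R, ‖iteratedFDeriv ℝ j (z p) x‖ ≤ C) :
    BF R k z := by
  rw [BF_iff]
  refine ⟨hz, fun j hj => ⟨?_, hb j hj⟩⟩
  rintro ⟨p, x⟩ hq
  have h1 : ContinuousAt (iteratedFDeriv ℝ j (z p)) x := by
    have h2 : ContinuousOn (iteratedFDeriv ℝ j (z p)) (ball 0 R) := by
      have h5 := (hz p).continuousOn_iteratedFDerivWithin (m := j) (by exact_mod_cast hj)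
        isOpen_ball.uniqueDiffOn
      exact h5.congr fun x hx => (iteratedFDerivWithin_of_isOpen j isOpen_ball hx).symm
    exact h2.continuousAt (isOpen_ball.mem_nhds hq.2)
  have h2 : ContinuousAt (fun q : Disc α × E => iteratedFDeriv ℝ j (z p) q.2) (p, x) :=
    ContinuousAt.comp (f := fun q : Disc α × E => q.2) (g := iteratedFDeriv ℝ j (z p))
      (x := (p, x)) h1 continuous_snd.continuousAt
  refine (h2.congr ?_).continuousWithinAt
  have h3 : {q : Disc α × E | q.1 = p} ∈ 𝓝 ((p, x) : Disc α × E) :=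
    ((isOpen_discrete {p}).preimage continuous_fst).mem_nhds rfl
  filter_upwards [h3] with q hq
  have : q.1 = p := hq
  rw [this]

/-- **closeness in `C^k` is preserved by composition with a fixed smooth map** -/
theorem close_left {α : Type*} {F : Type u} [NormedAddCommGroup F] [NormedSpace ℝ F]
    {H : E' → F} (hH : ContDiff ℝ ∞ H) {z z' : α → E → E'} {w : α → ℝ} {k : ℕ}
    (hz : ∀ p, ContDiffOn ℝ k (z p) (ball 0 R)) (hz' : ∀ p, ContDiffOn ℝ k (z' p) (ball 0 R))
    (hb : ∀ j ≤ k, ∃ C : ℝ, ∀ p, ∀ x ∈ ball (0 : E) R, ‖iteratedFDeriv ℝ j (z' p) x‖ ≤ C)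
    (hw0 : ∀ p, 0 < w p) (hw1 : ∃ C : ℝ, ∀ p, w p ≤ C)
    (hd : ∀ j ≤ k, ∃ C : ℝ, ∀ p, ∀ x ∈ ball (0 : E) R,
      ‖iteratedFDeriv ℝ j (z p) x - iteratedFDeriv ℝ j (z' p) x‖ ≤ C * w p) :
    ∃ C : ℝ, ∀ p, ∀ x ∈ ball (0 : E) R, ‖iteratedFDeriv ℝ k (fun x => H (z p x)) x -
      iteratedFDeriv ℝ k (fun x => H (z' p x)) x‖ ≤ C * w p := by
  have hcd : ∀ (j : ℕ) (_ : j ≤ k) {g : E → E'} (_ : ContDiffOn ℝ k g (ball 0 R)),
      ∀ x ∈ ball (0 : E) R, ContDiffAt ℝ j g x := fun j hj g hg x hx =>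
    (hg.contDiffAt (isOpen_ball.mem_nhds hx)).of_le (by exact_mod_cast hj)
  obtain ⟨W, hW⟩ := hw1
  have h1 : BF R k (fun (p : Disc α) => z' p.val) := BF.of_disc (fun p => hz' p.val)
    fun j hj => by
      obtain ⟨C, hC⟩ := hb j hj
      exact ⟨C, fun p => hC p.val⟩
  have h2 : BF R k (fun (p : Disc α) => z p.val) := BF.of_disc (fun p => hz p.val)
    fun j hj => by
      obtain ⟨C, hC⟩ := hb j hj
      obtain ⟨D, hD⟩ := hd j hj
      refine ⟨C + |D| * |W|, fun p x hx => ?_⟩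
      have e1 := hC p.val x hx
      have e2 : ‖iteratedFDeriv ℝ j (z p.val) x - iteratedFDeriv ℝ j (z' p.val) x‖ ≤ |D| * |W| := by
        refine (hD p.val x hx).trans ?_
        calc D * w p.val ≤ |D| * w p.val := by
              gcongr
              · exact (hw0 _).le
              · exact le_abs_self _
          _ ≤ |D| * |W| := by
              gcongr
              exact (hW _).trans (le_abs_self _)
      calc ‖iteratedFDeriv ℝ j (z p.val) x‖ = ‖iteratedFDeriv ℝ j (z' p.val) x +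
            (iteratedFDeriv ℝ j (z p.val) x - iteratedFDeriv ℝ j (z' p.val) x)‖ := by
              rw [add_sub_cancel]
        _ ≤ _ := norm_add_le _ _
        _ ≤ _ := add_le_add e1 e2
  have key : ∀ (j : ℕ) (_ : j ≤ k) (p : α), ∀ x ∈ ball (0 : E) R,
      iteratedFDeriv ℝ j (fun x => (w p)⁻¹ • (z p x - z' p x)) x =
        (w p)⁻¹ • (iteratedFDeriv ℝ j (z p) x - iteratedFDeriv ℝ j (z' p) x) := by
    intro j hj p x hx
    have e1 : iteratedFDeriv ℝ j (fun x => z p x - z' p x) x =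
        iteratedFDeriv ℝ j (z p) x - iteratedFDeriv ℝ j (z' p) x :=
      iteratedFDeriv_sub_apply (hcd j hj (hz p) x hx) (hcd j hj (hz' p) x hx)
    rw [iteratedFDeriv_const_smul_apply'
      ((hcd j hj (hz p) x hx).sub (hcd j hj (hz' p) x hx)), e1]
  have h3 : BF R k (fun (p : Disc α) x => (w p.val)⁻¹ • (z p.val x - z' p.val x)) :=
    BF.of_disc (fun p => contDiffOn_const.smul ((hz p.val).sub (hz' p.val))) fun j hj => by
      obtain ⟨D, hD⟩ := hd j hj
      refine ⟨D, fun p x hx => ?_⟩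
      rw [key j hj p.val x hx, norm_smul, norm_inv, Real.norm_of_nonneg (hw0 _).le,
        inv_mul_le_iff₀ (hw0 _), mul_comm]
      exact hD p.val x hx
  have h4 := BF.leftSub (P := Disc α) (w := fun p => (w p.val)⁻¹)
    continuous_of_discreteTopology hH h2 h1 h3
  obtain ⟨C, hC⟩ := ((BF_iff.1 h4).2 k le_rfl).2
  refine ⟨C, fun p x hx => ?_⟩
  have h5 := hC ⟨p⟩ x hx
  have hcH : ∀ {g : E → E'} (_ : ContDiffOn ℝ k g (ball 0 R)),
      ContDiffAt ℝ k (fun x => H (g x)) x := fun {g} hg =>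
    ContDiffAt.comp x ((hH.of_le (by exact_mod_cast le_top)).contDiffAt (x := g x))
      (hcd k le_rfl hg x hx)
  have e1 : iteratedFDeriv ℝ k (fun x => H (z p x) - H (z' p x)) x =
      iteratedFDeriv ℝ k (fun x => H (z p x)) x - iteratedFDeriv ℝ k (fun x => H (z' p x)) x :=
    iteratedFDeriv_sub_apply (hcH (hz p)) (hcH (hz' p))
  have e2 : iteratedFDeriv ℝ k (fun x => (w p)⁻¹ • (H (z p x) - H (z' p x))) x =
      (w p)⁻¹ • (iteratedFDeriv ℝ k (fun x => H (z p x)) x -
        iteratedFDeriv ℝ k (fun x => H (z' p x)) x) := by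
    rw [iteratedFDeriv_const_smul_apply' ((hcH (hz p)).sub (hcH (hz' p))), e1]
  have h6 : ‖iteratedFDeriv ℝ k (fun x => (w p)⁻¹ • (H (z p x) - H (z' p x))) x‖ ≤ C := h5
  rw [e2, norm_smul, norm_inv, Real.norm_of_nonneg (hw0 _).le, inv_mul_le_iff₀ (hw0 _),
    mul_comm] at h6
  exact h6

end Vale.Agent.P207.N3.H992
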