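import Mathlib

/-!
# P207, line N3, P4: linear recursions `u (m+1) = T m u m + f m` with `T m` close to a constant

The bounded solutions are found in a Banach space of sequences: the shift `S` has, for `|l| ≠ b`,
a right inverse of `b S - l`; Cayley–Hamilton turns this into a right inverse of `b S - T`.
-/

noncomputable section

namespace Vale.Agent.P207.N3.H992

open Set Metric Filter Topology Polynomial BoundedContinuousFunction

section Alg

variable {A : Type*} [Ring A] [Algebra ℂ A]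

theorem exists_sub_factor {s t : A} (hst : Commute s t) (P : ℂ[X]) :
    ∃ Q : A, aeval s P - aeval t P = (s - t) * Q := by
  induction P using Polynomial.induction_on' with
  | add p q hp hq =>
    obtain ⟨Q1, h1⟩ := hp
    obtain ⟨Q2, h2⟩ := hq
    refine ⟨Q1 + Q2, ?_⟩
    rw [mul_add, ← h1, ← h2, map_add, map_add]
    abel
  | monomial n a =>
    refine ⟨a • ∑ i ∈ Finset.range n, s ^ i * t ^ (n - 1 - i), ?_⟩
    rw [mul_smul_comm, hst.mul_geom_sum₂ n, aeval_monomial, aeval_monomial, smul_sub,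
      Algebra.smul_def, Algebra.smul_def]

theorem exists_right_inv_prod {s : A} (m : Multiset ℂ)
    (hs : ∀ l ∈ m, ∃ r, (s - algebraMap ℂ A l) * r = 1) :
    ∃ r, aeval s (m.map fun l => (X - Polynomial.C l : ℂ[X])).prod * r = 1 := by
  induction m using Multiset.induction_on with
  | empty => exact ⟨1, by simp⟩
  | cons l m ih =>
    obtain ⟨r1, h1⟩ := hs l (Multiset.mem_cons_self _ _)
    obtain ⟨r2, h2⟩ := ih fun l' hl' => hs l' (Multiset.mem_cons_of_mem hl')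
    refine ⟨r2 * r1, ?_⟩
    rw [Multiset.map_cons, Multiset.prod_cons, map_mul, mul_assoc, ← mul_assoc _ r2, h2, one_mul,
      map_sub, aeval_X, aeval_C, h1]

theorem exists_right_inv {s t : A} (hst : Commute s t) {P : ℂ[X]} (hP : P.Monic)
    (ht : aeval t P = 0) (hs : ∀ l ∈ P.roots, ∃ r, (s - algebraMap ℂ A l) * r = 1) :
    ∃ r, (s - t) * r = 1 := by
  obtain ⟨r, hr⟩ := exists_right_inv_prod P.roots hs
  obtain ⟨Q, hQ⟩ := exists_sub_factor hst P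
  rw [ht, sub_zero] at hQ
  have h1 : (P.roots.map fun l => (X - Polynomial.C l : ℂ[X])).prod = P := by
    have h2 := (IsAlgClosed.splits P).eq_prod_roots
    rw [hP.leadingCoeff, Polynomial.C_1, one_mul] at h2
    exact h2.symm
  rw [h1, hQ] at hr
  exact ⟨Q * r, by rw [← mul_assoc, hr]⟩

end Alg

section Shift

variable {Ξ : Type*} [TopologicalSpace Ξ] {W : Type*} [NormedAddCommGroup W] (𝕜 : Type*)
  [NontriviallyNormedField 𝕜] [NormedSpace 𝕜 W]

/-- the left shift -/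
def shL : ((ℕ × Ξ) →ᵇ W) →L[𝕜] ((ℕ × Ξ) →ᵇ W) :=
  LinearMap.mkContinuous
    { toFun := fun u => BoundedContinuousFunction.ofNormedAddCommGroup
        (fun p : ℕ × Ξ => u (p.1 + 1, p.2)) (u.continuous.comp (by fun_prop)) ‖u‖
        fun p => u.norm_coe_le_norm _
      map_add' := fun u v => by ext p; rfl
      map_smul' := fun c u => by ext p; rfl } 1 fun u => by
    rw [one_mul]
    exact BoundedContinuousFunction.norm_ofNormedAddCommGroup_le _ (norm_nonneg _)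
      fun p => u.norm_coe_le_norm _

@[simp] theorem shL_apply (u : (ℕ × Ξ) →ᵇ W) (m : ℕ) (ξ : Ξ) : shL 𝕜 u (m, ξ) = u (m + 1, ξ) := rfl

theorem norm_shL_le : ‖(shL 𝕜 : ((ℕ × Ξ) →ᵇ W) →L[𝕜] ((ℕ × Ξ) →ᵇ W))‖ ≤ 1 :=
  LinearMap.mkContinuous_norm_le _ zero_le_one _

/-- the function of the right shift -/
def shRf (u : ℕ × Ξ → W) : ℕ × Ξ → W
  | (0, _) => 0
  | (m + 1, ξ) => u (m, ξ)

theorem shRf_cont {u : ℕ × Ξ → W} (hu : Continuous u) : Continuous (shRf u) := by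
  rw [continuous_prod_of_discrete_left]
  intro m
  cases m with
  | zero => exact continuous_const
  | succ m => exact hu.comp (by fun_prop)

/-- the right shift -/
def shR : ((ℕ × Ξ) →ᵇ W) →L[𝕜] ((ℕ × Ξ) →ᵇ W) :=
  LinearMap.mkContinuous
    { toFun := fun u => BoundedContinuousFunction.ofNormedAddCommGroup
        (shRf u) (shRf_cont u.continuous) ‖u‖ (by
          rintro ⟨m, ξ⟩
          cases m with
          | zero => simp [shRf]
          | succ m => exact u.norm_coe_le_norm _)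
      map_add' := fun u v => by
        ext ⟨m, ξ⟩
        cases m with
        | zero => simp [shRf]
        | succ m => rfl
      map_smul' := fun c u => by
        ext ⟨m, ξ⟩
        cases m with
        | zero => simp [shRf]
        | succ m => rfl } 1 fun u => by
    rw [one_mul]
    exact BoundedContinuousFunction.norm_ofNormedAddCommGroup_le _ (norm_nonneg _) (by
          rintro ⟨m, ξ⟩
          cases m with
          | zero => simp [shRf]
          | succ m => exact u.norm_coe_le_norm _)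

theorem norm_shR_le : ‖(shR 𝕜 : ((ℕ × Ξ) →ᵇ W) →L[𝕜] ((ℕ × Ξ) →ᵇ W))‖ ≤ 1 :=
  LinearMap.mkContinuous_norm_le _ zero_le_one _

theorem shL_shR : (shL 𝕜 : ((ℕ × Ξ) →ᵇ W) →L[𝕜] ((ℕ × Ξ) →ᵇ W)) * shR 𝕜 = 1 := by
  ext u ⟨m, ξ⟩
  rfl

end Shift

section Cplx

variable {Ξ : Type*} [TopologicalSpace Ξ] {W : Type*} [NormedAddCommGroup W] [NormedSpace ℂ W]
  [CompleteSpace W]

theorem right_inv_shift {b : ℝ} (hb : 0 < b) {l : ℂ} (hl : ‖l‖ ≠ b) :
    ∃ r : ((ℕ × Ξ) →ᵇ W) →L[ℂ] ((ℕ × Ξ) →ᵇ W),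
      ((b : ℂ) • shL ℂ - algebraMap ℂ (((ℕ × Ξ) →ᵇ W) →L[ℂ] ((ℕ × Ξ) →ᵇ W)) l) * r = 1 := by
  have hb' : (b : ℂ) ≠ 0 := by exact_mod_cast hb.ne'
  rcases lt_or_gt_of_ne hl with h | h
  · -- `|l| < b`
    set x : ((ℕ × Ξ) →ᵇ W) →L[ℂ] ((ℕ × Ξ) →ᵇ W) := (l / b) • shR ℂ with hx
    have hx1 : ‖x‖ < 1 := by
      rw [hx, norm_smul, norm_div, Complex.norm_real, Real.norm_of_nonneg hb.le]
      calc ‖l‖ / b * ‖(shR ℂ : ((ℕ × Ξ) →ᵇ W) →L[ℂ] ((ℕ × Ξ) →ᵇ W))‖ ≤ ‖l‖ / b * 1 := by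
            gcongr; exact norm_shR_le ℂ
        _ < 1 := by rw [mul_one, div_lt_one hb]; exact h
    obtain ⟨v, hv⟩ := isUnit_one_sub_of_norm_lt_one hx1
    refine ⟨((b : ℂ)⁻¹ • shR ℂ) * (↑v⁻¹ : ((ℕ × Ξ) →ᵇ W) →L[ℂ] ((ℕ × Ξ) →ᵇ W)), ?_⟩
    have h2 : ((b : ℂ) • shL ℂ - algebraMap ℂ (((ℕ × Ξ) →ᵇ W) →L[ℂ] ((ℕ × Ξ) →ᵇ W)) l) *
        ((b : ℂ)⁻¹ • shR ℂ) = 1 - x := by
      rw [sub_mul, smul_mul_smul_comm, shL_shR, mul_inv_cancel₀ hb', one_smul,
        Algebra.algebraMap_eq_smul_one, smul_mul_smul_comm, one_mul, hx, div_eq_mul_inv]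
    rw [← mul_assoc, h2, ← hv, Units.mul_inv]
  · -- `|l| > b`
    have hl0 : l ≠ 0 := by
      rintro rfl
      rw [norm_zero] at h
      linarith
    set x : ((ℕ × Ξ) →ᵇ W) →L[ℂ] ((ℕ × Ξ) →ᵇ W) := (b / l) • shL ℂ with hx
    have hx1 : ‖x‖ < 1 := by
      rw [hx, norm_smul, norm_div, Complex.norm_real, Real.norm_of_nonneg hb.le]
      have hl1 : 0 < ‖l‖ := norm_pos_iff.2 hl0
      calc b / ‖l‖ * ‖(shL ℂ : ((ℕ × Ξ) →ᵇ W) →L[ℂ] ((ℕ × Ξ) →ᵇ W))‖ ≤ b / ‖l‖ * 1 := by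
            gcongr; exact norm_shL_le ℂ
        _ < 1 := by rw [mul_one, div_lt_one hl1]; exact h
    obtain ⟨v, hv⟩ := isUnit_one_sub_of_norm_lt_one hx1
    refine ⟨(-l⁻¹) • (↑v⁻¹ : ((ℕ × Ξ) →ᵇ W) →L[ℂ] ((ℕ × Ξ) →ᵇ W)), ?_⟩
    have h2 : (b : ℂ) • shL ℂ - algebraMap ℂ (((ℕ × Ξ) →ᵇ W) →L[ℂ] ((ℕ × Ξ) →ᵇ W)) l =
        (-l) • (1 - x) := by
      have h3 : -l * (b / l) = -b := by field_simp
      rw [hx, smul_sub, smul_smul, Algebra.algebraMap_eq_smul_one, h3]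
      module
    rw [h2, smul_mul_smul_comm, ← hv, Units.mul_inv, neg_mul_neg, mul_inv_cancel₀ hl0, one_smul]

end Cplx

section Op

variable {Ξ : Type*} [TopologicalSpace Ξ] {W : Type*} [NormedAddCommGroup W] [NormedSpace ℂ W]

/-- pointwise application, as a morphism of algebras -/
def opA : (W →L[ℂ] W) →ₐ[ℂ] (((ℕ × Ξ) →ᵇ W) →L[ℂ] ((ℕ × Ξ) →ᵇ W)) :=
  AlgHom.ofLinearMap
    { toFun := fun M => M.compLeftContinuousBounded (ℕ × Ξ)
      map_add' := fun M N => by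
        ext u p
        rfl
      map_smul' := fun c M => by
        ext u p
        rfl }
    (by
      ext u p
      rfl)
    (fun M N => by
      ext u p
      rfl)

theorem opA_apply (M : W →L[ℂ] W) (u : (ℕ × Ξ) →ᵇ W) (p : ℕ × Ξ) :
    opA M u p = M (u p) := rfl

theorem commute_shL (M : W →L[ℂ] W) :
    Commute (shL ℂ : ((ℕ × Ξ) →ᵇ W) →L[ℂ] ((ℕ × Ξ) →ᵇ W)) (opA M) := by
  apply ContinuousLinearMap.ext
  intro u
  apply BoundedContinuousFunction.ext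
  intro p
  rfl

theorem right_inv_op [CompleteSpace W] (M : W →L[ℂ] W) {P : ℂ[X]} (hP : P.Monic)
    (hMP : aeval M P = 0) {b : ℝ} (hb : 0 < b)
    (hM : ∀ l ∈ P.roots, ‖l‖ ≠ b) :
    ∃ r : ((ℕ × Ξ) →ᵇ W) →L[ℂ] ((ℕ × Ξ) →ᵇ W), ((b : ℂ) • shL ℂ - opA M) * r = 1 := by
  have h1 : Commute ((b : ℂ) • shL ℂ : ((ℕ × Ξ) →ᵇ W) →L[ℂ] ((ℕ × Ξ) →ᵇ W))
      (opA M) := (commute_shL M).smul_left _
  have h2 : aeval (opA (Ξ := Ξ) M) P = 0 := by
    rw [aeval_algHom_apply, hMP, map_zero]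
  exact exists_right_inv h1 hP h2 fun l hl => right_inv_shift hb (hM l hl)

theorem right_inv_op' [CompleteSpace W] (M : W →L[ℂ] W) {P : ℂ[X]} (hP : P.Monic)
    (hMP : aeval M P = 0) {b : ℝ} (hb : 0 < b)
    (hM : ∀ l ∈ P.roots, ‖l‖ ≠ b) :
    ∃ r : ((ℕ × Ξ) →ᵇ W) →L[ℂ] ((ℕ × Ξ) →ᵇ W), ∀ u m ξ,
      (b : ℂ) • r u (m + 1, ξ) = M (r u (m, ξ)) + u (m, ξ) := by
  obtain ⟨r, hr⟩ := right_inv_op (Ξ := Ξ) M hP hMP hb hM
  refine ⟨r, fun u m ξ => ?_⟩
  have h1 := congrArg (fun A : ((ℕ × Ξ) →ᵇ W) →L[ℂ] ((ℕ × Ξ) →ᵇ W) => A u (m, ξ)) hr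
  have h2 : (b : ℂ) • r u (m + 1, ξ) - M (r u (m, ξ)) = u (m, ξ) := h1
  rw [← h2]
  abel

end Op

section Real

variable {V : Type*} [NormedAddCommGroup V] [NormedSpace ℝ V] [FiniteDimensional ℝ V]

theorem exists_cplx (T : V →L[ℝ] V) : ∃ (n : ℕ) (M : (Fin n → ℂ) →L[ℂ] (Fin n → ℂ)) (P : ℂ[X])
    (ι : V →L[ℝ] (Fin n → ℂ)) (π : (Fin n → ℂ) →L[ℝ] V), P.Monic ∧ aeval M P = 0 ∧
    (∀ v, π (ι v) = v) ∧ (∀ w, π (M w) = T (π w)) ∧ ∀ (c : ℝ) w, π ((c : ℂ) • w) = c • π w := by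
  obtain ⟨e⟩ : Nonempty (V ≃L[ℝ] (Fin (Module.finrank ℝ V) → ℝ)) :=
    FiniteDimensional.nonempty_continuousLinearEquiv_of_finrank_eq (by simp)
  set n := Module.finrank ℝ V
  let A : Matrix (Fin n) (Fin n) ℝ :=
    LinearMap.toMatrix' ((e.toContinuousLinearMap.comp (T.comp e.symm.toContinuousLinearMap)) :
      (Fin n → ℝ) →L[ℝ] (Fin n → ℝ)).toLinearMap
  have hA : ∀ x, A.mulVec x = e (T (e.symm x)) := by
    intro x
    have h1 := LinearMap.toMatrix'_mulVec ((e.toContinuousLinearMap.comp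
      (T.comp e.symm.toContinuousLinearMap)) : (Fin n → ℝ) →L[ℝ] (Fin n → ℝ)).toLinearMap x
    exact h1
  let re : (Fin n → ℂ) →L[ℝ] (Fin n → ℝ) :=
    ContinuousLinearMap.pi fun i => Complex.reCLM.comp (ContinuousLinearMap.proj i)
  let im : (Fin n → ℝ) →L[ℝ] (Fin n → ℂ) :=
    ContinuousLinearMap.pi fun i => Complex.ofRealCLM.comp (ContinuousLinearMap.proj i)
  let B : Matrix (Fin n) (Fin n) ℂ := A.map Complex.ofRealHom
  let M : (Fin n → ℂ) →L[ℂ] (Fin n → ℂ) :=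
    Module.End.toContinuousLinearMap _ (Matrix.toLinAlgEquiv' B)
  refine ⟨n, M, B.charpoly, im.comp e.toContinuousLinearMap,
    e.symm.toContinuousLinearMap.comp re, B.charpoly_monic, ?_, ?_, ?_, ?_⟩
  · have h1 : aeval M B.charpoly =
        ((Module.End.toContinuousLinearMap (𝕜 := ℂ) (Fin n → ℂ)).toAlgHom.comp
        (Matrix.toLinAlgEquiv' : Matrix (Fin n) (Fin n) ℂ ≃ₐ[ℂ] _).toAlgHom)
          (aeval B B.charpoly) := by
      rw [← aeval_algHom_apply]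
      rfl
    rw [h1, Matrix.aeval_self_charpoly, map_zero]
  · intro v
    change e.symm (re (im (e v))) = v
    have : re (im (e v)) = e v := by
      ext i
      simp [re, im]
    rw [this, e.symm_apply_apply]
  · intro w
    change e.symm (re (B.mulVec w)) = T (e.symm (re w))
    have : re (B.mulVec w) = A.mulVec (re w) := by
      ext i
      simp [re, B, Matrix.mulVec, dotProduct]
    rw [this, hA, e.symm_apply_apply]
  · intro c w
    change e.symm (re ((c : ℂ) • w)) = c • e.symm (re w)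
    have : re ((c : ℂ) • w) = c • re w := by
      ext i
      simp [re]
    rw [this, map_smul]

variable {Ξ : Type*} [TopologicalSpace Ξ]

theorem right_inv_real (T : V →L[ℝ] V) {a c : ℝ} (ha : 0 ≤ a) (hac : a < c) :
    ∃ b, a < b ∧ b < c ∧ ∃ r : ((ℕ × Ξ) →ᵇ V) →L[ℝ] ((ℕ × Ξ) →ᵇ V), ∀ u m ξ,
      b • r u (m + 1, ξ) = T (r u (m, ξ)) + u (m, ξ) := by
  obtain ⟨n, M, P, ι, π, hP, hMP, h1, h2, h3⟩ := exists_cplx T
  have hfin : ((fun l : ℂ => ‖l‖) '' {l | l ∈ P.roots}).Finite := by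
    refine Set.Finite.image _ ?_
    exact P.roots.toFinset.finite_toSet.subset fun l hl => by simpa using hl
  obtain ⟨b, hb, hbn⟩ := ((Set.Ioo_infinite hac).sdiff hfin).nonempty
  obtain ⟨r, hr⟩ := right_inv_op' (Ξ := Ξ) M hP hMP (ha.trans_lt hb.1)
    (fun l hl h => hbn ⟨l, hl, h⟩)
  refine ⟨b, hb.1, hb.2, (π.compLeftContinuousBounded (ℕ × Ξ)).comp
    ((r.restrictScalars ℝ).comp (ι.compLeftContinuousBounded (ℕ × Ξ))), fun u m ξ => ?_⟩
  have h4 := congrArg π (hr (ι.compLeftContinuousBounded (ℕ × Ξ) u) m ξ)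
  rw [h3, map_add, h2] at h4
  have h5 : π ((ι.compLeftContinuousBounded (ℕ × Ξ) u) (m, ξ)) = u (m, ξ) := h1 _
  rw [h5] at h4
  exact h4

/-- small perturbations -/
theorem rec_small (T : V →L[ℝ] V) {a c : ℝ} (ha : 0 ≤ a) (hac : a < c) :
    ∃ b, a < b ∧ b < c ∧ ∃ ε, 0 < ε ∧ ∀ (S : ℕ × Ξ → (V →L[ℝ] V)) (g : (ℕ × Ξ) →ᵇ V),
      Continuous S → (∀ p, ‖S p - T‖ ≤ ε) → ∃ u : (ℕ × Ξ) →ᵇ V, ∀ m ξ,
        b • u (m + 1, ξ) = S (m, ξ) (u (m, ξ)) + g (m, ξ) := by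
  obtain ⟨b, hb1, hb2, r, hr⟩ := right_inv_real (Ξ := Ξ) T ha hac
  refine ⟨b, hb1, hb2, (2 * (‖r‖ + 1))⁻¹, by positivity, fun S g hS hST => ?_⟩
  have hε : 0 ≤ (2 * (‖r‖ + 1))⁻¹ := by positivity
  -- the perturbation
  let K : ((ℕ × Ξ) →ᵇ V) →L[ℝ] ((ℕ × Ξ) →ᵇ V) :=
    LinearMap.mkContinuous
      { toFun := fun u => BoundedContinuousFunction.ofNormedAddCommGroup
          (fun p : ℕ × Ξ => (S p - T) (u p))
          ((hS.sub continuous_const).clm_apply u.continuous) ((2 * (‖r‖ + 1))⁻¹ * ‖u‖)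
          fun p => ((S p - T).le_opNorm _).trans (by
            gcongr
            · exact hST p
            · exact u.norm_coe_le_norm p)
        map_add' := fun u v => by ext p; exact (S p - T).map_add _ _
        map_smul' := fun c u => by ext p; exact (S p - T).map_smul _ _ } (2 * (‖r‖ + 1))⁻¹ fun u =>
      BoundedContinuousFunction.norm_ofNormedAddCommGroup_le _ (by positivity) fun p =>
        ((S p - T).le_opNorm _).trans (by
            gcongr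
            · exact hST p
            · exact u.norm_coe_le_norm p)
  have hK : ‖K‖ ≤ (2 * (‖r‖ + 1))⁻¹ := LinearMap.mkContinuous_norm_le _ hε _
  have hKr : ‖K * r‖ < 1 := by
    calc ‖K * r‖ ≤ ‖K‖ * ‖r‖ := norm_mul_le _ _
      _ ≤ (2 * (‖r‖ + 1))⁻¹ * ‖r‖ := by gcongr
      _ < 1 := by
        rw [inv_mul_lt_iff₀ (by positivity)]
        nlinarith [norm_nonneg r]
  obtain ⟨v, hv⟩ := isUnit_one_sub_of_norm_lt_one hKr
  refine ⟨r ((↑v⁻¹ : ((ℕ × Ξ) →ᵇ V) →L[ℝ] ((ℕ × Ξ) →ᵇ V)) g), fun m ξ => ?_⟩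
  set h : (ℕ × Ξ) →ᵇ V := (↑v⁻¹ : ((ℕ × Ξ) →ᵇ V) →L[ℝ] ((ℕ × Ξ) →ᵇ V)) g with hh
  have h1 : (1 - K * r) h = g := by
    rw [← hv, hh]
    have h2 := congrArg (fun A : ((ℕ × Ξ) →ᵇ V) →L[ℝ] ((ℕ × Ξ) →ᵇ V) => A g) v.mul_inv
    exact h2
  have h2 : h (m, ξ) - (S (m, ξ) - T) (r h (m, ξ)) = g (m, ξ) := by
    rw [← h1]
    rfl
  rw [hr h m ξ, ← h2, _root_.sub_apply]
  abel

/-- **the recursion lemma** -/
theorem rec_lemma (T : V →L[ℝ] V) {a c : ℝ} (ha : 0 < a) (ha1 : a < 1) (hac : a < c)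
    (S S' : ℕ × Ξ → (V →L[ℝ] V)) (hS : Continuous S) (hS' : Continuous S')
    (hSS' : ∀ p, (S p).comp (S' p) = ContinuousLinearMap.id ℝ V)
    (hbS' : ∃ C : ℝ, ∀ p, ‖S' p‖ ≤ C)
    (hST : ∃ C : ℝ, ∀ p : ℕ × Ξ, ‖S p - T‖ ≤ C * a ^ p.1) (g : ℕ × Ξ → V) (hg : Continuous g)
    (hgb : ∃ C : ℝ, ∀ p : ℕ × Ξ, ‖g p‖ ≤ C * a ^ p.1) :
    ∃ u : ℕ × Ξ → V, Continuous u ∧ (∃ C : ℝ, ∀ p : ℕ × Ξ, ‖u p‖ ≤ C * c ^ p.1) ∧
      ∀ m ξ, u (m + 1, ξ) = S (m, ξ) (u (m, ξ)) + g (m, ξ) := by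
  obtain ⟨b, hb1, hb2, ε, hε, H⟩ := rec_small (Ξ := Ξ) T ha.le hac
  have hb0 : 0 < b := ha.trans hb1
  have hc0 : 0 < c := hb0.trans hb2
  obtain ⟨C, hC⟩ := hST
  -- a large shift
  obtain ⟨N, hN⟩ : ∃ N : ℕ, |C| * a ^ N ≤ ε := by
    have h1 : Tendsto (fun N : ℕ => |C| * a ^ N) atTop (𝓝 (|C| * 0)) :=
      (tendsto_pow_atTop_nhds_zero_of_lt_one ha.le ha1).const_mul _
    rw [mul_zero] at h1
    exact (h1.eventually_le_const hε).exists
  have hSN : ∀ p : ℕ × Ξ, ‖S (p.1 + N, p.2) - T‖ ≤ ε := by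
    intro p
    calc _ ≤ C * a ^ (p.1 + N) := hC (p.1 + N, p.2)
      _ ≤ |C| * (a ^ p.1 * a ^ N) := by
        rw [pow_add]; gcongr; exact le_abs_self C
      _ ≤ |C| * (1 * a ^ N) := by
        gcongr; exact pow_le_one₀ ha.le ha1.le
      _ ≤ ε := by rw [one_mul]; exact hN
  clear hN hC
  induction N generalizing S S' g with
  | zero =>
    obtain ⟨Cg, hCg⟩ := hgb
    let G : (ℕ × Ξ) →ᵇ V := BoundedContinuousFunction.ofNormedAddCommGroup
      (fun p : ℕ × Ξ => (b⁻¹) ^ p.1 • g p)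
      (((continuous_of_discreteTopology (f := fun m : ℕ => (b⁻¹) ^ m)).comp
        continuous_fst).smul hg) |Cg| (by
        intro p
        rw [norm_smul, norm_pow, norm_inv, Real.norm_of_nonneg hb0.le]
        calc _ ≤ (b⁻¹) ^ p.1 * (|Cg| * a ^ p.1) := by
              gcongr
              exact (hCg p).trans (by gcongr; exact le_abs_self _)
          _ = |Cg| * (a / b) ^ p.1 := by rw [div_pow, inv_pow]; ring
          _ ≤ |Cg| * 1 := by
              gcongr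
              exact pow_le_one₀ (by positivity) ((div_le_one hb0).2 hb1.le)
          _ = |Cg| := mul_one _)
    obtain ⟨u, hu⟩ := H S G hS (fun p => by simpa using hSN p)
    refine ⟨fun p => b ^ p.1 • u p, ((continuous_of_discreteTopology
      (f := fun m : ℕ => b ^ m)).comp continuous_fst).smul u.continuous, ⟨‖u‖, fun p => ?_⟩,
      fun m ξ => ?_⟩
    · rw [norm_smul, norm_pow, Real.norm_of_nonneg hb0.le, mul_comm]
      gcongr
      exact u.norm_coe_le_norm p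
    · have h1 := hu m ξ
      have h2 : G (m, ξ) = (b⁻¹) ^ m • g (m, ξ) := rfl
      rw [h2] at h1
      change b ^ (m + 1) • u (m + 1, ξ) = S (m, ξ) (b ^ m • u (m, ξ)) + g (m, ξ)
      rw [pow_succ, mul_smul, h1, smul_add, smul_smul, map_smul, ← mul_pow,
        mul_inv_cancel₀ hb0.ne', one_pow, one_smul]
  | succ N ih =>
    have hsh : Continuous (fun p : ℕ × Ξ => ((p.1 + 1, p.2) : ℕ × Ξ)) := by fun_prop
    obtain ⟨Cg, hCg⟩ := hgb
    obtain ⟨C', hC'⟩ := hbS'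
    obtain ⟨u, hu, ⟨Cu, hCu⟩, hrec⟩ := ih (fun p => S (p.1 + 1, p.2)) (fun p => S' (p.1 + 1, p.2))
      (hS.comp hsh) (hS'.comp hsh) (fun p => hSS' _) ⟨C', fun p => hC' _⟩
      (fun p => g (p.1 + 1, p.2)) (hg.comp hsh)
      ⟨|Cg|, fun p => (hCg _).trans (by
        change Cg * a ^ (p.1 + 1) ≤ _
        calc Cg * a ^ (p.1 + 1) ≤ |Cg| * (a ^ p.1 * a) := by
              rw [pow_succ]; gcongr; exact le_abs_self _
          _ ≤ |Cg| * (a ^ p.1 * 1) := by gcongr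
          _ = _ := by ring)⟩
      (fun p => by
        have := hSN p
        rw [show p.1 + (N + 1) = p.1 + N + 1 by ring] at this
        exact this)
    let U : ℕ × Ξ → V := fun p => match p with
      | (0, ξ) => S' (0, ξ) (u (0, ξ) - g (0, ξ))
      | (m + 1, ξ) => u (m, ξ)
    refine ⟨U, ?_, ⟨max |C'| 0 * (|Cu| + |Cg|) + |Cu| / c, ?_⟩, ?_⟩
    · rw [continuous_prod_of_discrete_left]
      intro m
      cases m with
      | zero =>
        have h0 : Continuous (fun ξ : Ξ => ((0, ξ) : ℕ × Ξ)) := by fun_prop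
        exact (hS'.comp h0).clm_apply ((hu.comp h0).sub (hg.comp h0))
      | succ m => exact hu.comp (by fun_prop)
    · rintro ⟨m, ξ⟩
      cases m with
      | zero =>
        change ‖S' (0, ξ) (u (0, ξ) - g (0, ξ))‖ ≤ _ * c ^ 0
        rw [pow_zero, mul_one]
        have h1 : ‖u (0, ξ) - g (0, ξ)‖ ≤ |Cu| + |Cg| := by
          refine (norm_sub_le _ _).trans (add_le_add ?_ ?_)
          · have := hCu (0, ξ)
            rw [pow_zero, mul_one] at this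
            exact this.trans (le_abs_self _)
          · have := hCg (0, ξ)
            rw [pow_zero, mul_one] at this
            exact this.trans (le_abs_self _)
        calc _ ≤ ‖S' (0, ξ)‖ * ‖u (0, ξ) - g (0, ξ)‖ := (S' (0, ξ)).le_opNorm _
          _ ≤ max |C'| 0 * (|Cu| + |Cg|) := by
            gcongr
            exact ((hC' _).trans (le_abs_self _)).trans (le_max_left _ _)
          _ ≤ _ := by
            have : 0 ≤ |Cu| / c := by positivity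
            linarith
      | succ m =>
        change ‖u (m, ξ)‖ ≤ _ * c ^ (m + 1)
        have h1 : |Cu| / c * c ^ (m + 1) = |Cu| * c ^ m := by
          rw [pow_succ]; field_simp
        calc _ ≤ Cu * c ^ m := hCu (m, ξ)
          _ ≤ |Cu| * c ^ m := by gcongr; exact le_abs_self _
          _ = |Cu| / c * c ^ (m + 1) := h1.symm
          _ ≤ _ := by
            gcongr
            have : 0 ≤ max |C'| 0 * (|Cu| + |Cg|) := by positivity
            linarith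
    · intro m ξ
      cases m with
      | zero =>
        change u (0, ξ) = S (0, ξ) (S' (0, ξ) (u (0, ξ) - g (0, ξ))) + g (0, ξ)
        have := congrArg (fun A : V →L[ℝ] V => A (u (0, ξ) - g (0, ξ))) (hSS' (0, ξ))
        have h2 : S (0, ξ) (S' (0, ξ) (u (0, ξ) - g (0, ξ))) = u (0, ξ) - g (0, ξ) := this
        rw [h2, sub_add_cancel]
      | succ m => exact hrec m ξ

end Real

end Vale.Agent.P207.N3.H992
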