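import Vale.Agent.P207.N3.H992.Had
import Vale.Agent.P207.N3.H992.Rec

/-!
# P207, line N3, P4: the nonstationary extension theorem

`G (m, ξ) → f` exponentially in `C^∞` near a contracting fixed point; a stationary solution of
`y = M∞ · (y ∘ f) + H∞` extends to a solution `y (m+1, ξ) = M (m, ξ) · (y (m, ξ) ∘ G (m, ξ)) + H (m, ξ)`
of the nonstationary equation which converges to it exponentially in `C^∞`, uniformly in `ξ`.
-/

noncomputable section

namespace Vale.Agent.P207.N3.H992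

open Set Metric Filter Topology

universe u

variable {Ξ : Type*} [TopologicalSpace Ξ]
variable {E : Type u} [NormedAddCommGroup E] [NormedSpace ℝ E] {R : ℝ}

section aux

variable {F : Type u} [NormedAddCommGroup F] [NormedSpace ℝ F]

omit [NormedSpace ℝ E] [NormedSpace ℝ F] in
theorem B0.contAt {P : Type*} [TopologicalSpace P] {z : P → E → F} (h : B0 R z) {x : E}
    (hx : x ∈ ball (0 : E) R) : Continuous (fun p => z p x) := by
  rw [← continuousOn_univ]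
  have h1 : ContinuousOn (fun p : P => ((p, x) : P × E)) univ :=
    (continuous_id.prodMk continuous_const).continuousOn
  exact h.cont.comp h1 fun p _ => ⟨mem_univ _, hx⟩

theorem norm_had_le {z : E → F} {ρ : ℝ} (h : ∀ x ∈ ball (0 : E) R, ‖fderiv ℝ z x‖ ≤ ρ) {x : E}
    (hx : x ∈ ball (0 : E) R) : ‖Had z x‖ ≤ ρ := by
  have h1 := intervalIntegral.norm_integral_le_of_norm_le_const
    (f := fun t : ℝ => fderiv ℝ z (t • x)) (a := 0) (b := 1) (C := ρ) (by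
      intro t ht
      obtain ⟨h1, h2⟩ := uI_mem ht
      exact h _ (smul_mem_ball' hx h1 h2))
  rw [sub_zero, abs_one, mul_one] at h1
  exact h1


/-- the bound coming from `Cv` -/
theorem Cv.bound {b : ℝ} (hb : 0 < b) {z : ℕ × Ξ → E → F} {y : E → F} (h : Cv R b z y) :
    ∃ C : ℝ, ∀ p, ∀ x ∈ ball (0 : E) R, ‖z p x - y x‖ ≤ C * b ^ p.1 := by
  obtain ⟨C, hC⟩ := (h 0).b0.bdd
  refine ⟨C, fun p x hx => ?_⟩
  have h1 := hC p x hx
  rw [norm_smul, norm_pow, norm_inv, Real.norm_of_nonneg hb.le, inv_pow,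
    inv_mul_le_iff₀ (by positivity)] at h1
  rwa [mul_comm] at h1


theorem Cv.constFam {b : ℝ} (hb : 0 < b) {c : ℕ × Ξ → F} {c0 : F} (hc : Continuous c)
    (hbd : ∃ C : ℝ, ∀ p, ‖c p - c0‖ ≤ C * b ^ p.1) :
    Cv (E := E) R b (fun p _ => c p) (fun _ => c0) := by
  intro k
  obtain ⟨C, hC⟩ := hbd
  refine BF.const ((pow_cont _).smul (hc.sub continuous_const)) ⟨C, fun p => ?_⟩
  rw [norm_smul, norm_pow, norm_inv, Real.norm_of_nonneg hb.le, inv_pow,
    inv_mul_le_iff₀ (by positivity), mul_comm]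
  exact hC p


theorem Cv.sand {b : ℝ} (hb : 0 < b) (hb1 : b ≤ 1) {F' : Type u} [NormedAddCommGroup F']
    [NormedSpace ℝ F'] {M : ℕ × Ξ → E → (F →L[ℝ] F')} {M' : E → (F →L[ℝ] F')}
    {D : ℕ × Ξ → E → (E →L[ℝ] E)} {D' : E → (E →L[ℝ] E)} (hM : Cv R b M M') (hD : Cv R b D D')
    (hM' : SB R M') (hD' : SB R D') :
    Cv R b (fun p x => sand (M p x) (D p x)) (fun x => sand (M' x) (D' x)) := by
  have h1 := Cv.clm (F₁ := F →L[ℝ] F') (F₂ := (E →L[ℝ] F) →L[ℝ] E →L[ℝ] F')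
    (ContinuousLinearMap.compL ℝ E F F') hM
  have h2 := Cv.clm (F₁ := E →L[ℝ] E) (F₂ := (E →L[ℝ] F) →L[ℝ] E →L[ℝ] F)
    (ContinuousLinearMap.compL ℝ E E F).flip hD
  have h3 : SB R (fun x => ContinuousLinearMap.compL ℝ E F F' (M' x)) := fun k =>
    BF.clm (F₁ := F →L[ℝ] F') (F₂ := (E →L[ℝ] F) →L[ℝ] E →L[ℝ] F')
    (ContinuousLinearMap.compL ℝ E F F') (hM' k)
  have h4 : SB R (fun x => (ContinuousLinearMap.compL ℝ E E F).flip (D' x)) := fun k =>
    BF.clm (F₁ := E →L[ℝ] E) (F₂ := (E →L[ℝ] F) →L[ℝ] E →L[ℝ] F)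
    (ContinuousLinearMap.compL ℝ E E F).flip (hD' k)
  exact Cv.compL hb hb1 h1 h2 h3 h4

theorem SB.sand {F' : Type u} [NormedAddCommGroup F']
    [NormedSpace ℝ F'] {M' : E → (F →L[ℝ] F')} {D' : E → (E →L[ℝ] E)}
    (hM' : SB R M') (hD' : SB R D') : SB R (fun x => H992.sand (M' x) (D' x)) :=
  fun k => BF.sand (P := Unit) (M := fun _ => M') (D := fun _ => D') (hM' k) (hD' k)

end aux

/-- the solution of the nonstationary equation with a given start -/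
def nsSol {F : Type u} [NormedAddCommGroup F] [NormedSpace ℝ F] (G : ℕ × Ξ → E → E)
    (M : ℕ × Ξ → E → (F →L[ℝ] F)) (H : ℕ × Ξ → E → F) (y0 : E → F) : ℕ → Ξ → E → F
  | 0, _, x => y0 x
  | m + 1, ξ, x => M (m, ξ) x (nsSol G M H y0 m ξ (G (m, ξ) x)) + H (m, ξ) x


/-- the case of a contracting multiplier -/
theorem nse_zero {F : Type u} [NormedAddCommGroup F] [NormedSpace ℝ F] {σ σ' θ : ℝ}
    (hσ : 0 < σ) (hσσ' : σ < σ') (hσ' : σ' ≤ 1) (hθ : θ < σ')
    {G : ℕ × Ξ → E → E} {f : E → E} (hG : Cv R σ G f) (hf : SB R f)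
    (hmG : ∀ p, ∀ x ∈ ball (0 : E) R, G p x ∈ ball (0 : E) R)
    (hmf : ∀ x ∈ ball (0 : E) R, f x ∈ ball (0 : E) R)
    (hDG : ∀ p, ∀ x ∈ ball (0 : E) R, ‖fderiv ℝ (G p) x‖ ≤ 1)
    {M : ℕ × Ξ → E → (F →L[ℝ] F)} {M' : E → (F →L[ℝ] F)} (hM : Cv R σ M M') (hM' : SB R M')
    (hMθ : ∀ p, ∀ x ∈ ball (0 : E) R, ‖M p x‖ ≤ θ)
    {H : ℕ × Ξ → E → F} {H' : E → F} (hH : Cv R σ H H')
    {y : E → F} (hy : SB R y) (hyf : ∀ x ∈ ball (0 : E) R, y x = M' x (y (f x)) + H' x) :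
    ∃ z : ℕ × Ξ → E → F, Cv R σ' z y ∧ ∀ m ξ, ∀ x ∈ ball (0 : E) R,
      z (m + 1, ξ) x = M (m, ξ) x (z (m, ξ) (G (m, ξ) x)) + H (m, ξ) x := by
  have hσ1 : σ ≤ 1 := (hσσ'.trans_le hσ').le
  have hσ'0 : 0 < σ' := hσ.trans hσσ'
  refine ⟨fun p => nsSol G M H y p.1 p.2, ?_, fun m ξ x _ => rfl⟩
  intro k
  have hθ0 : 0 ≤ max θ 0 / σ' := by positivity
  have hθ1 : max θ 0 / σ' < 1 := by
    rw [div_lt_one hσ'0]
    exact max_lt hθ hσ'0
  -- the forcing
  have hz : Cv R σ' (fun p x => M p x (y (G p x)) + H p x) (fun x => M' x (y (f x)) + H' x) :=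
    ((Cv.app hσ hσ1 hM (Cv.compR hσ hσ1 hG hf hmG hmf hy) hM' (SB.comp hf hmf hy)).add hH).mono hσ
      hσσ'.le
  refine BF.cocycle (M := fun p x => (σ'⁻¹) • M p x)
    (e := fun p x => σ'⁻¹ • ((σ'⁻¹) ^ p.1 • ((M p x (y (G p x)) + H p x) -
      (M' x (y (f x)) + H' x)))) hθ0 hθ1 (hG.bf hσ hσ1 hf) hmG hDG ?_ ?_ ?_ ?_ ?_
  · exact BF.smulc continuous_const ⟨_, fun _ => le_rfl⟩ (hM.bf hσ hσ1 hM' k)
  · intro p x hx
    rw [norm_smul, norm_inv, Real.norm_of_nonneg hσ'0.le, div_eq_inv_mul]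
    gcongr
    exact (hMθ p x hx).trans (le_max_left _ _)
  · exact BF.smulc continuous_const ⟨_, fun _ => le_rfl⟩ (hz k)
  · refine (BF.cst (0 : F)).congr fun ξ x _ => ?_
    simp [nsSol]
  · intro m ξ x hx
    change (σ'⁻¹) ^ (m + 1) • (nsSol G M H y (m + 1) ξ x - y x) = (σ'⁻¹ • M (m, ξ) x)
      ((σ'⁻¹) ^ m • (nsSol G M H y m ξ (G (m, ξ) x) - y (G (m, ξ) x))) +
      σ'⁻¹ • ((σ'⁻¹) ^ m • ((M (m, ξ) x (y (G (m, ξ) x)) + H (m, ξ) x) -
      (M' x (y (f x)) + H' x)))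
    rw [← hyf x hx, nsSol, _root_.smul_apply, map_smul, map_sub, pow_succ]
    module

/-- **the nonstationary extension theorem** -/
theorem nse [FiniteDimensional ℝ E] {ρ : ℝ} (hρ0 : 0 ≤ ρ) (hρ1 : ρ ≤ 1) (hR : 0 < R)
    {G : ℕ × Ξ → E → E} {f : E → E} (hf : SB R f)
    (hmG : ∀ p, ∀ x ∈ ball (0 : E) R, G p x ∈ ball (0 : E) R)
    (hmf : ∀ x ∈ ball (0 : E) R, f x ∈ ball (0 : E) R)
    (hDG : ∀ p, ∀ x ∈ ball (0 : E) R, ‖fderiv ℝ (G p) x‖ ≤ ρ)
    (hG0 : ∀ p, G p 0 = 0) (hf0 : f 0 = 0) {D : ℕ × Ξ → (E →L[ℝ] E)} (hD : Continuous D)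
    (hDb : ∃ C : ℝ, ∀ p, ‖D p‖ ≤ C)
    (hD1 : ∀ p, (D p).comp (fderiv ℝ (G p) 0) = ContinuousLinearMap.id ℝ E) (s : ℕ) :
    ∀ {F : Type u} [NormedAddCommGroup F] [NormedSpace ℝ F] [FiniteDimensional ℝ F] {σ σ' θ : ℝ},
    0 < σ → σ < σ' → σ' ≤ 1 → θ < σ' → Cv R σ G f →
    ∀ {M : ℕ × Ξ → E → (F →L[ℝ] F)} {M' : E → (F →L[ℝ] F)}, Cv R σ M M' → SB R M' →
    (∀ p, ∀ x ∈ ball (0 : E) R, ‖M p x‖ * ρ ^ s ≤ θ) →
    ∀ {N : ℕ × Ξ → (F →L[ℝ] F)}, Continuous N → (∃ C : ℝ, ∀ p, ‖N p‖ ≤ C) →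
    (∀ p, (M p 0).comp (N p) = ContinuousLinearMap.id ℝ F) →
    ∀ {H : ℕ × Ξ → E → F} {H' : E → F}, Cv R σ H H' → SB R H' →
    ∀ {y : E → F}, SB R y → (∀ x ∈ ball (0 : E) R, y x = M' x (y (f x)) + H' x) →
    ∃ z : ℕ × Ξ → E → F, Cv R σ' z y ∧ ∀ m ξ, ∀ x ∈ ball (0 : E) R,
      z (m + 1, ξ) x = M (m, ξ) x (z (m, ξ) (G (m, ξ) x)) + H (m, ξ) x := by
  have h0m : (0 : E) ∈ ball (0 : E) R := mem_ball_self hR
  induction s with
  | zero =>
    intro F _ _ _ σ σ' θ hσ hσσ' hσ' hθ hG M M' hM hM' hMθ N hN hNb hMN H H' hH hH' y hy hyf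
    exact nse_zero hσ hσσ' hσ' hθ hG hf hmG hmf (fun p x hx => (hDG p x hx).trans hρ1) hM hM'
      (fun p x hx => by simpa using hMθ p x hx) hH hy hyf
  | succ s ih =>
    intro F _ _ _ σ σ' θ hσ hσσ' hσ' hθ hG M M' hM hM' hMθ N hN hNb hMN H H' hH hH' y hy hyf
    have : CompleteSpace E := FiniteDimensional.complete ℝ E
    have : CompleteSpace F := FiniteDimensional.complete ℝ F
    have hσ1 : σ < 1 := hσσ'.trans_le hσ'
    obtain ⟨τ, hτ1, hτ2⟩ := exists_between hσσ'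
    have hτ0 : 0 < τ := hσ.trans hτ1
    have hτ3 : τ ≤ 1 := hτ2.le.trans hσ'
    -- the values at `0`
    obtain ⟨CM, hCM⟩ := hM.bound hσ
    obtain ⟨CH, hCH⟩ := hH.bound hσ
    have hMc : Continuous (fun p => M p 0) := (hM.bf hσ hσ1.le hM' 0).b0.contAt h0m
    have hHc : Continuous (fun p => H p 0) := (hH.bf hσ hσ1.le hH' 0).b0.contAt h0m
    obtain ⟨δ, hδc, ⟨Cδ, hCδ⟩, hδ⟩ := rec_lemma (M' 0) hσ hσ1 hτ1 (fun p => M p 0) N hMc hN hMN hNb
      ⟨CM, fun p => hCM p 0 h0m⟩ (fun p => (M p 0 - M' 0) (y 0) + (H p 0 - H' 0))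
      (((hMc.sub continuous_const).clm_apply continuous_const).add (hHc.sub continuous_const))
      ⟨CM * ‖y 0‖ + CH, fun p => by
        calc _ ≤ ‖(M p 0 - M' 0) (y 0)‖ + ‖H p 0 - H' 0‖ := norm_add_le _ _
          _ ≤ (CM * σ ^ p.1) * ‖y 0‖ + CH * σ ^ p.1 := by
            refine add_le_add (((M p 0 - M' 0).le_opNorm _).trans ?_) (hCH p 0 h0m)
            gcongr
            exact hCM p 0 h0m
          _ = _ := by ring⟩
    set c : ℕ × Ξ → F := fun p => y 0 + δ p with hc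
    have hy0 : y 0 = M' 0 (y 0) + H' 0 := by
      have := hyf 0 h0m
      rwa [hf0] at this
    have hcrec : ∀ m ξ, c (m + 1, ξ) = M (m, ξ) 0 (c (m, ξ)) + H (m, ξ) 0 := by
      intro m ξ
      simp only [hc]
      rw [hδ m ξ, map_add, _root_.sub_apply]
      linear_combination (norm := module) (1 : ℝ) • hy0
    have hcc : Continuous c := continuous_const.add hδc
    have hcCv : Cv (E := E) R τ (fun p _ => c p) (fun _ => y 0) :=
      Cv.constFam hτ0 hcc ⟨Cδ, fun p => by simpa [hc] using hCδ p⟩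
    have hcCv' : Cv (E := E) R τ (fun p _ => c (p.1 + 1, p.2)) (fun _ => y 0) := by
      refine Cv.constFam hτ0 (hcc.comp (by fun_prop)) ⟨|Cδ|, fun p => ?_⟩
      have h1 : ‖c (p.1 + 1, p.2) - y 0‖ ≤ Cδ * τ ^ (p.1 + 1) := by
        simpa [hc] using hCδ (p.1 + 1, p.2)
      calc _ ≤ Cδ * τ ^ (p.1 + 1) := h1
        _ ≤ |Cδ| * (τ ^ p.1 * τ) := by rw [pow_succ]; gcongr; exact le_abs_self _
        _ ≤ |Cδ| * (τ ^ p.1 * 1) := by gcongr
        _ = _ := by ring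
    -- the data at rate `τ`
    have hGτ : Cv R τ G f := hG.mono hσ hτ1.le
    have hMτ : Cv R τ M M' := hM.mono hσ hτ1.le
    have hHτ : Cv R τ H H' := hH.mono hσ hτ1.le
    -- the reduced forcing
    set J : ℕ × Ξ → E → F := fun p x => M p x (c p) + H p x - c (p.1 + 1, p.2) with hJ
    set J' : E → F := fun x => M' x (y 0) + H' x - y 0 with hJ'
    have hJCv : Cv R τ J J' :=
      ((Cv.app hτ0 hτ3 hMτ hcCv hM' (SB.cst _)).add hHτ).sub hcCv'
    have hJ'SB : SB R J' := ((SB.app hM' (SB.cst _)).add hH').sub (SB.cst _)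
    have hJ0 : ∀ p, J p 0 = 0 := fun p => by
      simp only [hJ]
      rw [hcrec p.1 p.2, sub_self]
    have hJ'0 : J' 0 = 0 := by
      simp only [hJ']
      rw [← hy0, sub_self]
    -- the quotients
    set A : ℕ × Ξ → E → (E →L[ℝ] E) := fun p => Had (G p) with hA
    set A' : E → (E →L[ℝ] E) := Had f with hA'
    have hACv : Cv R τ A A' := hGτ.had hτ0 hτ3 hf
    have hA'SB : SB R A' := hf.had
    have hAx : ∀ p, ∀ x ∈ ball (0 : E) R, A p x x = G p x := fun p x hx => by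
      rw [hA, BF.had_apply (hG.bf hσ hσ1.le hf 1) p hx, hG0, sub_zero]
    have hA'x : ∀ x ∈ ball (0 : E) R, A' x x = f x := fun x hx => by
      rw [hA', hf.had_apply hx, hf0, sub_zero]
    set Y : E → (E →L[ℝ] F) := Had y with hY
    have hYSB : SB R Y := hy.had
    have hYx : ∀ x ∈ ball (0 : E) R, Y x x = y x - y 0 := fun x hx => hy.had_apply hx
    have hJCv' : Cv R τ (fun p => Had (J p)) (Had J') := hJCv.had hτ0 hτ3 hJ'SB
    have hJx : ∀ p, ∀ x ∈ ball (0 : E) R, Had (J p) x x = J p x := fun p x hx => by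
      rw [BF.had_apply (hJCv.bf hτ0 hτ3 hJ'SB 1) p hx, hJ0, sub_zero]
    have hJ'x : ∀ x ∈ ball (0 : E) R, Had J' x x = J' x := fun x hx => by
      rw [hJ'SB.had_apply hx, hJ'0, sub_zero]
    -- the correction
    set κ : E → (E →L[ℝ] F) := fun x => Y x - sand (M' x) (A' x) (Y (f x)) - Had J' x with hκ
    have hκSB : SB R κ :=
      (hYSB.sub (SB.app (SB.sand hM' hA'SB) (SB.comp hf hmf hYSB))).sub hJ'SB.had
    have hκx : ∀ x ∈ ball (0 : E) R, κ x x = 0 := by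
      intro x hx
      simp only [hκ, _root_.sub_apply, sand_apply, ContinuousLinearMap.comp_apply]
      rw [hYx x hx, hA'x x hx, hYx (f x) (hmf x hx), hJ'x x hx]
      simp only [hJ', map_sub]
      linear_combination (norm := module) (1 : ℝ) • hyf x hx
    -- the induction hypothesis
    obtain ⟨Z, hZ, hZrec⟩ := ih (F := E →L[ℝ] F) hτ0 hτ2 hσ' hθ hGτ
      (M := fun p x => sand (M p x) (A p x)) (M' := fun x => sand (M' x) (A' x))
      (Cv.sand hτ0 hτ3 hMτ hACv hM' hA'SB) (SB.sand hM' hA'SB)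
      (fun p x hx => by
        calc _ ≤ (‖M p x‖ * ‖A p x‖) * ρ ^ s := by
              gcongr; exact norm_sand_le _ _
          _ ≤ (‖M p x‖ * ρ) * ρ ^ s := by
              gcongr; exact norm_had_le (hDG p) hx
          _ = ‖M p x‖ * ρ ^ (s + 1) := by ring
          _ ≤ θ := hMθ p x hx)
      (N := fun p => sand (N p) (D p))
      (by
        have h1 : Continuous (fun p => ContinuousLinearMap.compL ℝ E F F (N p)) :=
          (ContinuousLinearMap.continuous _).comp hN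
        have h2 : Continuous (fun p => (ContinuousLinearMap.compL ℝ E E F).flip (D p)) :=
          (ContinuousLinearMap.continuous _).comp hD
        exact h1.clm_comp h2)
      (by
        obtain ⟨C1, hC1⟩ := hNb
        obtain ⟨C2, hC2⟩ := hDb
        refine ⟨|C1| * |C2|, fun p => (norm_sand_le _ _).trans ?_⟩
        gcongr
        · exact (hC1 p).trans (le_abs_self _)
        · exact (hC2 p).trans (le_abs_self _))
      (fun p => by
        ext B v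
        have h1 := congrArg (fun T : F →L[ℝ] F => T (B v)) (hMN p)
        have h2 := congrArg (fun T : E →L[ℝ] E => T v) (hD1 p)
        simp only [ContinuousLinearMap.comp_apply, ContinuousLinearMap.id_apply] at h1 h2
        have h3 : A p 0 = fderiv ℝ (G p) 0 := had_zero
        simp only [ContinuousLinearMap.comp_apply, sand_apply, ContinuousLinearMap.id_apply, h3,
          h2, h1])
      (H := fun p x => Had (J p) x + κ x) (H' := fun x => Had J' x + κ x)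
      (hJCv'.add (Cv.cst κ)) (hJ'SB.had.add hκSB) (y := Y) hYSB
      (fun x _ => by simp only [hκ]; abel)
    -- the solution
    refine ⟨fun p x => c p + Z p x x, ?_, fun m ξ x hx => ?_⟩
    · have h1 : Cv R σ' (fun p x => c p + Z p x x) (fun x => y 0 + Y x x) :=
        (hcCv.mono hτ0 hτ2.le).add (Cv.app (hτ0.trans hτ2) hσ' hZ (Cv.cst _) hYSB SB.id')
      refine h1.congr (fun p x _ => rfl) fun x hx => ?_
      rw [hYx x hx]
      abel
    · change c (m + 1, ξ) + Z (m + 1, ξ) x x = M (m, ξ) x (c (m, ξ) + Z (m, ξ) (G (m, ξ) x)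
        (G (m, ξ) x)) + H (m, ξ) x
      rw [hZrec m ξ x hx, _root_.add_apply, _root_.add_apply, hκx x hx, hJx _ x hx, sand_apply,
        ContinuousLinearMap.comp_apply, ContinuousLinearMap.comp_apply, hAx _ x hx, map_add]
      simp only [hJ]
      abel

end Vale.Agent.P207.N3.H992
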