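import Vale.Agent.P207.N3.H992.Fwd3

/-!
# P207, line N3, P4: parameters in a locally compact space, patching by a partition of unity

`CvK R b z y` : `Cv` on `ℕ × K` for every compact set `K` of parameters.
-/

noncomputable section

namespace Vale.Agent.P207.N3.H992

open Set Metric Filter Topology

universe u

variable {Ξ : Type*} [TopologicalSpace Ξ]
variable {E : Type u} [NormedAddCommGroup E] [NormedSpace ℝ E] {R b : ℝ}
variable {F : Type u} [NormedAddCommGroup F] [NormedSpace ℝ F]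

/-- exponential convergence in `C^∞`, uniformly on compact sets of parameters -/
def CvK (R b : ℝ) (z : ℕ × Ξ → E → F) (y : E → F) : Prop :=
  ∀ K : Set Ξ, IsCompact K → Cv R b (fun (p : ℕ × K) x => z (p.1, p.2) x) y

omit [NormedSpace ℝ E] in
/-- continuity at an interior point of the parameter set -/
theorem contAt_of_sub {Y : Type*} [TopologicalSpace Y] {L : Set Ξ} {g : (ℕ × Ξ) × E → Y}
    (hg : ContinuousOn (fun q : (ℕ × L) × E => g ((q.1.1, q.1.2), q.2)) (univ ×ˢ ball 0 R))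
    {m : ℕ} {ξ : Ξ} {x : E} (hξ : L ∈ 𝓝 ξ) (hx : x ∈ ball (0 : E) R) :
    ContinuousAt g ((m, ξ), x) := by
  have hξL : ξ ∈ L := mem_of_mem_nhds hξ
  let ι : (ℕ × L) × E → (ℕ × Ξ) × E := fun q => ((q.1.1, q.1.2), q.2)
  have hι : IsInducing ι := (IsInducing.id.prodMap IsInducing.subtypeVal).prodMap IsInducing.id
  have h1 : ContinuousAt (g ∘ ι) ((m, ⟨ξ, hξL⟩), x) :=
    hg.continuousAt ((isOpen_univ.prod isOpen_ball).mem_nhds ⟨mem_univ _, hx⟩)
  have h2 : 𝓝 (ι ((m, ⟨ξ, hξL⟩), x)) ≤ map ι (𝓝 ((m, ⟨ξ, hξL⟩), x)) := by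
    rw [hι.map_nhds_eq, nhdsWithin, le_inf_iff]
    refine ⟨le_rfl, le_principal_iff.2 ?_⟩
    have h3 : {q : (ℕ × Ξ) × E | q.1.2 ∈ L} ∈ 𝓝 (((m, ξ), x) : (ℕ × Ξ) × E) :=
      (continuous_snd.comp continuous_fst).continuousAt.preimage_mem_nhds hξ
    refine mem_of_superset h3 fun q hq => ⟨((q.1.1, ⟨q.1.2, hq⟩), q.2), rfl⟩
  intro V hV
  have h4 := h1 hV
  exact h2 (show ι ⁻¹' (g ⁻¹' V) ∈ 𝓝 ((m, ⟨ξ, hξL⟩), x) from h4)

/-- multiplication by a cut-off -/
theorem BF.glue {k : ℕ} {K L : Set Ξ} {χ : Ξ → ℝ} (hχ : Continuous χ) (hχb : ∀ ξ, |χ ξ| ≤ 1)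
    (hs : tsupport χ ⊆ interior L) {w : ℕ × Ξ → E → F}
    (hw : BF R k (fun (p : ℕ × L) x => w (p.1, p.2) x)) :
    BF R k (fun (p : ℕ × K) x => χ p.2 • w (p.1, p.2) x) := by
  obtain ⟨h1, h2⟩ := BF_iff.1 hw
  have hzero : ∀ ξ, ξ ∉ L → χ ξ = 0 := fun ξ hξ => by
    by_contra hne
    exact hξ (interior_subset (hs (subset_tsupport _ hne)))
  have hcd : ∀ (m : ℕ) (ξ : Ξ), ξ ∈ L → ContDiffOn ℝ k (w (m, ξ)) (ball 0 R) :=
    fun m ξ hξ => h1 (m, ⟨ξ, hξ⟩)
  have hsm : ∀ (j : ℕ) (m : ℕ) (ξ : Ξ), j ≤ k → ξ ∈ L → ∀ x ∈ ball (0 : E) R,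
      iteratedFDeriv ℝ j (fun x => χ ξ • w (m, ξ) x) x =
        χ ξ • iteratedFDeriv ℝ j (w (m, ξ)) x := by
    intro j m ξ hj hξ x hx
    refine iteratedFDeriv_const_smul_apply' ?_
    exact ((hcd m ξ hξ).contDiffAt (isOpen_ball.mem_nhds hx)).of_le (by exact_mod_cast hj)
  have hz : ∀ (j : ℕ) (m : ℕ) (ξ : Ξ), χ ξ = 0 → ∀ x,
      iteratedFDeriv ℝ j (fun x => χ ξ • w (m, ξ) x) x = 0 := by
    intro j m ξ h0 x
    simp only [h0, zero_smul]
    simp
  refine BF_iff.2 ⟨fun p => ?_, fun j hj => ⟨?_, ?_⟩⟩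
  · by_cases hp : (p.2 : Ξ) ∈ L
    · exact contDiffOn_const.smul (hcd p.1 p.2 hp)
    · simp only [hzero _ hp, zero_smul]
      exact contDiffOn_const
  · -- continuity
    obtain ⟨hc, -⟩ := h2 j hj
    have key : ∀ (m : ℕ) (ξ : Ξ) (x : E), x ∈ ball (0 : E) R → ContinuousAt
        (fun q : (ℕ × Ξ) × E => iteratedFDeriv ℝ j (fun x => χ q.1.2 • w q.1 x) q.2)
        ((m, ξ), x) := by
      intro m ξ x hx
      by_cases hξ : ξ ∈ tsupport χ
      · have hL : L ∈ 𝓝 ξ := mem_interior_iff_mem_nhds.1 (hs hξ)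
        have h3 : ContinuousAt (fun q : (ℕ × Ξ) × E => χ q.1.2 • iteratedFDeriv ℝ j (w q.1) q.2)
            ((m, ξ), x) :=
          (hχ.comp (continuous_snd.comp continuous_fst)).continuousAt.smul
            (contAt_of_sub (R := R) (L := L)
              (g := fun q : (ℕ × Ξ) × E => iteratedFDeriv ℝ j (w q.1) q.2) hc hL hx)
        refine h3.congr ?_
        have h4 : {q : (ℕ × Ξ) × E | q.1.2 ∈ L} ∈ 𝓝 (((m, ξ), x) : (ℕ × Ξ) × E) :=
          (continuous_snd.comp continuous_fst).continuousAt.preimage_mem_nhds hL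
        have h5 : {q : (ℕ × Ξ) × E | q.2 ∈ ball (0 : E) R} ∈ 𝓝 (((m, ξ), x) : (ℕ × Ξ) × E) :=
          continuous_snd.continuousAt.preimage_mem_nhds (isOpen_ball.mem_nhds hx)
        filter_upwards [h4, h5] with q hq1 hq2
        exact (hsm j q.1.1 q.1.2 hj hq1 q.2 hq2).symm
      · refine (continuousAt_const (y := (0 : ContinuousMultilinearMap ℝ (fun _ : Fin j => E)
          F))).congr ?_
        have h4 : {q : (ℕ × Ξ) × E | q.1.2 ∈ (tsupport χ)ᶜ} ∈ 𝓝 (((m, ξ), x) : (ℕ × Ξ) × E) :=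
          (continuous_snd.comp continuous_fst).continuousAt.preimage_mem_nhds
            ((isClosed_tsupport χ).isOpen_compl.mem_nhds hξ)
        filter_upwards [h4] with q hq
        exact (hz j q.1.1 q.1.2 (image_eq_zero_of_notMem_tsupport hq) q.2).symm
    intro q hq
    have h6 : Continuous (fun q : (ℕ × K) × E => (((q.1.1, (q.1.2 : Ξ)), q.2) : (ℕ × Ξ) × E)) := by
      fun_prop
    have h7 := ContinuousAt.comp (f := fun q : (ℕ × K) × E =>
      (((q.1.1, (q.1.2 : Ξ)), q.2) : (ℕ × Ξ) × E)) (x := q) (key q.1.1 q.1.2 q.2 hq.2)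
      h6.continuousAt
    exact h7.continuousWithinAt
  · obtain ⟨-, C, hC⟩ := h2 j hj
    refine ⟨|C|, fun p x hx => ?_⟩
    by_cases hp : (p.2 : Ξ) ∈ L
    · rw [hsm j p.1 p.2 hj hp x hx, norm_smul, Real.norm_eq_abs]
      calc _ ≤ 1 * |C| := by
            gcongr
            · exact hχb _
            · exact (hC (p.1, ⟨p.2, hp⟩) x hx).trans (le_abs_self _)
        _ = |C| := one_mul _
    · rw [hz j p.1 p.2 (hzero _ hp) x, norm_zero]
      exact abs_nonneg _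

theorem BF.finsum {P : Type*} [TopologicalSpace P] {k : ℕ} {ι : Type*} (s : Finset ι)
    {z : ι → P → E → F} (h : ∀ i ∈ s, BF R k (z i)) : BF R k (fun p x => ∑ i ∈ s, z i p x) := by
  classical
  induction s using Finset.induction_on with
  | empty => simpa using BF.cst (P := P) (R := R) (k := k) (E := E) (0 : F)
  | insert i s hi ih =>
    refine ((h i (Finset.mem_insert_self _ _)).add
      (ih fun j hj => h j (Finset.mem_insert_of_mem hj))).congr fun p x _ => ?_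
    rw [Finset.sum_insert hi]

/-- **patching of local solutions of an affine equation** -/
theorem patch [T2Space Ξ] [ParacompactSpace Ξ] [NormalSpace Ξ] {G : ℕ × Ξ → E → E}
    {M : ℕ × Ξ → E → (F →L[ℝ] F)} {H : ℕ × Ξ → E → F} {y : E → F}
    (hloc : ∀ ξ₀ : Ξ, ∃ L ∈ 𝓝 ξ₀, ∃ z : ℕ × L → E → F, Cv R b z y ∧
      ∀ (m : ℕ) (ξ : L), ∀ x ∈ ball (0 : E) R, z (m + 1, ξ) x =
        M (m, ξ) x (z (m, ξ) (G (m, ξ) x)) + H (m, ξ) x) :
    ∃ z : ℕ × Ξ → E → F, CvK R b z y ∧ ∀ m ξ, ∀ x ∈ ball (0 : E) R,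
      z (m + 1, ξ) x = M (m, ξ) x (z (m, ξ) (G (m, ξ) x)) + H (m, ξ) x := by
  classical
  choose L hL z hz hzr using hloc
  obtain ⟨ρ, hρ⟩ := PartitionOfUnity.exists_isSubordinate (s := (univ : Set Ξ)) isClosed_univ
    (fun ξ => interior (L ξ)) (fun ξ => isOpen_interior)
    (fun ξ _ => mem_iUnion.2 ⟨ξ, mem_interior_iff_mem_nhds.2 (hL ξ)⟩)
  -- the extended local solutions
  let w : Ξ → ℕ × Ξ → E → F := fun i p x => if h : p.2 ∈ L i then z i (p.1, ⟨p.2, h⟩) x else 0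
  have hw : ∀ i (p : ℕ × Ξ) (h : p.2 ∈ L i) x, w i p x = z i (p.1, ⟨p.2, h⟩) x :=
    fun i p h x => dif_pos h
  have hρL : ∀ i ξ, ρ i ξ ≠ 0 → ξ ∈ L i := fun i ξ h =>
    interior_subset (hρ i (subset_tsupport _ h))
  refine ⟨fun p x => ∑ i ∈ ρ.finsupport p.2, ρ i p.2 • w i p x, ?_, ?_⟩
  · intro K hK k
    -- finitely many indices
    have hfin : {i | (Function.support (ρ i) ∩ K).Nonempty}.Finite :=
      ρ.locallyFinite.finite_nonempty_inter_compact hK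
    have h1 : BF R k (fun (p : ℕ × K) x => ∑ i ∈ hfin.toFinset, ρ i p.2 •
        ((b⁻¹) ^ p.1 • (w i (p.1, p.2) x - y x))) := by
      refine BF.finsum _ fun i _ => ?_
      refine BF.glue (L := L i) (w := fun p x => (b⁻¹) ^ p.1 • (w i p x - y x)) (ρ i).continuous
        (fun ξ => by rw [abs_of_nonneg (ρ.nonneg i ξ)]; exact ρ.le_one i ξ) (hρ i) ?_
      refine (hz i k).congr fun p x _ => ?_
      rw [hw i (p.1, p.2) p.2.2]
    refine h1.congr fun p x _ => ?_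
    have hsub : ρ.finsupport (p.2 : Ξ) ⊆ hfin.toFinset := by
      intro i hi
      rw [Set.Finite.mem_toFinset]
      exact ⟨p.2, (ρ.mem_finsupport _).1 hi, p.2.2⟩
    have h2 : ∑ i ∈ ρ.finsupport (p.2 : Ξ), ρ i p.2 • w i (p.1, p.2) x =
        ∑ i ∈ hfin.toFinset, ρ i p.2 • w i (p.1, p.2) x := by
      refine Finset.sum_subset hsub fun i _ hi => ?_
      have : ρ i p.2 = 0 := by
        by_contra hne
        exact hi ((ρ.mem_finsupport _).2 hne)
      rw [this, zero_smul]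
    have h3 : ∑ i ∈ hfin.toFinset, ρ i (p.2 : Ξ) = 1 := ρ.sum_finsupport' (mem_univ _) hsub
    have h4 : y x = ∑ i ∈ hfin.toFinset, ρ i (p.2 : Ξ) • y x := by
      rw [← Finset.sum_smul, h3, one_smul]
    change (b⁻¹) ^ p.1 • ((∑ i ∈ ρ.finsupport (p.2 : Ξ), ρ i p.2 • w i (p.1, p.2) x) - y x) = _
    rw [h2]
    conv_lhs => rw [h4]
    rw [← Finset.sum_sub_distrib, Finset.smul_sum]
    refine Finset.sum_congr rfl fun i _ => ?_
    module
  · intro m ξ x hx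
    have h1 : ∀ i ∈ ρ.finsupport ξ, ρ i ξ • w i (m + 1, ξ) x =
        M (m, ξ) x (ρ i ξ • w i (m, ξ) (G (m, ξ) x)) + ρ i ξ • H (m, ξ) x := by
      intro i hi
      have hne : ρ i ξ ≠ 0 := (ρ.mem_finsupport _).1 hi
      have hm := hρL i ξ hne
      rw [hw i (m + 1, ξ) hm, hw i (m, ξ) hm]
      have := hzr i m ⟨ξ, hm⟩ x hx
      rw [this, smul_add, map_smul]
    change ∑ i ∈ ρ.finsupport ξ, ρ i ξ • w i (m + 1, ξ) x = _
    rw [Finset.sum_congr rfl h1, Finset.sum_add_distrib, ← map_sum, ← Finset.sum_smul,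
      ρ.sum_finsupport (mem_univ _), one_smul]

end Vale.Agent.P207.N3.H992
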